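import Mathlib

/-!
# P335: from a Poincare inequality to a total-variation bound (lazy symmetric chains)
-/

namespace P335

open Finset

/-- Jensen for one row of the matrix `2 P - 1`. -/
lemma row_jensen {Ω : Type*} [Fintype Ω] [DecidableEq Ω] (P : Matrix Ω Ω ℝ)
    (hnn : ∀ x y, 0 ≤ P x y) (hrow : ∀ x, ∑ y, P x y = 1)
    (hlazy : ∀ x, 1 / 2 ≤ P x x) (f : Ω → ℝ) (x : Ω) :
    (2 * ∑ y, P x y * f y - f x) ^ 2 ≤ 2 * ∑ y, P x y * f y ^ 2 - f x ^ 2 := by
  have hw0 : ∀ y ∈ (univ : Finset Ω), 0 ≤ 2 * P x y - (if y = x then 1 else 0) := by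
    intro y _
    by_cases h : y = x
    · subst h
      have := hlazy y
      simp only [if_true]
      linarith
    · have := hnn x y
      simp only [h, if_false]
      linarith
  have hw1 : ∑ y, (2 * P x y - (if y = x then (1 : ℝ) else 0)) = 1 := by
    rw [sum_sub_distrib, ← mul_sum, hrow]
    simp
    norm_num
  have hJ := (Even.convexOn_pow (𝕜 := ℝ) (n := 2) even_two).map_sum_le hw0 hw1
    (p := f) (fun _ _ => Set.mem_univ _)
  simp only [smul_eq_mul] at hJ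
  have e1 : ∑ y, (2 * P x y - (if y = x then (1 : ℝ) else 0)) * f y
      = 2 * ∑ y, P x y * f y - f x := by
    simp only [sub_mul, sum_sub_distrib, mul_sum, ite_mul, one_mul, zero_mul, mul_assoc]
    simp
  have e2 : ∑ y, (2 * P x y - (if y = x then (1 : ℝ) else 0)) * f y ^ 2
      = 2 * ∑ y, P x y * f y ^ 2 - f x ^ 2 := by
    simp only [sub_mul, sum_sub_distrib, mul_sum, ite_mul, one_mul, zero_mul, mul_assoc]
    simp
  rw [e1, e2] at hJ
  exact hJ

/-- one step contracts the square norm by the Dirichlet form -/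
lemma step_le {Ω : Type*} [Fintype Ω] [DecidableEq Ω] (P : Matrix Ω Ω ℝ)
    (hsymm : ∀ x y, P x y = P y x) (hnn : ∀ x y, 0 ≤ P x y) (hrow : ∀ x, ∑ y, P x y = 1)
    (hlazy : ∀ x, 1 / 2 ≤ P x x) (f : Ω → ℝ) :
    ∑ x, (∑ y, P x y * f y) ^ 2
      ≤ ∑ x, f x ^ 2 - (1 / 2) * ∑ x, ∑ y, P x y * (f x - f y) ^ 2 := by
  have hcol : ∑ x, ∑ y, P x y * f y ^ 2 = ∑ x, f x ^ 2 := by
    rw [sum_comm]
    refine sum_congr rfl fun y _ => ?_
    rw [← sum_mul]
    have : ∑ x, P x y = 1 := by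
      rw [← hrow y]
      exact sum_congr rfl fun x _ => hsymm x y
    rw [this, one_mul]
  have hrow2 : ∑ x, ∑ y, P x y * f x ^ 2 = ∑ x, f x ^ 2 := by
    refine sum_congr rfl fun x _ => ?_
    rw [← sum_mul, hrow, one_mul]
  have hJ : ∑ x, (2 * ∑ y, P x y * f y - f x) ^ 2
      ≤ ∑ x, (2 * ∑ y, P x y * f y ^ 2 - f x ^ 2) :=
    sum_le_sum fun x _ => row_jensen P hnn hrow hlazy f x
  have e1 : ∑ x, (2 * ∑ y, P x y * f y ^ 2 - f x ^ 2) = ∑ x, f x ^ 2 := by
    rw [sum_sub_distrib, ← mul_sum, hcol]; ring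
  have e2 : ∑ x, (2 * ∑ y, P x y * f y - f x) ^ 2
      = 4 * ∑ x, (∑ y, P x y * f y) ^ 2 - 4 * ∑ x, f x * ∑ y, P x y * f y + ∑ x, f x ^ 2 := by
    rw [mul_sum, mul_sum, ← sum_sub_distrib, ← sum_add_distrib]
    refine sum_congr rfl fun x _ => ?_
    ring
  have e3 : ∑ x, ∑ y, P x y * (f x - f y) ^ 2
      = 2 * ∑ x, f x ^ 2 - 2 * ∑ x, f x * ∑ y, P x y * f y := by
    have : ∀ x, ∑ y, P x y * (f x - f y) ^ 2
        = ∑ y, P x y * f x ^ 2 - 2 * (f x * ∑ y, P x y * f y) + ∑ y, P x y * f y ^ 2 := by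
      intro x
      rw [mul_sum, mul_sum, ← sum_sub_distrib, ← sum_add_distrib]
      refine sum_congr rfl fun y _ => ?_
      ring
    simp only [this]
    rw [sum_add_distrib, sum_sub_distrib, hrow2, hcol, ← mul_sum]
    ring
  rw [e1, e2] at hJ
  rw [e3]
  linarith

lemma half_pow (M : ℕ) (hM : 0 < M) : (1 - 1 / (M : ℝ)) ^ M ≤ 1 / 2 := by
  have h1 : (1 : ℝ) ≤ M := by exact_mod_cast hM
  have h := Real.one_sub_div_pow_le_exp_neg (n := M) (t := 1) h1
  refine h.trans ?_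
  rw [Real.exp_neg]
  have h2 : (2 : ℝ) ≤ Real.exp 1 := by
    have := Real.add_one_le_exp (1 : ℝ)
    linarith
  rw [one_div]
  exact inv_anti₀ (by norm_num) h2

/-- Let `P` be a symmetric stochastic matrix with `P x x ≥ 1/2` whose Dirichlet form dominates
`(1/M) |f|^2` on mean-zero functions.  If the state space has at most `2^k` points then after
`M (k+2)` steps the chain is within total variation `1/4` of uniform, from every start.

Proof sketch.  `S = P * P` is symmetric stochastic with `S x y ≥ P x y` for `x ≠ y` (laziness), and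
`|f|^2 - |P f|^2 = (1/2) Σ S x y (f x - f y)^2 ≥ (1/2) Σ P x y (f x - f y)^2 ≥ (1/M) |f|^2`
for mean-zero `f`; `P` preserves mean zero; so `|P^t h|^2 ≤ (1 - 1/M)^t |h|^2`.
Take `h = δ_x - 1/N`; Cauchy-Schwarz gives `(Σ_y |P^t x y - 1/N|)^2 ≤ N (1-1/M)^t`, and
`(1 - 1/M)^M ≤ 1/2`. -/
theorem tv_bound {Ω : Type*} [Fintype Ω] [DecidableEq Ω] [Nonempty Ω] (P : Matrix Ω Ω ℝ)
    (hsymm : ∀ x y, P x y = P y x) (hnn : ∀ x y, 0 ≤ P x y) (hrow : ∀ x, ∑ y, P x y = 1)
    (hlazy : ∀ x, 1 / 2 ≤ P x x) (M : ℕ) (hM : 0 < M)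
    (hgap : ∀ f : Ω → ℝ, ∑ x, f x = 0 →
      (1 / (M : ℝ)) * ∑ x, f x ^ 2 ≤ (1 / 2) * ∑ x, ∑ y, P x y * (f x - f y) ^ 2)
    (k : ℕ) (hN : Fintype.card Ω ≤ 2 ^ k) (x : Ω) :
    (1 / 2) * ∑ y, |(P ^ (M * (k + 2))) x y - 1 / (Fintype.card Ω : ℝ)| ≤ 1 / 4 := by
  obtain ⟨N, hNdef⟩ : ∃ N : ℕ, N = Fintype.card Ω := ⟨_, rfl⟩
  have hNpos : 0 < N := by rw [hNdef]; exact Fintype.card_pos
  have hNR : (0 : ℝ) < N := by exact_mod_cast hNpos
  rw [← hNdef] at hN ⊢
  obtain ⟨u, hu⟩ : ∃ u : ℕ → Ω → ℝ, ∀ t y, u t y = (P ^ t) x y - 1 / (N : ℝ) :=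
    ⟨_, fun _ _ => rfl⟩
  have hM1 : (1 : ℝ) ≤ M := by exact_mod_cast hM
  have hMR : (0 : ℝ) < M := by linarith
  have hc0 : 0 ≤ 1 - 1 / (M : ℝ) := by
    rw [sub_nonneg, div_le_one hMR]; exact hM1
  have hcard : ∑ _y : Ω, (1 / (N : ℝ)) = 1 := by
    rw [sum_const, card_univ, ← hNdef, nsmul_eq_mul]
    field_simp
  -- recursion
  have hrec : ∀ t y, u (t + 1) y = ∑ z, P y z * u t z := by
    intro t y
    rw [hu, pow_succ, Matrix.mul_apply]
    have : ∑ z, P y z * u t z = ∑ z, (P ^ t) x z * P z y - 1 / (N : ℝ) := by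
      have h1 : ∀ z, P y z * u t z = (P ^ t) x z * P z y - P y z * (1 / (N : ℝ)) := by
        intro z
        rw [hu, hsymm z y]; ring
      simp only [h1]
      rw [sum_sub_distrib, ← sum_mul, hrow, one_mul]
    rw [this]
  -- mean zero
  have hmean : ∀ t, ∑ y, u t y = 0 := by
    intro t
    induction t with
    | zero =>
      simp only [hu, pow_zero, Matrix.one_apply]
      rw [sum_sub_distrib, hcard]
      simp
    | succ t ih =>
      simp only [hrec]
      rw [sum_comm]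
      have : ∀ z, ∑ y, P y z * u t z = u t z := by
        intro z
        rw [← sum_mul]
        have : ∑ y, P y z = 1 := by
          rw [← hrow z]
          exact sum_congr rfl fun y _ => hsymm y z
        rw [this, one_mul]
      simp only [this]
      exact ih
  -- norm decay
  have hdecay : ∀ t, ∑ y, u t y ^ 2 ≤ (1 - 1 / (M : ℝ)) ^ t := by
    intro t
    induction t with
    | zero =>
      have h0 : ∀ y, u 0 y ^ 2 = (if x = y then (1 : ℝ) else 0) * (1 - 2 / N)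
          + (1 / (N : ℝ)) * (1 / N) := by
        intro y
        rw [hu, pow_zero, Matrix.one_apply]
        by_cases h : x = y
        · simp only [h, if_true]; ring
        · simp only [h, if_false]; ring
      simp only [h0]
      rw [sum_add_distrib, ← sum_mul, ← sum_mul, hcard]
      simp only [sum_ite_eq, mem_univ, if_true, pow_zero]
      have : 0 < 1 / (N : ℝ) := by positivity
      have e : (2 : ℝ) / N = 2 * (1 / N) := by ring
      rw [e]
      linarith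
    | succ t ih =>
      have h1 := step_le P hsymm hnn hrow hlazy (u t)
      have h2 := hgap (u t) (hmean t)
      have h3 : ∑ y, u (t + 1) y ^ 2 = ∑ y, (∑ z, P y z * u t z) ^ 2 :=
        sum_congr rfl fun y _ => by rw [hrec]
      rw [h3, pow_succ]
      calc ∑ y, (∑ z, P y z * u t z) ^ 2
          ≤ ∑ y, u t y ^ 2 - (1 / (M : ℝ)) * ∑ y, u t y ^ 2 := by linarith
        _ = (∑ y, u t y ^ 2) * (1 - 1 / (M : ℝ)) := by ring
        _ ≤ (1 - 1 / (M : ℝ)) ^ t * (1 - 1 / (M : ℝ)) := by gcongr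
  -- conclusion
  have hfin : ∑ y, u (M * (k + 2)) y ^ 2 ≤ (1 / 2) ^ (k + 2) := by
    refine (hdecay _).trans ?_
    rw [pow_mul]
    exact pow_le_pow_left₀ (pow_nonneg hc0 _) (half_pow M hM) _
  have hCS : (∑ y, |u (M * (k + 2)) y|) ^ 2 ≤ (N : ℝ) * ∑ y, |u (M * (k + 2)) y| ^ 2 := by
    have := sq_sum_le_card_mul_sum_sq (s := (univ : Finset Ω)) (f := fun y => |u (M * (k + 2)) y|)
    rw [card_univ, ← hNdef] at this
    exact this
  simp only [sq_abs] at hCS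
  have hN2 : (N : ℝ) ≤ 2 ^ k := by exact_mod_cast hN
  have hS0 : 0 ≤ ∑ y, u (M * (k + 2)) y ^ 2 := sum_nonneg fun _ _ => sq_nonneg _
  have hsq : (∑ y, |u (M * (k + 2)) y|) ^ 2 ≤ (1 / 2) ^ 2 := by
    calc (∑ y, |u (M * (k + 2)) y|) ^ 2 ≤ (N : ℝ) * ∑ y, u (M * (k + 2)) y ^ 2 := hCS
      _ ≤ 2 ^ k * (1 / 2) ^ (k + 2) := by gcongr
      _ = (1 / 2) ^ 2 := by
        rw [pow_add, ← mul_assoc, ← mul_pow]; norm_num
  have hle : ∑ y, |u (M * (k + 2)) y| ≤ 1 / 2 :=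
    abs_le_of_sq_le_sq' hsq (by norm_num) |>.2
  simp only [hu] at hle
  linarith

end P335
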