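import Vale.Agent.Lib.P335.Avg

/-!
# P335: localisation to the classes (fibres) of an equivalence relation

* `sum_avg`, `sum_eq_sum_cls`: a sum over `Ω` is the sum of the class means.
* `sum_le_sum_of_cls`, `sum_nonneg_of_cls`: an inequality between sums may be checked class by class.
* `Fib R x`: the class of `x` as a type; `sum_cls_eq_sum_fib`, `avg_fib`, `dot_fib`:
  sums and finer averages restricted to a class are the sums and averages of the restricted
  functions on the type `Fib R x`.
* `avg_transport`: averages are transported by a bijection of a class onto another finite type.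
-/

namespace P335

open Finset

variable {Ω : Type*} [Fintype Ω]

theorem sum_avg {R : Ω → Ω → Prop} (hR : Equivalence R) (F : Ω → ℝ) :
    ∑ x, avg R F x = ∑ x, F x := by
  have h1 : avg R (fun _ => (1 : ℝ)) = fun _ => (1 : ℝ) :=
    avg_of_inv hR (fun _ _ _ => rfl)
  have h := avg_symm hR F (fun _ => (1 : ℝ))
  rw [h1] at h
  simpa [dot] using h

theorem sum_eq_sum_cls {R : Ω → Ω → Prop} (hR : Equivalence R) (F : Ω → ℝ) :
    ∑ x, F x = ∑ x, (∑ y ∈ cls R x, F y) / ((cls R x).card : ℝ) :=
  (sum_avg hR F).symm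

theorem sum_le_sum_of_cls {R : Ω → Ω → Prop} (hR : Equivalence R) (F H : Ω → ℝ)
    (h : ∀ x, ∑ y ∈ cls R x, F y ≤ ∑ y ∈ cls R x, H y) : ∑ x, F x ≤ ∑ x, H x := by
  rw [sum_eq_sum_cls hR F, sum_eq_sum_cls hR H]
  refine Finset.sum_le_sum fun x _ => ?_
  exact div_le_div_of_nonneg_right (h x) (Nat.cast_nonneg _)

theorem sum_nonneg_of_cls {R : Ω → Ω → Prop} (hR : Equivalence R) (F : Ω → ℝ)
    (h : ∀ x, 0 ≤ ∑ y ∈ cls R x, F y) : 0 ≤ ∑ x, F x := by
  have := sum_le_sum_of_cls hR (fun _ => (0 : ℝ)) F (fun x => by simpa using h x)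
  simpa using this

/-- the class of `x` as a type -/
def Fib (R : Ω → Ω → Prop) (x : Ω) : Type _ := {y : Ω // R x y}

open Classical in
noncomputable instance (R : Ω → Ω → Prop) (x : Ω) : Fintype (Fib R x) := by
  unfold Fib
  infer_instance

theorem sum_cls_eq_sum_fib (R : Ω → Ω → Prop) (x : Ω) (F : Ω → ℝ) :
    ∑ y ∈ cls R x, F y = ∑ y : Fib R x, F y.1 := by
  classical
  unfold cls
  exact (Finset.sum_subtype (univ.filter fun y => R x y) (fun y => by simp) F)

/-- the relation induced on a class -/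
def relFib (r R : Ω → Ω → Prop) (x : Ω) : Fib R x → Fib R x → Prop := fun a b => r a.1 b.1

omit [Fintype Ω] in
theorem relFib_equiv {r : Ω → Ω → Prop} (hr : Equivalence r) (R : Ω → Ω → Prop) (x : Ω) :
    Equivalence (relFib r R x) where
  refl := fun a => hr.refl a.1
  symm := fun h => hr.symm h
  trans := fun h1 h2 => hr.trans h1 h2

/-- sums over a class of a finer relation, computed inside `Fib R x` -/
theorem sum_cls_fib {r R : Ω → Ω → Prop} (hR : Equivalence R) (hle : ∀ a b, r a b → R a b)
    (x : Ω) (y : Fib R x) (F : Ω → ℝ) :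
    ∑ a ∈ cls (relFib r R x) y, F a.1 = ∑ a ∈ cls r y.1, F a := by
  classical
  refine Finset.sum_bij (fun a _ => a.1) ?_ ?_ ?_ ?_
  · intro a ha
    have h : relFib r R x y a := mem_cls.1 ha
    exact mem_cls.2 h
  · intro a _ b _ hab
    exact Subtype.ext hab
  · intro b hb
    have h : r y.1 b := mem_cls.1 hb
    refine ⟨⟨b, hR.trans y.2 (hle _ _ h)⟩, ?_, rfl⟩
    exact mem_cls.2 (show relFib r R x y ⟨b, hR.trans y.2 (hle _ _ h)⟩ from h)
  · intro a _
    rfl

theorem card_cls_fib {r R : Ω → Ω → Prop} (hR : Equivalence R) (hle : ∀ a b, r a b → R a b)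
    (x : Ω) (y : Fib R x) :
    ((cls (relFib r R x) y).card : ℝ) = ((cls r y.1).card : ℝ) := by
  have h := sum_cls_fib hR hle x y (fun _ => (1 : ℝ))
  simpa using h

/-- a finer average restricted to a class is the average of the restricted function -/
theorem avg_fib {r R : Ω → Ω → Prop} (hR : Equivalence R) (hle : ∀ a b, r a b → R a b)
    (x : Ω) (f : Ω → ℝ) (y : Fib R x) :
    avg (relFib r R x) (fun a => f a.1) y = avg r f y.1 := by
  unfold avg
  rw [sum_cls_fib hR hle x y f, card_cls_fib hR hle x y]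

/-- `dot` localised to a class -/
theorem sum_cls_mul_eq_dot_fib (R : Ω → Ω → Prop) (x : Ω) (f g : Ω → ℝ) :
    ∑ y ∈ cls R x, f y * g y = dot (fun a : Fib R x => f a.1) (fun a : Fib R x => g a.1) := by
  rw [sum_cls_eq_sum_fib R x (fun y => f y * g y)]
  rfl

end P335
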