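import Vale.Agent.Lib.P335.Basic

/-!
# P335: the two facts from finite-dimensional spectral theory, stated on `Ω → ℝ` with `dot`
-/

namespace P335

open Finset

variable {Ω : Type*} [Fintype Ω]

theorem inner_eq_dot (x y : EuclideanSpace ℝ Ω) :
    inner ℝ x y = dot (WithLp.ofLp x) (WithLp.ofLp y) := by
  simp [dot, PiLp.inner_apply, mul_comm]

/-- transport of an operator to Euclidean space -/
noncomputable def lift (T : (Ω → ℝ) →ₗ[ℝ] (Ω → ℝ)) :
    EuclideanSpace ℝ Ω →ₗ[ℝ] EuclideanSpace ℝ Ω :=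
  (WithLp.linearEquiv 2 ℝ (Ω → ℝ)).symm.toLinearMap ∘ₗ T ∘ₗ
    (WithLp.linearEquiv 2 ℝ (Ω → ℝ)).toLinearMap

omit [Fintype Ω] in
theorem ofLp_lift (T : (Ω → ℝ) →ₗ[ℝ] (Ω → ℝ)) (x : EuclideanSpace ℝ Ω) :
    WithLp.ofLp (lift T x) = T (WithLp.ofLp x) := by
  simp [lift]

theorem lift_symm (T : (Ω → ℝ) →ₗ[ℝ] (Ω → ℝ))
    (hsym : ∀ f g, dot (T f) g = dot f (T g)) : (lift T).IsSymmetric := by
  intro x y
  rw [inner_eq_dot, inner_eq_dot, ofLp_lift, ofLp_lift]
  exact hsym _ _

/-- If all eigenvalues of a `dot`-symmetric operator are at most `c`, its quadratic form is at most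
`c |f|^2`. -/
theorem dot_le_of_eigen (T : (Ω → ℝ) →ₗ[ℝ] (Ω → ℝ))
    (hsym : ∀ f g, dot (T f) g = dot f (T g)) (c : ℝ)
    (h : ∀ (μ : ℝ) (v : Ω → ℝ), v ≠ 0 → T v = μ • v → μ ≤ c) (f : Ω → ℝ) :
    dot (T f) f ≤ c * dot f f := by
  have hT := lift_symm T hsym
  set n := Module.finrank ℝ (EuclideanSpace ℝ Ω) with hn
  set b := hT.eigenvectorBasis hn.symm with hb
  set x : EuclideanSpace ℝ Ω := WithLp.toLp 2 f with hx
  have hxf : WithLp.ofLp x = f := rfl
  have h1 : dot (T f) f = inner ℝ (lift T x) x := by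
    rw [inner_eq_dot, ofLp_lift]
  have h2 : dot f f = inner ℝ x x := by
    rw [inner_eq_dot]
  have hle : ∀ i, hT.eigenvalues hn.symm i ≤ c := by
    intro i
    have hne : b i ≠ 0 := b.orthonormal.ne_zero i
    have happ : lift T (b i) = (hT.eigenvalues hn.symm i) • b i :=
      hT.apply_eigenvectorBasis hn.symm i
    refine h _ (WithLp.ofLp (b i)) ?_ ?_
    · intro h0
      apply hne
      have : WithLp.toLp 2 (WithLp.ofLp (b i)) = WithLp.toLp 2 (0 : Ω → ℝ) := by rw [h0]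
      simpa using this
    · rw [← ofLp_lift, happ]
      rfl
  rw [h1, h2, ← b.sum_inner_mul_inner (lift T x) x, ← b.sum_inner_mul_inner x x, Finset.mul_sum]
  refine Finset.sum_le_sum ?_
  intro i _
  have happ : lift T (b i) = (hT.eigenvalues hn.symm i) • b i :=
    hT.apply_eigenvectorBasis hn.symm i
  have e1 : inner ℝ (lift T x) (b i) = hT.eigenvalues hn.symm i * inner ℝ x (b i) := by
    rw [hT x (b i), happ, inner_smul_right]
  rw [e1, real_inner_comm x (b i)]
  have := hle i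
  nlinarith [mul_self_nonneg (inner ℝ (b i) x)]

/-- A function orthogonal to the kernel of a `dot`-symmetric operator lies in its range. -/
theorem exists_preimage_of_orth_ker (A : (Ω → ℝ) →ₗ[ℝ] (Ω → ℝ))
    (hsym : ∀ f g, dot (A f) g = dot f (A g)) (f : Ω → ℝ)
    (hf : ∀ k, A k = 0 → dot f k = 0) : ∃ h, A h = f := by
  have hT := lift_symm A hsym
  set x : EuclideanSpace ℝ Ω := WithLp.toLp 2 f with hx
  have hmem : x ∈ (LinearMap.ker (lift A))ᗮ := by
    rw [Submodule.mem_orthogonal']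
    intro u hu
    rw [inner_eq_dot]
    apply hf
    rw [← ofLp_lift, LinearMap.mem_ker.mp hu]
    rfl
  rw [← hT.orthogonal_range, Submodule.orthogonal_orthogonal] at hmem
  obtain ⟨y, hy⟩ := hmem
  refine ⟨WithLp.ofLp y, ?_⟩
  rw [← ofLp_lift, hy]

/-- If `A` is symmetric, positive semidefinite and `c <f, A f> ≤ |A f|^2` for all `f`, then
`c |f|^2 ≤ <f, A f>` for all `f` orthogonal to the kernel of `A`.
Proof: write `f = A h`, put `a_k = <h, A^k h>`; Cauchy-Schwarz for the form `<x, A y>` gives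
`a_2^2 ≤ a_1 a_3`, the hypothesis gives `c a_1 ≤ a_2`, hence `c a_2 ≤ a_3`. -/
theorem gap_of_sq (A : (Ω → ℝ) →ₗ[ℝ] (Ω → ℝ))
    (hsym : ∀ f g, dot (A f) g = dot f (A g)) (hpos : ∀ f, 0 ≤ dot f (A f))
    (c : ℝ) (hc : 0 < c) (hsq : ∀ f, c * dot f (A f) ≤ dot (A f) (A f))
    (f : Ω → ℝ) (hf : ∀ k, A k = 0 → dot f k = 0) :
    c * dot f f ≤ dot f (A f) := by
  obtain ⟨h, rfl⟩ := exists_preimage_of_orth_ker A hsym f hf
  set a1 := dot h (A h) with ha1
  set a2 := dot (A h) (A h) with ha2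
  set a3 := dot (A h) (A (A h)) with ha3
  have h1 : c * a1 ≤ a2 := hsq h
  have h3 : 0 ≤ a3 := hpos (A h)
  have h0 : 0 ≤ a1 := hpos h
  have h2 : 0 ≤ a2 := dot_self_nonneg _
  have hcs : a2 ^ 2 ≤ a1 * a3 := by
    have hq : ∀ t : ℝ, 0 ≤ a3 * (t * t) + (2 * a2) * t + a1 := by
      intro t
      have := hpos (h + t • A h)
      rw [map_add, map_smul, dot_add_left, dot_add_right, dot_add_right, dot_smul_left,
        dot_smul_left, dot_smul_right, dot_smul_right] at this
      have e : dot h (A (A h)) = a2 := by rw [← hsym]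
      rw [e] at this
      nlinarith
    have := discrim_le_zero hq
    unfold discrim at this
    nlinarith
  by_contra hcon
  push Not at hcon
  have ha2pos : 0 < a2 := by
    rcases h2.lt_or_eq with h | h
    · exact h
    · rw [← h] at hcon; nlinarith
  nlinarith [mul_pos hc ha2pos]

end P335
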