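import Vale.Agent.Lib.P335.Basic

/-!
# P335: averaging operators over equivalence relations (conditional expectations)
-/

namespace P335

open Finset

variable {Ω : Type*} [Fintype Ω]

theorem cls_nonempty {r : Ω → Ω → Prop} (hr : Equivalence r) (x : Ω) : (cls r x).Nonempty :=
  ⟨x, mem_cls.2 (hr.refl x)⟩

theorem cls_eq_of_rel {r : Ω → Ω → Prop} (hr : Equivalence r) {x y : Ω} (h : r x y) :
    cls r x = cls r y := by
  ext z
  rw [mem_cls, mem_cls]
  exact ⟨fun hz => hr.trans (hr.symm h) hz, fun hz => hr.trans h hz⟩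

theorem avg_add (r : Ω → Ω → Prop) (f g : Ω → ℝ) : avg r (f + g) = avg r f + avg r g := by
  funext x
  simp only [avg, Pi.add_apply]
  rw [Finset.sum_add_distrib, add_div]

theorem avg_sub (r : Ω → Ω → Prop) (f g : Ω → ℝ) : avg r (f - g) = avg r f - avg r g := by
  funext x
  simp only [avg, Pi.sub_apply]
  rw [Finset.sum_sub_distrib, sub_div]

theorem avg_smul (r : Ω → Ω → Prop) (a : ℝ) (f : Ω → ℝ) : avg r (a • f) = a • avg r f := by
  funext x
  simp only [avg, Pi.smul_apply, smul_eq_mul]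
  rw [← Finset.mul_sum, mul_div_assoc]

theorem avg_sum {α : Type*} (r : Ω → Ω → Prop) (s : Finset α) (F : α → Ω → ℝ) :
    avg r (∑ a ∈ s, F a) = ∑ a ∈ s, avg r (F a) := by
  classical
  induction s using Finset.induction_on with
  | empty =>
    funext x
    simp [avg]
  | insert a s ha ih => rw [Finset.sum_insert ha, Finset.sum_insert ha, avg_add, ih]

/-- `avg r` as a linear map -/
noncomputable def avgL (r : Ω → Ω → Prop) : (Ω → ℝ) →ₗ[ℝ] (Ω → ℝ) where
  toFun := avg r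
  map_add' := avg_add r
  map_smul' := by
    intro a f
    simpa using avg_smul r a f

@[simp] theorem avgL_apply (r : Ω → Ω → Prop) (f : Ω → ℝ) : avgL r f = avg r f := rfl

theorem avg_inv {r : Ω → Ω → Prop} (hr : Equivalence r) (f : Ω → ℝ) : Inv r (avg r f) := by
  intro x y h
  unfold avg
  rw [cls_eq_of_rel hr h]

theorem avg_of_inv {r : Ω → Ω → Prop} (hr : Equivalence r) {f : Ω → ℝ} (hf : Inv r f) :
    avg r f = f := by
  funext x
  unfold avg
  have h1 : ∀ y ∈ cls r x, f y = f x := fun y hy => (hf x y (mem_cls.1 hy)).symm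
  have h2 : ((cls r x).card : ℝ) ≠ 0 := by
    have := (cls_nonempty hr x).card_pos
    positivity
  rw [Finset.sum_congr rfl h1, Finset.sum_const, nsmul_eq_mul, mul_div_cancel_left₀ _ h2]

theorem inv_of_avg_eq {r : Ω → Ω → Prop} (hr : Equivalence r) {f : Ω → ℝ} (hf : avg r f = f) :
    Inv r f := by
  rw [← hf]
  exact avg_inv hr f

theorem avg_idem {r : Ω → Ω → Prop} (hr : Equivalence r) (f : Ω → ℝ) :
    avg r (avg r f) = avg r f :=
  avg_of_inv hr (avg_inv hr f)

/-- self-adjointness of averaging -/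
theorem avg_symm {r : Ω → Ω → Prop} (hr : Equivalence r) (f g : Ω → ℝ) :
    dot (avg r f) g = dot f (avg r g) := by
  classical
  have key : ∀ u v : Ω → ℝ, dot (avg r u) v
      = ∑ x, ∑ y, (if r x y then u y * v x / ((cls r x).card : ℝ) else 0) := by
    intro u v
    unfold dot avg
    refine Finset.sum_congr rfl (fun x _ => ?_)
    have h1 : ∑ y ∈ cls r x, u y = ∑ y, (if r x y then u y else 0) := by
      rw [← Finset.sum_filter]
      refine Finset.sum_congr ?_ (fun _ _ => rfl)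
      ext y
      rw [mem_cls]
      simp
    rw [h1, Finset.sum_div, Finset.sum_mul]
    refine Finset.sum_congr rfl (fun y _ => ?_)
    split_ifs
    · ring
    · simp
  rw [dot_comm f (avg r g), key f g, key g f, Finset.sum_comm]
  refine Finset.sum_congr rfl (fun y _ => Finset.sum_congr rfl (fun x _ => ?_))
  by_cases h : r x y
  · rw [if_pos h, if_pos (hr.symm h), cls_eq_of_rel hr h]
    ring
  · rw [if_neg h, if_neg (fun h' => h (hr.symm h'))]

/-- tower property: `r` finer than `r'` -/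
theorem avg_avg_of_le {r r' : Ω → Ω → Prop} (hr : Equivalence r) (hr' : Equivalence r')
    (hle : ∀ x y, r x y → r' x y) (f : Ω → ℝ) : avg r' (avg r f) = avg r' f := by
  have hge : ∀ g : Ω → ℝ, avg r (avg r' g) = avg r' g := fun g =>
    avg_of_inv hr (fun x y h => avg_inv hr' g x y (hle x y h))
  have h0 : dot (avg r' (avg r f) - avg r' f) (avg r' (avg r f) - avg r' f) = 0 := by
    rw [dot_sub_left, avg_symm hr', avg_symm hr, hge, avg_symm hr' f]
    ring
  exact sub_eq_zero.1 (dot_self_eq_zero h0)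

theorem avg_avg_of_ge {r r' : Ω → Ω → Prop} (hr : Equivalence r) (hr' : Equivalence r')
    (hle : ∀ x y, r x y → r' x y) (f : Ω → ℝ) : avg r (avg r' f) = avg r' f :=
  avg_of_inv hr (fun x y h => avg_inv hr' f x y (hle x y h))

theorem dot_avg_avg {r : Ω → Ω → Prop} (hr : Equivalence r) (f : Ω → ℝ) :
    dot (avg r f) (avg r f) = dot f (avg r f) := by
  rw [avg_symm hr, avg_idem hr]

/-- `Q = 1 - avg` is a symmetric idempotent: `|Q f|^2 = <f, Q f>` -/
theorem dot_Q_Q {r : Ω → Ω → Prop} (hr : Equivalence r) (f : Ω → ℝ) :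
    dot (f - avg r f) (f - avg r f) = dot f (f - avg r f) := by
  have h1 : dot (avg r f) (f - avg r f) = 0 := by
    rw [dot_sub_right, dot_avg_avg hr, dot_comm]
    ring
  rw [dot_sub_left, h1, sub_zero]

/-- commutation criterion: if `avg r₁` preserves `r₂`-invariance, the two averagings commute -/
theorem avg_comm_of_preserves {r₁ r₂ : Ω → Ω → Prop} (h₁ : Equivalence r₁) (h₂ : Equivalence r₂)
    (hp : ∀ g : Ω → ℝ, Inv r₂ g → Inv r₂ (avg r₁ g)) (f : Ω → ℝ) :
    avg r₁ (avg r₂ f) = avg r₂ (avg r₁ f) := by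
  have h3 : ∀ g : Ω → ℝ, avg r₂ (avg r₁ (avg r₂ g)) = avg r₁ (avg r₂ g) := fun g =>
    avg_of_inv h₂ (hp _ (avg_inv h₂ g))
  obtain ⟨u, hu⟩ : ∃ u : Ω → ℝ, u = avg r₁ (avg r₂ f) - avg r₂ (avg r₁ f) := ⟨_, rfl⟩
  have hA : dot (avg r₁ (avg r₂ f)) u = dot f (avg r₁ (avg r₂ u)) := by
    rw [← h3 f, avg_symm h₂, avg_symm h₁, avg_symm h₂, h3]
  have hB : dot (avg r₂ (avg r₁ f)) u = dot f (avg r₁ (avg r₂ u)) := by
    rw [avg_symm h₂, avg_symm h₁]
  have h0 : dot (avg r₁ (avg r₂ f) - avg r₂ (avg r₁ f)) u = 0 := by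
    rw [dot_sub_left, hA, hB, sub_self]
  rw [← hu] at h0
  have h4 := dot_self_eq_zero h0
  rw [hu] at h4
  exact sub_eq_zero.1 h4

/-- for commuting averagings the cross term of the complementary projections is nonnegative -/
theorem dot_Q_Q_nonneg_of_comm {r₁ r₂ : Ω → Ω → Prop} (h₁ : Equivalence r₁) (h₂ : Equivalence r₂)
    (hc : ∀ f : Ω → ℝ, avg r₁ (avg r₂ f) = avg r₂ (avg r₁ f)) (f : Ω → ℝ) :
    0 ≤ dot (f - avg r₁ f) (f - avg r₂ f) := by
  have hQs : ∀ (r : Ω → Ω → Prop), Equivalence r → ∀ u v : Ω → ℝ,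
      dot (u - avg r u) v = dot u (v - avg r v) := by
    intro r hr u v
    rw [dot_sub_left, dot_sub_right, avg_symm hr]
  have hz : ∀ r : Ω → Ω → Prop, avg r (0 : Ω → ℝ) = 0 := by
    intro r
    have := avg_sub r f f
    simpa using this
  obtain ⟨w, hw⟩ : ∃ w : Ω → ℝ, w = f - avg r₂ f := ⟨_, rfl⟩
  obtain ⟨v, hv⟩ : ∃ v : Ω → ℝ, v = w - avg r₁ w := ⟨_, rfl⟩
  have h2w : avg r₂ w = 0 := by
    rw [hw, avg_sub, avg_idem h₂, sub_self]
  have h2v : avg r₂ v = 0 := by
    rw [hv, avg_sub, h2w, ← hc w, h2w, hz, sub_self]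
  have ha : dot (f - avg r₁ f) w = dot f v := by
    rw [hQs r₁ h₁, hv]
  have hb : dot v v = dot w v := by
    rw [hv]
    exact dot_Q_Q h₁ w
  have hcc : dot w v = dot f v := by
    rw [hw, hQs r₂ h₂, h2v, sub_zero]
  rw [← hw, ha, ← hcc, ← hb]
  exact dot_self_nonneg v

/-- comparing two class averages through a bijection of the classes -/
theorem abs_avg_sub_avg_le {r : Ω → Ω → Prop} (hr : Equivalence r) (g : Ω → ℝ) (x x' : Ω)
    (Φ Ψ : Ω → Ω) (h1 : ∀ y, r x y → r x' (Φ y)) (h2 : ∀ y, r x' y → r x (Ψ y))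
    (h3 : ∀ y, r x y → Ψ (Φ y) = y) (h4 : ∀ y, r x' y → Φ (Ψ y) = y)
    (δ : ℝ) (hg : ∀ y, r x y → |g y - g (Φ y)| ≤ δ) :
    |avg r g x - avg r g x'| ≤ δ := by
  have hcard : (cls r x).card = (cls r x').card :=
    Finset.card_nbij' Φ Ψ (fun y hy => mem_cls.2 (h1 y (mem_cls.1 hy)))
      (fun y hy => mem_cls.2 (h2 y (mem_cls.1 hy))) (fun y hy => h3 y (mem_cls.1 hy))
      (fun y hy => h4 y (mem_cls.1 hy))
  have hsum : ∑ y ∈ cls r x, g (Φ y) = ∑ y ∈ cls r x', g y :=
    Finset.sum_nbij' Φ Ψ (fun y hy => mem_cls.2 (h1 y (mem_cls.1 hy)))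
      (fun y hy => mem_cls.2 (h2 y (mem_cls.1 hy))) (fun y hy => h3 y (mem_cls.1 hy))
      (fun y hy => h4 y (mem_cls.1 hy)) (fun _ _ => rfl)
  have hpos : (0 : ℝ) < ((cls r x).card : ℝ) := by
    exact_mod_cast Finset.card_pos.2 (cls_nonempty hr x)
  unfold avg
  rw [← hcard, ← hsum, ← sub_div, ← Finset.sum_sub_distrib, abs_div, abs_of_pos hpos,
    div_le_iff₀ hpos]
  calc |∑ y ∈ cls r x, (g y - g (Φ y))| ≤ ∑ y ∈ cls r x, |g y - g (Φ y)| :=
        Finset.abs_sum_le_sum_abs _ _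
    _ ≤ ∑ _y ∈ cls r x, δ := Finset.sum_le_sum fun y hy => hg y (mem_cls.1 hy)
    _ = δ * ((cls r x).card : ℝ) := by rw [Finset.sum_const, nsmul_eq_mul, mul_comm]

theorem avg_eq_avg_of_bij {r : Ω → Ω → Prop} (hr : Equivalence r) (g : Ω → ℝ) (x x' : Ω)
    (Φ Ψ : Ω → Ω) (h1 : ∀ y, r x y → r x' (Φ y)) (h2 : ∀ y, r x' y → r x (Ψ y))
    (h3 : ∀ y, r x y → Ψ (Φ y) = y) (h4 : ∀ y, r x' y → Φ (Ψ y) = y)
    (hg : ∀ y, r x y → g y = g (Φ y)) :
    avg r g x = avg r g x' := by
  have := abs_avg_sub_avg_le hr g x x' Φ Ψ h1 h2 h3 h4 0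
    (fun y hy => by rw [hg y hy]; simp)
  have h0 : |avg r g x - avg r g x'| = 0 := le_antisymm this (abs_nonneg _)
  exact sub_eq_zero.1 (abs_eq_zero.1 h0)

/-- local variance bound: `|f - avg f|^2 ≤ (1/4) Σ_{x ≠ y, r x y} (f x - f y)^2` -/
theorem dot_Q_Q_le {r : Ω → Ω → Prop} (hr : Equivalence r) (f : Ω → ℝ)
    [∀ x y : Ω, Decidable (x ≠ y ∧ r x y)] :
    dot (f - avg r f) (f - avg r f)
      ≤ (1 / 4) * ∑ x, ∑ y, (if x ≠ y ∧ r x y then (f x - f y) ^ 2 else 0) := by
  classical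
  rw [dot_Q_Q hr]
  obtain ⟨n, hn⟩ : ∃ n : Ω → ℝ, ∀ x, n x = ((cls r x).card : ℝ) := ⟨_, fun _ => rfl⟩
  have hnpos : ∀ x, 0 < n x := by
    intro x
    rw [hn]
    exact_mod_cast Finset.card_pos.2 (cls_nonempty hr x)
  have hnrel : ∀ x y, r x y → n x = n y := by
    intro x y h
    rw [hn, hn, cls_eq_of_rel hr h]
  -- first expression
  have hT1 : dot f (f - avg r f)
      = ∑ x, ∑ y, (if r x y then (1 / n x) * (f x * (f x - f y)) else 0) := by
    unfold dot
    refine Finset.sum_congr rfl fun x _ => ?_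
    have e1 : ∑ y, (if r x y then (1 / n x) * (f x * (f x - f y)) else 0)
        = ∑ y ∈ cls r x, (1 / n x) * (f x * (f x - f y)) := by
      unfold cls
      rw [Finset.sum_filter]
    rw [e1, ← Finset.mul_sum, ← Finset.mul_sum, Finset.sum_sub_distrib, Finset.sum_const,
      nsmul_eq_mul, ← hn]
    have hne : n x ≠ 0 := (hnpos x).ne'
    simp only [Pi.sub_apply]
    unfold avg
    rw [← hn]
    field_simp
  have hT2 : dot f (f - avg r f)
      = ∑ x, ∑ y, (if r x y then (1 / n x) * (f y * (f y - f x)) else 0) := by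
    rw [hT1, Finset.sum_comm]
    refine Finset.sum_congr rfl fun x _ => Finset.sum_congr rfl fun y _ => ?_
    by_cases h : r x y
    · rw [if_pos h, if_pos (hr.symm h), hnrel x y h]
    · have h' : ¬ r y x := fun h' => h (hr.symm h')
      rw [if_neg h, if_neg h']
  have hT : 2 * dot f (f - avg r f)
      = ∑ x, ∑ y, (if r x y then (1 / n x) * (f x - f y) ^ 2 else 0) := by
    have : 2 * dot f (f - avg r f) = dot f (f - avg r f) + dot f (f - avg r f) := by ring
    rw [this]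
    nth_rewrite 1 [hT1]
    rw [hT2, ← Finset.sum_add_distrib]
    refine Finset.sum_congr rfl fun x _ => ?_
    rw [← Finset.sum_add_distrib]
    refine Finset.sum_congr rfl fun y _ => ?_
    by_cases h : r x y
    · simp only [if_pos h]; ring
    · simp only [if_neg h]; ring
  have hle : ∑ x, ∑ y, (if r x y then (1 / n x) * (f x - f y) ^ 2 else 0)
      ≤ ∑ x, ∑ y, (1 / 2) * (if x ≠ y ∧ r x y then (f x - f y) ^ 2 else 0) := by
    refine Finset.sum_le_sum fun x _ => Finset.sum_le_sum fun y _ => ?_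
    by_cases h : r x y
    · by_cases hxy : x = y
      · subst hxy
        simp
      · rw [if_pos h, if_pos ⟨hxy, h⟩]
        have h2 : (2 : ℝ) ≤ n x := by
          rw [hn]
          have : 1 < (cls r x).card :=
            Finset.one_lt_card.2 ⟨x, mem_cls.2 (hr.refl x), y, mem_cls.2 h, hxy⟩
          exact_mod_cast this
        have h3 : 1 / n x ≤ 1 / 2 := one_div_le_one_div_of_le (by norm_num) h2
        exact mul_le_mul_of_nonneg_right h3 (sq_nonneg _)
    · rw [if_neg h, if_neg (fun h' => h h'.2)]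
      simp
  simp only [← Finset.mul_sum] at hle
  linarith

/-- transport of averaging along an equivalence of state spaces -/
theorem avg_comp_equiv {Ω' : Type*} [Fintype Ω'] (e : Ω ≃ Ω') (r' : Ω' → Ω' → Prop)
    (f' : Ω' → ℝ) :
    avg (fun x y => r' (e x) (e y)) (f' ∘ e) = (avg r' f') ∘ e := by
  funext x
  have hmem1 : ∀ y ∈ cls (fun x y => r' (e x) (e y)) x, e y ∈ cls r' (e x) := by
    intro y hy
    have h : r' (e x) (e y) := (mem_cls (r := fun x y => r' (e x) (e y))).1 hy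
    exact mem_cls.2 h
  have hmem2 : ∀ y ∈ cls r' (e x), e.symm y ∈ cls (fun x y => r' (e x) (e y)) x := by
    intro y hy
    have h : r' (e x) y := mem_cls.1 hy
    refine mem_cls.2 ?_
    simpa using h
  have hcard : (cls (fun x y => r' (e x) (e y)) x).card = (cls r' (e x)).card :=
    Finset.card_nbij' e e.symm hmem1 hmem2 (fun y _ => e.symm_apply_apply y)
      (fun y _ => e.apply_symm_apply y)
  have hsum : ∑ y ∈ cls (fun x y => r' (e x) (e y)) x, (f' ∘ e) y = ∑ y ∈ cls r' (e x), f' y :=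
    Finset.sum_nbij' e e.symm hmem1 hmem2 (fun y _ => e.symm_apply_apply y)
      (fun y _ => e.apply_symm_apply y) (fun _ _ => rfl)
  simp only [Function.comp_apply]
  unfold avg
  rw [hcard, hsum]

theorem dot_comp_equiv {Ω' : Type*} [Fintype Ω'] (e : Ω ≃ Ω') (f' g' : Ω' → ℝ) :
    dot (f' ∘ e) (g' ∘ e) = dot f' g' := by
  unfold dot
  exact Equiv.sum_comp e (fun x => f' x * g' x)

/-- averaging over the total relation is the mean -/
theorem avg_top (f : Ω → ℝ) (x : Ω) :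
    avg (fun _ _ => True) f x = (∑ y, f y) / (Fintype.card Ω : ℝ) := by
  have h : cls (fun _ _ : Ω => True) x = univ := by
    ext y
    simp [mem_cls]
  unfold avg
  rw [h, Finset.card_univ]

open Classical in
/-- biregular double counting: two finite sets joined by a biregular relation along which `H`
changes by at most `δ` have `δ`-close averages. -/
theorem biregular_bound (A B : Finset Ω) (R : Ω → Ω → Prop) (α β : ℕ)
    (hα : ∀ a ∈ A, (B.filter (fun b => R a b)).card = α)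
    (hβ : ∀ b ∈ B, (A.filter (fun a => R a b)).card = β) (hβ0 : 0 < β) (hA : A.Nonempty)
    (H : Ω → ℝ) (δ : ℝ) (hR : ∀ a ∈ A, ∀ b ∈ B, R a b → |H b - H a| ≤ δ) :
    |∑ b ∈ B, (H b - (∑ a ∈ A, H a) / (A.card : ℝ))| ≤ (B.card : ℝ) * δ := by
  have hApos : (0 : ℝ) < (A.card : ℝ) := by exact_mod_cast Finset.card_pos.2 hA
  have hβR : (0 : ℝ) < (β : ℝ) := by exact_mod_cast hβ0
  -- sums over related pairs
  have hSb : ∑ b ∈ B, ∑ a ∈ A, (if R a b then H b else 0) = (β : ℝ) * ∑ b ∈ B, H b := by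
    rw [Finset.mul_sum]
    refine Finset.sum_congr rfl fun b hb => ?_
    rw [← Finset.sum_filter, Finset.sum_const, hβ b hb, nsmul_eq_mul]
  have hSa : ∑ b ∈ B, ∑ a ∈ A, (if R a b then H a else 0) = (α : ℝ) * ∑ a ∈ A, H a := by
    rw [Finset.sum_comm, Finset.mul_sum]
    refine Finset.sum_congr rfl fun a ha => ?_
    rw [← Finset.sum_filter, Finset.sum_const, hα a ha, nsmul_eq_mul]
  have hcnt1 : ∑ b ∈ B, ∑ a ∈ A, (if R a b then (1 : ℝ) else 0) = (β : ℝ) * (B.card : ℝ) := by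
    have : ∀ b ∈ B, ∑ a ∈ A, (if R a b then (1 : ℝ) else 0) = (β : ℝ) := by
      intro b hb
      rw [← Finset.sum_filter, Finset.sum_const, hβ b hb, nsmul_eq_mul, mul_one]
    rw [Finset.sum_congr rfl this, Finset.sum_const, nsmul_eq_mul, mul_comm]
  have hcnt2 : ∑ b ∈ B, ∑ a ∈ A, (if R a b then (1 : ℝ) else 0) = (α : ℝ) * (A.card : ℝ) := by
    rw [Finset.sum_comm]
    have : ∀ a ∈ A, ∑ b ∈ B, (if R a b then (1 : ℝ) else 0) = (α : ℝ) := by
      intro a ha
      rw [← Finset.sum_filter, Finset.sum_const, hα a ha, nsmul_eq_mul, mul_one]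
    rw [Finset.sum_congr rfl this, Finset.sum_const, nsmul_eq_mul, mul_comm]
  have hαβ : (α : ℝ) * (A.card : ℝ) = (β : ℝ) * (B.card : ℝ) := by rw [← hcnt1, hcnt2]
  have hmain : (β : ℝ) * ∑ b ∈ B, (H b - (∑ a ∈ A, H a) / (A.card : ℝ))
      = ∑ b ∈ B, ∑ a ∈ A, (if R a b then H b - H a else 0) := by
    have e : ∑ b ∈ B, ∑ a ∈ A, (if R a b then H b - H a else 0)
        = ∑ b ∈ B, ∑ a ∈ A, (if R a b then H b else 0)
          - ∑ b ∈ B, ∑ a ∈ A, (if R a b then H a else 0) := by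
      rw [← Finset.sum_sub_distrib]
      refine Finset.sum_congr rfl fun b _ => ?_
      rw [← Finset.sum_sub_distrib]
      refine Finset.sum_congr rfl fun a _ => ?_
      by_cases h : R a b
      · simp only [if_pos h]
      · simp only [if_neg h]; ring
    rw [e, hSb, hSa, Finset.sum_sub_distrib, Finset.sum_const, nsmul_eq_mul, mul_sub]
    congr 1
    have : (β : ℝ) * ((B.card : ℝ) * ((∑ a ∈ A, H a) / (A.card : ℝ)))
        = ((β : ℝ) * (B.card : ℝ)) * ((∑ a ∈ A, H a) / (A.card : ℝ)) := by ring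
    rw [this, ← hαβ]
    field_simp
  have hbound : |∑ b ∈ B, ∑ a ∈ A, (if R a b then H b - H a else 0)|
      ≤ (β : ℝ) * (B.card : ℝ) * δ := by
    calc |∑ b ∈ B, ∑ a ∈ A, (if R a b then H b - H a else 0)|
        ≤ ∑ b ∈ B, |∑ a ∈ A, (if R a b then H b - H a else 0)| := Finset.abs_sum_le_sum_abs _ _
      _ ≤ ∑ b ∈ B, ∑ a ∈ A, |(if R a b then H b - H a else 0)| :=
          Finset.sum_le_sum fun b _ => Finset.abs_sum_le_sum_abs _ _
      _ ≤ ∑ b ∈ B, ∑ a ∈ A, (if R a b then (1 : ℝ) else 0) * δ := by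
          refine Finset.sum_le_sum fun b hb => Finset.sum_le_sum fun a ha => ?_
          by_cases h : R a b
          · simp only [if_pos h, one_mul]; exact hR a ha b hb h
          · simp only [if_neg h, abs_zero, zero_mul, le_refl]
      _ = (β : ℝ) * (B.card : ℝ) * δ := by
          simp only [← Finset.sum_mul]
          rw [hcnt1]
  rw [← hmain, abs_mul, abs_of_pos hβR, mul_assoc] at hbound
  exact le_of_mul_le_mul_left hbound hβR

/-- finite maximum principle -/
theorem max_principle {P : Type*} [Finite P] (D : P → ℝ) (μ : ℝ) (hμ : 1 < μ)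
    (h : ∀ δ : ℝ, (∀ π, |D π| ≤ δ) → ∀ π, μ * |D π| ≤ δ) : ∀ π, D π = 0 := by
  intro π
  have : Nonempty P := ⟨π⟩
  obtain ⟨π0, h0⟩ := Finite.exists_max (fun π => |D π|)
  have h1 := h (|D π0|) h0 π0
  have h2 : |D π0| ≤ 0 := by
    have := abs_nonneg (D π0)
    nlinarith
  have h3 : |D π| ≤ 0 := (h0 π).trans h2
  exact abs_eq_zero.1 (le_antisymm h3 (abs_nonneg _))

end P335
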