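import Mathlib

/-!
# P335: basic function-space notions

`dot` is the unnormalised inner product on `Ω → ℝ`; `avg r f` replaces `f x` by the mean of `f`
over the class `{y | r x y}` of an equivalence relation `r`.
-/

namespace P335

open Finset

variable {Ω : Type*} [Fintype Ω]

/-- unnormalised inner product on functions on a finite type -/
def dot (f g : Ω → ℝ) : ℝ := ∑ x, f x * g x

open Classical in
/-- the class of `x` under the relation `r`, as a finset -/
noncomputable def cls (r : Ω → Ω → Prop) (x : Ω) : Finset Ω := univ.filter (fun y => r x y)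

/-- averaging over the classes of `r` -/
noncomputable def avg (r : Ω → Ω → Prop) (f : Ω → ℝ) : Ω → ℝ :=
  fun x => (∑ y ∈ cls r x, f y) / ((cls r x).card : ℝ)

/-- `f` is constant on the classes of `r` -/
def Inv (r : Ω → Ω → Prop) (f : Ω → ℝ) : Prop := ∀ x y, r x y → f x = f y

theorem mem_cls {r : Ω → Ω → Prop} {x y : Ω} : y ∈ cls r x ↔ r x y := by
  classical
  simp [cls]

theorem dot_comm (f g : Ω → ℝ) : dot f g = dot g f := by
  unfold dot
  exact Finset.sum_congr rfl (fun x _ => mul_comm _ _)

theorem dot_add_left (f g h : Ω → ℝ) : dot (f + g) h = dot f h + dot g h := by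
  unfold dot
  rw [← Finset.sum_add_distrib]
  exact Finset.sum_congr rfl (fun x _ => by simp [add_mul])

theorem dot_add_right (f g h : Ω → ℝ) : dot f (g + h) = dot f g + dot f h := by
  rw [dot_comm, dot_add_left, dot_comm g, dot_comm h]

theorem dot_sub_left (f g h : Ω → ℝ) : dot (f - g) h = dot f h - dot g h := by
  unfold dot
  rw [← Finset.sum_sub_distrib]
  exact Finset.sum_congr rfl (fun x _ => by simp [sub_mul])

theorem dot_sub_right (f g h : Ω → ℝ) : dot f (g - h) = dot f g - dot f h := by
  rw [dot_comm, dot_sub_left, dot_comm g, dot_comm h]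

theorem dot_smul_left (a : ℝ) (f g : Ω → ℝ) : dot (a • f) g = a * dot f g := by
  unfold dot
  rw [Finset.mul_sum]
  exact Finset.sum_congr rfl (fun x _ => by simp [mul_assoc])

theorem dot_smul_right (a : ℝ) (f g : Ω → ℝ) : dot f (a • g) = a * dot f g := by
  rw [dot_comm, dot_smul_left, dot_comm]

theorem dot_self_nonneg (f : Ω → ℝ) : 0 ≤ dot f f :=
  Finset.sum_nonneg (fun x _ => mul_self_nonneg _)

theorem dot_self_eq_zero {f : Ω → ℝ} (h : dot f f = 0) : f = 0 := by
  funext x
  have := (Finset.sum_eq_zero_iff_of_nonneg (fun x _ => mul_self_nonneg (f x))).1 h x (mem_univ x)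
  simpa using this

theorem dot_sum_left {α : Type*} (s : Finset α) (F : α → Ω → ℝ) (g : Ω → ℝ) :
    dot (∑ a ∈ s, F a) g = ∑ a ∈ s, dot (F a) g := by
  classical
  induction s using Finset.induction_on with
  | empty => simp [dot]
  | insert a s ha ih => rw [Finset.sum_insert ha, Finset.sum_insert ha, dot_add_left, ih]

theorem dot_sum_right {α : Type*} (s : Finset α) (F : α → Ω → ℝ) (g : Ω → ℝ) :
    dot g (∑ a ∈ s, F a) = ∑ a ∈ s, dot g (F a) := by
  rw [dot_comm, dot_sum_left]
  exact Finset.sum_congr rfl (fun a _ => dot_comm _ _)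

/-- Cauchy-Schwarz -/
theorem dot_sq_le (f g : Ω → ℝ) : dot f g ^ 2 ≤ dot f f * dot g g := by
  unfold dot
  have := Finset.sum_mul_sq_le_sq_mul_sq univ f g
  simpa [sq] using this

end P335
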