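import Vale.Agent.Lib.P335.Mat

/-!
# P335: 2 x 2 blocks are switches, and each switch lies in exactly one 2 x 2 block
-/

namespace P335

open Finset

set_option linter.unusedSectionVars false

variable {ι κ : Type*} [Fintype ι] [Fintype κ] [DecidableEq ι] [DecidableEq κ]
variable {r : ι → ℕ} {c : κ → ℕ}

theorem bool_core : ∀ (a b c d a' b' c' d' : Bool),
    a.toNat + b.toNat = a'.toNat + b'.toNat → c.toNat + d.toNat = c'.toNat + d'.toNat →
    a.toNat + c.toNat = a'.toNat + c'.toNat → b.toNat + d.toNat = b'.toNat + d'.toNat →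
    ¬ (a = a' ∧ b = b' ∧ c = c' ∧ d = d') →
    (a = true ∧ b = false ∧ c = false ∧ d = true ∧
      a' = false ∧ b' = true ∧ c' = true ∧ d' = false) ∨
    (a = false ∧ b = true ∧ c = true ∧ d = false ∧
      a' = true ∧ b' = false ∧ c' = false ∧ d' = true) := by
  intro a b c d a' b' c' d'
  cases a <;> cases b <;> cases c <;> cases d <;> cases a' <;> cases b' <;> cases c' <;>
    cases d' <;> simp

theorem checker_of_agreeOff_pair {i j : ι} {p q : κ} (hij : i ≠ j) (hpq : p ≠ q) {X Y : Mat r c}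
    (hne : X ≠ Y) (h : AgreeOff {i, j} {p, q} X Y) :
    (X.1 i p = true ∧ X.1 i q = false ∧ X.1 j p = false ∧ X.1 j q = true ∧
      Y.1 i p = false ∧ Y.1 i q = true ∧ Y.1 j p = true ∧ Y.1 j q = false) ∨
    (X.1 i p = false ∧ X.1 i q = true ∧ X.1 j p = true ∧ X.1 j q = false ∧
      Y.1 i p = true ∧ Y.1 i q = false ∧ Y.1 j p = false ∧ Y.1 j q = true) := by
  have r1 := sum_row_eq_of_agreeOff h i
  have r2 := sum_row_eq_of_agreeOff h j
  have c1 := sum_col_eq_of_agreeOff h p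
  have c2 := sum_col_eq_of_agreeOff h q
  rw [Finset.sum_pair hpq, Finset.sum_pair hpq] at r1 r2
  rw [Finset.sum_pair hij, Finset.sum_pair hij] at c1 c2
  refine bool_core _ _ _ _ _ _ _ _ r1 r2 c1 c2 ?_
  rintro ⟨e1, e2, e3, e4⟩
  apply hne
  apply Mat.ext'
  intro x u
  by_cases hxu : x ∈ ({i, j} : Finset ι) ∧ u ∈ ({p, q} : Finset κ)
  · simp only [mem_insert, mem_singleton] at hxu
    obtain ⟨hx, hu⟩ := hxu
    rcases hx with rfl | rfl <;> rcases hu with rfl | rfl <;> assumption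
  · exact h x u hxu

theorem eq_swRaw_of_agreeOff {i j : ι} {p q : κ} {X Y : Mat r c}
    (h : AgreeOff {i, j} {p, q} X Y)
    (h1 : Y.1 i p = !(X.1 i p)) (h2 : Y.1 i q = !(X.1 i q)) (h3 : Y.1 j p = !(X.1 j p))
    (h4 : Y.1 j q = !(X.1 j q)) : Y.1 = swRaw i j p q X.1 := by
  funext x u
  unfold swRaw
  by_cases hxu : (x = i ∨ x = j) ∧ (u = p ∨ u = q)
  · rw [if_pos hxu]
    obtain ⟨hx, hu⟩ := hxu
    rcases hx with rfl | rfl <;> rcases hu with rfl | rfl <;> assumption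
  · rw [if_neg hxu]
    refine (h x u ?_).symm
    simpa only [mem_insert, mem_singleton] using hxu

theorem AgreeOff.swap_col {i j : ι} {p q : κ} {X Y : Mat r c}
    (h : AgreeOff {i, j} {p, q} X Y) : AgreeOff {i, j} {q, p} X Y := by
  rwa [Finset.pair_comm q p]

/-- Two different matrices with the same margins which agree off a 2 x 2 block differ by a switch.
(All four cells differ, because of the row and column sums.) -/
theorem isSw_of_agreeOff_pair {i j : ι} {p q : κ} (hij : i ≠ j) (hpq : p ≠ q) {X Y : Mat r c}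
    (hne : X ≠ Y) (h : AgreeOff {i, j} {p, q} X Y) : IsSw univ univ X Y := by
  rcases checker_of_agreeOff_pair hij hpq hne h with
    ⟨x1, x2, x3, x4, y1, y2, y3, y4⟩ | ⟨x1, x2, x3, x4, y1, y2, y3, y4⟩
  · refine ⟨i, mem_univ _, j, mem_univ _, p, mem_univ _, q, mem_univ _,
      ⟨hij, hpq, x1, x2, x3, x4⟩, eq_swRaw_of_agreeOff h ?_ ?_ ?_ ?_⟩ <;> simp [*]
  · refine ⟨i, mem_univ _, j, mem_univ _, q, mem_univ _, p, mem_univ _,
      ⟨hij, hpq.symm, x2, x1, x4, x3⟩, eq_swRaw_of_agreeOff h.swap_col ?_ ?_ ?_ ?_⟩ <;> simp [*]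

open Classical in
theorem card_tuples_le (X Y : Mat r c) :
    (univ.filter (fun t : ι × ι × κ × κ => t.1 ≠ t.2.1 ∧ t.2.2.1 ≠ t.2.2.2 ∧ X ≠ Y ∧
      AgreeOff {t.1, t.2.1} {t.2.2.1, t.2.2.2} X Y)).card ≤ 4 := by
  rcases Finset.eq_empty_or_nonempty (univ.filter (fun t : ι × ι × κ × κ =>
      t.1 ≠ t.2.1 ∧ t.2.2.1 ≠ t.2.2.2 ∧ X ≠ Y ∧
      AgreeOff {t.1, t.2.1} {t.2.2.1, t.2.2.2} X Y)) with h0 | ⟨⟨i0, j0, p0, q0⟩, h0⟩
  · rw [h0]
    simp
  · simp only [mem_filter, mem_univ, true_and] at h0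
    obtain ⟨hij0, hpq0, hne, hA0⟩ := h0
    have hd : X.1 i0 p0 ≠ Y.1 i0 p0 ∧ X.1 j0 q0 ≠ Y.1 j0 q0 := by
      rcases checker_of_agreeOff_pair hij0 hpq0 hne hA0 with
        ⟨x1, x2, x3, x4, y1, y2, y3, y4⟩ | ⟨x1, x2, x3, x4, y1, y2, y3, y4⟩ <;> simp [*]
    refine le_trans (Finset.card_le_card (t := {(i0, j0, p0, q0), (j0, i0, p0, q0),
      (i0, j0, q0, p0), (j0, i0, q0, p0)}) ?_) Finset.card_le_four
    rintro ⟨i, j, p, q⟩ ht
    simp only [mem_filter, mem_univ, true_and] at ht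
    obtain ⟨hij, hpq, -, hA⟩ := ht
    have m1 : i0 ∈ ({i, j} : Finset ι) ∧ p0 ∈ ({p, q} : Finset κ) := by
      by_contra hcon
      exact hd.1 (hA i0 p0 hcon)
    have m2 : j0 ∈ ({i, j} : Finset ι) ∧ q0 ∈ ({p, q} : Finset κ) := by
      by_contra hcon
      exact hd.2 (hA j0 q0 hcon)
    simp only [mem_insert, mem_singleton] at m1 m2
    simp only [mem_insert, mem_singleton, Prod.mk.injEq]
    obtain ⟨a1, a2⟩ := m1
    obtain ⟨b1, b2⟩ := m2
    rcases a1 with rfl | rfl <;> rcases b1 with rfl | rfl <;> rcases a2 with rfl | rfl <;>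
      rcases b2 with rfl | rfl <;> simp_all

open Classical in
/-- Summing a nonnegative weight `F X Y` over all ordered 2 x 2 blocks `(i,j,p,q)` and all pairs
`X ≠ Y` agreeing off the block counts each switch pair `(X, Y)` at most four times: the set of rows
(columns) where `X` and `Y` differ is exactly `{i, j}` (`{p, q}`). -/
theorem sum_blocks_le (F : Mat r c → Mat r c → ℝ) (hF : ∀ X Y, 0 ≤ F X Y) :
    ∑ i : ι, ∑ j : ι, (if i ≠ j then ∑ p : κ, ∑ q : κ, (if p ≠ q then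
        ∑ X : Mat r c, ∑ Y : Mat r c, (if X ≠ Y ∧ AgreeOff {i, j} {p, q} X Y then F X Y else 0)
        else 0) else 0)
      ≤ 4 * ∑ X : Mat r c, ∑ Y : Mat r c, (if IsSw univ univ X Y then F X Y else 0) := by
  have e1 : ∑ i : ι, ∑ j : ι, (if i ≠ j then ∑ p : κ, ∑ q : κ, (if p ≠ q then
        ∑ X : Mat r c, ∑ Y : Mat r c, (if X ≠ Y ∧ AgreeOff {i, j} {p, q} X Y then F X Y else 0)
        else 0) else 0)
      = ∑ t : ι × ι × κ × κ, ∑ X : Mat r c, ∑ Y : Mat r c,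
        (if t.1 ≠ t.2.1 ∧ t.2.2.1 ≠ t.2.2.2 ∧ X ≠ Y ∧
          AgreeOff {t.1, t.2.1} {t.2.2.1, t.2.2.2} X Y then F X Y else 0) := by
    simp only [Fintype.sum_prod_type]
    refine sum_congr rfl fun i _ => sum_congr rfl fun j _ => ?_
    by_cases hij : i ≠ j
    · rw [if_pos hij]
      refine sum_congr rfl fun p _ => sum_congr rfl fun q _ => ?_
      by_cases hpq : p ≠ q
      · rw [if_pos hpq]
        refine sum_congr rfl fun X _ => sum_congr rfl fun Y _ => ?_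
        refine if_congr ?_ rfl rfl
        exact ⟨fun h => ⟨hij, hpq, h⟩, fun h => h.2.2⟩
      · rw [if_neg hpq]
        symm
        refine sum_eq_zero fun X _ => sum_eq_zero fun Y _ => ?_
        exact if_neg (fun h => hpq h.2.1)
    · rw [if_neg hij]
      symm
      refine sum_eq_zero fun p _ => sum_eq_zero fun q _ => sum_eq_zero fun X _ =>
        sum_eq_zero fun Y _ => ?_
      exact if_neg (fun h => hij h.1)
  rw [e1, Finset.sum_comm, Finset.mul_sum]
  refine Finset.sum_le_sum fun X _ => ?_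
  rw [Finset.sum_comm, Finset.mul_sum]
  refine Finset.sum_le_sum fun Y _ => ?_
  rw [← Finset.sum_filter, Finset.sum_const, nsmul_eq_mul]
  have hc := card_tuples_le X Y
  by_cases hS : IsSw univ univ X Y
  · rw [if_pos hS]
    have : ((univ.filter (fun t : ι × ι × κ × κ => t.1 ≠ t.2.1 ∧ t.2.2.1 ≠ t.2.2.2 ∧ X ≠ Y ∧
      AgreeOff {t.1, t.2.1} {t.2.2.1, t.2.2.2} X Y)).card : ℝ) ≤ 4 := by
      exact_mod_cast hc
    exact mul_le_mul_of_nonneg_right this (hF X Y)
  · rw [if_neg hS]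
    have h0 : univ.filter (fun t : ι × ι × κ × κ => t.1 ≠ t.2.1 ∧ t.2.2.1 ≠ t.2.2.2 ∧ X ≠ Y ∧
      AgreeOff {t.1, t.2.1} {t.2.2.1, t.2.2.2} X Y) = ∅ := by
      rw [Finset.filter_eq_empty_iff]
      rintro t - ⟨h1, h2, h3, h4⟩
      exact hS (isSw_of_agreeOff_pair h1 h2 h3 h4)
    rw [h0]
    simp

end P335
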