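import Vale.Agent.Lib.P335.Basic

/-!
# P335: the abstract bookkeeping behind `A^2 ≥ A`
-/

namespace P335

open Finset

variable {Ω : Type*} [Fintype Ω]


theorem dot_ite_left (P : Prop) [Decidable P] (a b : Ω → ℝ) :
    dot (if P then a else 0) b = if P then dot a b else 0 := by
  split_ifs
  · rfl
  · simp [dot]

theorem dot_ite_right (P : Prop) [Decidable P] (a b : Ω → ℝ) :
    dot b (if P then a else 0) = if P then dot b a else 0 := by
  split_ifs
  · rfl
  · simp [dot]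

theorem sum_ite_and_eq {ι : Type*} [Fintype ι] [DecidableEq ι] (P : Prop) [Decidable P] (a : ι)
    (c : ℝ) : ∑ k, (if P ∧ k = a then c else 0) = if P then c else 0 := by
  by_cases hP : P
  · simp [hP]
  · simp [hP]

/-- Bookkeeping lemma.  `q i j` (think `q i j = Q_{ij} f`, `Q_{ij}` a symmetric idempotent) is a
symmetric family of vectors; cross terms of disjoint pairs are nonnegative and the three cross
terms inside every triple have nonnegative sum.  Then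
`|Σ_{i ≠ j} q i j|^2 ≥ 2 Σ_{i ≠ j} |q i j|^2` (sums over ordered pairs). -/
theorem caputo_sq {ι : Type*} [Fintype ι] [DecidableEq ι] (q : ι → ι → Ω → ℝ)
    (hsymm : ∀ i j, q i j = q j i)
    (hdisj : ∀ i j k l, i ≠ j → k ≠ l → i ≠ k → i ≠ l → j ≠ k → j ≠ l →
      0 ≤ dot (q i j) (q k l))
    (htri : ∀ i j k, i ≠ j → i ≠ k → j ≠ k →
      0 ≤ dot (q i j) (q i k) + dot (q i j) (q j k) + dot (q i k) (q j k)) :
    2 * ∑ i, ∑ j, (if i ≠ j then dot (q i j) (q i j) else 0)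
      ≤ dot (∑ i, ∑ j, (if i ≠ j then q i j else 0)) (∑ i, ∑ j, (if i ≠ j then q i j else 0)) := by
  -- expansion of the square
  have hexp : dot (∑ i, ∑ j, (if i ≠ j then q i j else 0))
      (∑ i, ∑ j, (if i ≠ j then q i j else 0)) =
      ∑ i, ∑ j, ∑ k, ∑ l, (if i ≠ j ∧ k ≠ l then dot (q i j) (q k l) else 0) := by
    rw [dot_sum_left]
    refine Finset.sum_congr rfl fun i _ => ?_
    rw [dot_sum_left]
    refine Finset.sum_congr rfl fun j _ => ?_
    rw [dot_sum_right]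
    refine Finset.sum_congr rfl fun k _ => ?_
    rw [dot_sum_right]
    refine Finset.sum_congr rfl fun l _ => ?_
    rw [dot_ite_left, dot_ite_right]
    by_cases h1 : i ≠ j <;> by_cases h2 : k ≠ l <;> simp [h1, h2]
  -- the sum over distinct triples
  set T : ℝ := ∑ i, ∑ j, ∑ l, (if i ≠ j ∧ i ≠ l ∧ j ≠ l then dot (q i j) (q i l) else 0) with hT
  have hT' : ∑ i, ∑ j, ∑ l, (if i ≠ j ∧ i ≠ l ∧ j ≠ l then dot (q i j) (q j l) else 0) = T := by
    rw [hT, Finset.sum_comm]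
    refine Finset.sum_congr rfl fun i _ => ?_
    refine Finset.sum_congr rfl fun j _ => ?_
    refine Finset.sum_congr rfl fun l _ => ?_
    rw [hsymm j i]
    refine if_congr ?_ rfl rfl
    constructor
    · rintro ⟨a, b, c⟩
      exact ⟨a.symm, c, b⟩
    · rintro ⟨a, b, c⟩
      exact ⟨a.symm, c, b⟩
  have hT'' : ∑ i, ∑ j, ∑ l, (if i ≠ j ∧ i ≠ l ∧ j ≠ l then dot (q i l) (q j l) else 0) = T := by
    rw [hT]
    have e1 : ∑ i, ∑ j, ∑ l, (if i ≠ j ∧ i ≠ l ∧ j ≠ l then dot (q i l) (q j l) else 0) =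
        ∑ i, ∑ l, ∑ j, (if i ≠ j ∧ i ≠ l ∧ j ≠ l then dot (q i l) (q j l) else 0) :=
      Finset.sum_congr rfl fun i _ => Finset.sum_comm
    rw [e1, Finset.sum_comm]
    refine Finset.sum_congr rfl fun l _ => ?_
    refine Finset.sum_congr rfl fun i _ => ?_
    refine Finset.sum_congr rfl fun j _ => ?_
    rw [hsymm i l, hsymm j l]
    refine if_congr ?_ rfl rfl
    constructor
    · rintro ⟨a, b, c⟩
      exact ⟨b.symm, c.symm, a⟩
    · rintro ⟨a, b, c⟩
      exact ⟨c, a.symm, b.symm⟩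
  have hTnn : 0 ≤ T := by
    have h3 : 0 ≤ T + (∑ i, ∑ j, ∑ l, (if i ≠ j ∧ i ≠ l ∧ j ≠ l then dot (q i j) (q j l) else 0))
        + (∑ i, ∑ j, ∑ l, (if i ≠ j ∧ i ≠ l ∧ j ≠ l then dot (q i l) (q j l) else 0)) := by
      rw [hT]
      simp only [← Finset.sum_add_distrib]
      refine Finset.sum_nonneg fun i _ => Finset.sum_nonneg fun j _ => Finset.sum_nonneg fun l _ => ?_
      by_cases h : i ≠ j ∧ i ≠ l ∧ j ≠ l
      · simp only [if_pos h]
        exact htri i j l h.1 h.2.1 h.2.2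
      · simp only [if_neg h]
        simp
    rw [hT', hT''] at h3
    linarith
  -- pointwise lower bound
  have hpt : ∀ i j k l : ι,
      (if i ≠ j ∧ k = i ∧ l = j then dot (q i j) (q i j) else 0)
      + (if i ≠ j ∧ k = j ∧ l = i then dot (q i j) (q i j) else 0)
      + (if (i ≠ j ∧ i ≠ l ∧ j ≠ l) ∧ k = i then dot (q i j) (q i l) else 0)
      + (if (i ≠ j ∧ i ≠ l ∧ j ≠ l) ∧ k = j then dot (q i j) (q j l) else 0)
      + (if (i ≠ j ∧ i ≠ k ∧ j ≠ k) ∧ l = i then dot (q i j) (q i k) else 0)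
      + (if (i ≠ j ∧ i ≠ k ∧ j ≠ k) ∧ l = j then dot (q i j) (q j k) else 0)
      ≤ (if i ≠ j ∧ k ≠ l then dot (q i j) (q k l) else 0) := by
    intro i j k l
    by_cases hij : i = j
    · simp [hij]
    by_cases hki : k = i
    · subst hki
      by_cases hlk : l = k
      · subst hlk
        simp [hij]
      · by_cases hlj : l = j
        · subst hlj
          simp [hij, hlk, Ne.symm hlk]
        · simp [hij, hlk, hlj, Ne.symm hlk, Ne.symm hlj]
    by_cases hkj : k = j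
    · subst hkj
      by_cases hlk : l = k
      · subst hlk
        simp [hij, hki]
      · by_cases hli : l = i
        · subst hli
          simp [hij, hki, hsymm k l]
        · simp [hij, hki, hlk, hli, Ne.symm hlk, Ne.symm hli]
    by_cases hli : l = i
    · subst hli
      simp [hij, hki, hkj, Ne.symm hki, Ne.symm hkj, hsymm k l]
    by_cases hlj : l = j
    · subst hlj
      simp [hij, hki, hkj, hli, Ne.symm hki, Ne.symm hkj, Ne.symm hli, hsymm k l]
    by_cases hkl : k = l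
    · simp [hij, hki, hkj, hli, hlj, hkl]
    · simp only [hki, hkj, hli, hlj, and_false, false_and, if_false, add_zero]
      rw [if_pos ⟨hij, hkl⟩]
      exact hdisj i j k l hij hkl (Ne.symm hki) (Ne.symm hli) (Ne.symm hkj) (Ne.symm hlj)
  rw [hexp]
  set S : ℝ := ∑ i, ∑ j, (if i ≠ j then dot (q i j) (q i j) else 0) with hS
  have hsum : S + S + T + T + T + T ≤
      ∑ i, ∑ j, ∑ k, ∑ l, (if i ≠ j ∧ k ≠ l then dot (q i j) (q k l) else 0) := by
    have hle := Finset.sum_le_sum fun i (_ : i ∈ (Finset.univ : Finset ι)) =>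
      Finset.sum_le_sum fun j (_ : j ∈ (Finset.univ : Finset ι)) =>
      Finset.sum_le_sum fun k (_ : k ∈ (Finset.univ : Finset ι)) =>
      Finset.sum_le_sum fun l (_ : l ∈ (Finset.univ : Finset ι)) => hpt i j k l
    refine le_trans (le_of_eq ?_) hle
    simp only [Finset.sum_add_distrib]
    have t1 : ∑ i, ∑ j, ∑ k, ∑ l, (if i ≠ j ∧ k = i ∧ l = j then dot (q i j) (q i j) else 0) = S := by
      rw [hS]
      refine Finset.sum_congr rfl fun i _ => Finset.sum_congr rfl fun j _ => ?_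
      have : ∀ k, ∑ l, (if i ≠ j ∧ k = i ∧ l = j then dot (q i j) (q i j) else 0) =
          if i ≠ j ∧ k = i then dot (q i j) (q i j) else 0 := by
        intro k
        simp only [← and_assoc]
        exact sum_ite_and_eq _ _ _
      simp only [this]
      exact sum_ite_and_eq _ _ _
    have t2 : ∑ i, ∑ j, ∑ k, ∑ l, (if i ≠ j ∧ k = j ∧ l = i then dot (q i j) (q i j) else 0) = S := by
      rw [hS]
      refine Finset.sum_congr rfl fun i _ => Finset.sum_congr rfl fun j _ => ?_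
      have : ∀ k, ∑ l, (if i ≠ j ∧ k = j ∧ l = i then dot (q i j) (q i j) else 0) =
          if i ≠ j ∧ k = j then dot (q i j) (q i j) else 0 := by
        intro k
        simp only [← and_assoc]
        exact sum_ite_and_eq _ _ _
      simp only [this]
      exact sum_ite_and_eq _ _ _
    have t3 : ∑ i, ∑ j, ∑ k, ∑ l,
        (if (i ≠ j ∧ i ≠ l ∧ j ≠ l) ∧ k = i then dot (q i j) (q i l) else 0) = T := by
      rw [hT]
      refine Finset.sum_congr rfl fun i _ => Finset.sum_congr rfl fun j _ => ?_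
      rw [Finset.sum_comm]
      refine Finset.sum_congr rfl fun l _ => ?_
      exact sum_ite_and_eq _ _ _
    have t4 : ∑ i, ∑ j, ∑ k, ∑ l,
        (if (i ≠ j ∧ i ≠ l ∧ j ≠ l) ∧ k = j then dot (q i j) (q j l) else 0) = T := by
      rw [← hT']
      refine Finset.sum_congr rfl fun i _ => Finset.sum_congr rfl fun j _ => ?_
      rw [Finset.sum_comm]
      refine Finset.sum_congr rfl fun l _ => ?_
      exact sum_ite_and_eq _ _ _
    have t5 : ∑ i, ∑ j, ∑ k, ∑ l,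
        (if (i ≠ j ∧ i ≠ k ∧ j ≠ k) ∧ l = i then dot (q i j) (q i k) else 0) = T := by
      rw [hT]
      refine Finset.sum_congr rfl fun i _ => Finset.sum_congr rfl fun j _ => ?_
      refine Finset.sum_congr rfl fun k _ => ?_
      exact sum_ite_and_eq _ _ _
    have t6 : ∑ i, ∑ j, ∑ k, ∑ l,
        (if (i ≠ j ∧ i ≠ k ∧ j ≠ k) ∧ l = j then dot (q i j) (q j k) else 0) = T := by
      rw [← hT']
      refine Finset.sum_congr rfl fun i _ => Finset.sum_congr rfl fun j _ => ?_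
      refine Finset.sum_congr rfl fun k _ => ?_
      exact sum_ite_and_eq _ _ _
    rw [t1, t2, t3, t4, t5, t6]
  linarith



/-- From the three-block inequality (H3) to nonnegativity of the triple cross terms.
`E₁ E₂ E₃ ET` are symmetric idempotents (given as maps), `Eₐ ET = ET`, and
`Σ |Eₐ f|^2 ≤ 2 |f|^2 + |ET f|^2`.
Proof: with `A = Σ (1 - Eₐ)` and `g = f - ET f` one has `A f = A g`, `<g, A g> ≥ |g|^2`, so by
Cauchy-Schwarz `<g, A g> ≤ |A g|^2`; expand. -/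
theorem triple_cross_nonneg (E₁ E₂ E₃ ET : (Ω → ℝ) →ₗ[ℝ] (Ω → ℝ))
    (s₁ : ∀ f g, dot (E₁ f) g = dot f (E₁ g)) (s₂ : ∀ f g, dot (E₂ f) g = dot f (E₂ g))
    (s₃ : ∀ f g, dot (E₃ f) g = dot f (E₃ g)) (sT : ∀ f g, dot (ET f) g = dot f (ET g))
    (i₁ : ∀ f, E₁ (E₁ f) = E₁ f) (i₂ : ∀ f, E₂ (E₂ f) = E₂ f) (i₃ : ∀ f, E₃ (E₃ f) = E₃ f)
    (iT : ∀ f, ET (ET f) = ET f)
    (a₁ : ∀ f, E₁ (ET f) = ET f) (a₂ : ∀ f, E₂ (ET f) = ET f) (a₃ : ∀ f, E₃ (ET f) = ET f)
    (H3 : ∀ f, dot (E₁ f) (E₁ f) + dot (E₂ f) (E₂ f) + dot (E₃ f) (E₃ f)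
      ≤ 2 * dot f f + dot (ET f) (ET f))
    (f : Ω → ℝ) :
    0 ≤ dot (f - E₁ f) (f - E₂ f) + dot (f - E₁ f) (f - E₃ f) + dot (f - E₂ f) (f - E₃ f) := by
  obtain ⟨g, hg⟩ : ∃ g : Ω → ℝ, g = f - ET f := ⟨_, rfl⟩
  have hTg : ET g = 0 := by rw [hg, map_sub, iT, sub_self]
  have q₁ : f - E₁ f = g - E₁ g := by rw [hg, map_sub, a₁]; abel
  have q₂ : f - E₂ f = g - E₂ g := by rw [hg, map_sub, a₂]; abel
  have q₃ : f - E₃ f = g - E₃ g := by rw [hg, map_sub, a₃]; abel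
  rw [q₁, q₂, q₃]
  obtain ⟨u₁, hu₁⟩ : ∃ u : Ω → ℝ, u = g - E₁ g := ⟨_, rfl⟩
  obtain ⟨u₂, hu₂⟩ : ∃ u : Ω → ℝ, u = g - E₂ g := ⟨_, rfl⟩
  obtain ⟨u₃, hu₃⟩ : ∃ u : Ω → ℝ, u = g - E₃ g := ⟨_, rfl⟩
  rw [← hu₁, ← hu₂, ← hu₃]
  set n := dot g g with hn
  have e₁ : dot (E₁ g) (E₁ g) = dot g (E₁ g) := by rw [s₁, i₁]
  have e₂ : dot (E₂ g) (E₂ g) = dot g (E₂ g) := by rw [s₂, i₂]
  have e₃ : dot (E₃ g) (E₃ g) = dot g (E₃ g) := by rw [s₃, i₃]
  have H := H3 g
  rw [hTg] at H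
  have hz : dot (0 : Ω → ℝ) (0 : Ω → ℝ) = 0 := by simp [dot]
  rw [hz, e₁, e₂, e₃] at H
  have gu₁ : dot g u₁ = n - dot g (E₁ g) := by rw [hu₁, dot_sub_right]
  have gu₂ : dot g u₂ = n - dot g (E₂ g) := by rw [hu₂, dot_sub_right]
  have gu₃ : dot g u₃ = n - dot g (E₃ g) := by rw [hu₃, dot_sub_right]
  have uu₁ : dot u₁ u₁ = n - dot g (E₁ g) := by
    rw [hu₁, dot_sub_left, dot_sub_right, dot_sub_right, e₁, dot_comm (E₁ g) g]; ring
  have uu₂ : dot u₂ u₂ = n - dot g (E₂ g) := by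
    rw [hu₂, dot_sub_left, dot_sub_right, dot_sub_right, e₂, dot_comm (E₂ g) g]; ring
  have uu₃ : dot u₃ u₃ = n - dot g (E₃ g) := by
    rw [hu₃, dot_sub_left, dot_sub_right, dot_sub_right, e₃, dot_comm (E₃ g) g]; ring
  set c := dot u₁ u₂ + dot u₁ u₃ + dot u₂ u₃ with hc
  set m := 3 * n - dot g (E₁ g) - dot g (E₂ g) - dot g (E₃ g) with hm
  have hSS : dot (u₁ + u₂ + u₃) (u₁ + u₂ + u₃) = m + 2 * c := by
    simp only [dot_add_left, dot_add_right]
    rw [uu₁, uu₂, uu₃, dot_comm u₂ u₁, dot_comm u₃ u₁, dot_comm u₃ u₂, hc, hm]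
    ring
  have hgS : dot g (u₁ + u₂ + u₃) = m := by
    simp only [dot_add_right]
    rw [gu₁, gu₂, gu₃, hm]; ring
  have hcs := dot_sq_le g (u₁ + u₂ + u₃)
  rw [hSS, hgS] at hcs
  have hSS0 : 0 ≤ m + 2 * c := by rw [← hSS]; exact dot_self_nonneg _
  have hn0 : 0 ≤ n := dot_self_nonneg _
  have hmn : n ≤ m := by rw [hm]; linarith
  by_contra hcon
  push Not at hcon
  rcases hn0.lt_or_eq with hpos | hzero
  · nlinarith
  · rw [← hn, ← hzero] at hcs
    have : m = 0 := by nlinarith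
    linarith

end P335
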