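import Vale.Agent.Lib.P335.Defs

/-!
# P335: elementary properties of the switch chain
-/

namespace P335

open Finset Classical

variable {n : ℕ}


/-- the reverse of a switch is a switch: `(a, b, c, e) ↦ (a, c, b, e)` -/
theorem IsSwitch.symm {G G' : SimpleGraph (Fin n)} (h : IsSwitch G G') : IsSwitch G' G := by
  obtain ⟨a, b, c, e, hab, hac, hae, hbc, hbe, hce, h1, h2, h3, h4, hE⟩ := h
  have hmem : ∀ z, z ∈ G'.edgeSet ↔
      (z ∈ G.edgeSet ∧ z ≠ s(a, b) ∧ z ≠ s(c, e)) ∨ z = s(a, c) ∨ z = s(b, e) := by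
    intro z
    rw [hE]
    simp only [Set.mem_union, Set.mem_sdiff, Set.mem_insert_iff, Set.mem_singleton_iff, not_or]
  have d1 : s(a, b) ≠ s(a, c) := by
    intro h; rw [Sym2.eq_iff] at h
    rcases h with ⟨_, h⟩ | ⟨h, _⟩
    · exact hbc h
    · exact hac h
  have d2 : s(a, b) ≠ s(b, e) := by
    intro h; rw [Sym2.eq_iff] at h
    rcases h with ⟨h, _⟩ | ⟨h, _⟩
    · exact hab h
    · exact hae h
  have d3 : s(c, e) ≠ s(a, c) := by
    intro h; rw [Sym2.eq_iff] at h
    rcases h with ⟨h, _⟩ | ⟨_, h⟩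
    · exact hac h.symm
    · exact hae h.symm
  have d4 : s(c, e) ≠ s(b, e) := by
    intro h; rw [Sym2.eq_iff] at h
    rcases h with ⟨h, _⟩ | ⟨h, _⟩
    · exact hbc h.symm
    · exact hce h
  refine ⟨a, c, b, e, hac, hab, hae, hbc.symm, hce, hbe, ?_, ?_, ?_, ?_, ?_⟩
  · rw [← SimpleGraph.mem_edgeSet, hmem]; exact Or.inr (Or.inl rfl)
  · rw [← SimpleGraph.mem_edgeSet, hmem]; exact Or.inr (Or.inr rfl)
  · rw [← SimpleGraph.mem_edgeSet, hmem]
    rintro (⟨_, h, _⟩ | h | h)
    · exact h rfl
    · exact d1 h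
    · exact d2 h
  · rw [← SimpleGraph.mem_edgeSet, hmem]
    rintro (⟨_, _, h⟩ | h | h)
    · exact h rfl
    · exact d3 h
    · exact d4 h
  · ext z
    simp only [Set.mem_union, Set.mem_sdiff, Set.mem_insert_iff, Set.mem_singleton_iff, not_or]
    rw [hmem]
    constructor
    · intro hz
      by_cases z1 : z = s(a, b)
      · exact Or.inr (Or.inl z1)
      by_cases z2 : z = s(c, e)
      · exact Or.inr (Or.inr z2)
      refine Or.inl ⟨Or.inl ⟨hz, z1, z2⟩, ?_, ?_⟩
      · intro h; subst h; exact h3 hz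
      · intro h; subst h; exact h4 hz
    · rintro (⟨(⟨hz, _, _⟩ | h | h), z1, z2⟩ | h | h)
      · exact hz
      · exact absurd h z1
      · exact absurd h z2
      · subst h; exact h1
      · subst h; exact h2

theorem IsSwitch.ne {G G' : SimpleGraph (Fin n)} (h : IsSwitch G G') : G ≠ G' := by
  obtain ⟨a, b, c, e, hab, hac, hae, hbc, hbe, hce, h1, h2, h3, h4, hE⟩ := h
  intro hG
  subst hG
  apply h3
  rw [← SimpleGraph.mem_edgeSet, hE]
  exact Or.inr (Or.inl rfl)



/-- the edge set produced by the switch along an injective 4-tuple -/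
def swSet (G : SimpleGraph (Fin n)) (t : Fin 4 ↪ Fin n) : Set (Sym2 (Fin n)) :=
  (G.edgeSet \ {s(t 0, t 1), s(t 2, t 3)}) ∪ {s(t 0, t 2), s(t 1, t 3)}

/-- the table of the Klein four group acting on `Fin 4` -/
def kf (s i : Fin 4) : Fin 4 :=
  ![![0, 1, 2, 3], ![1, 0, 3, 2], ![2, 3, 0, 1], ![3, 2, 1, 0]] s i

theorem kf_kf : ∀ s i : Fin 4, kf s (kf s i) = i := by decide

theorem kf_zero : ∀ s : Fin 4, kf s 0 = s := by decide

def kperm (s : Fin 4) : Equiv.Perm (Fin 4) := ⟨kf s, kf s, kf_kf s, kf_kf s⟩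

theorem swSet_kperm (G : SimpleGraph (Fin n)) (t : Fin 4 ↪ Fin n) (s : Fin 4) :
    swSet G ((kperm s).toEmbedding.trans t) = swSet G t := by
  have e01 : s(t 1, t 0) = s(t 0, t 1) := Sym2.eq_swap
  have e23 : s(t 3, t 2) = s(t 2, t 3) := Sym2.eq_swap
  have e02 : s(t 2, t 0) = s(t 0, t 2) := Sym2.eq_swap
  have e13 : s(t 3, t 1) = s(t 1, t 3) := Sym2.eq_swap
  fin_cases s
  · rfl
  · show (G.edgeSet \ {s(t 1, t 0), s(t 3, t 2)}) ∪ {s(t 1, t 3), s(t 0, t 2)} = _
    rw [e01, e23, Set.pair_comm s(t 1, t 3)]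
    rfl
  · show (G.edgeSet \ {s(t 2, t 3), s(t 0, t 1)}) ∪ {s(t 2, t 0), s(t 3, t 1)} = _
    rw [e02, e13, Set.pair_comm s(t 2, t 3)]
    rfl
  · show (G.edgeSet \ {s(t 3, t 2), s(t 1, t 0)}) ∪ {s(t 3, t 1), s(t 2, t 0)} = _
    rw [e01, e23, e02, e13, Set.pair_comm s(t 2, t 3), Set.pair_comm s(t 1, t 3)]
    rfl

theorem exists_tuple {G G' : SimpleGraph (Fin n)} (h : IsSwitch G G') :
    ∃ t : Fin 4 ↪ Fin n, swSet G t = G'.edgeSet := by
  obtain ⟨a, b, c, e, hab, hac, hae, hbc, hbe, hce, h1, h2, h3, h4, hE⟩ := h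
  refine ⟨⟨![a, b, c, e], ?_⟩, hE.symm⟩
  intro i j hij
  fin_cases i <;> fin_cases j <;> simp_all

theorem card_switch_le (d : Fin n → ℕ) (G : Realization n d) :
    (univ.filter (fun H : Realization n d => IsSwitch G.1 H.1)).card ≤ 6 * n.choose 4 := by
  have key : ∀ H : {H : Realization n d // IsSwitch G.1 H.1},
      ∃ t : Fin 4 ↪ Fin n, swSet G.1 t = H.1.1.edgeSet := fun H => exists_tuple H.2
  choose w hw using key
  let φ : {H : Realization n d // IsSwitch G.1 H.1} × Fin 4 → (Fin 4 ↪ Fin n) :=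
    fun p => (kperm p.2).toEmbedding.trans (w p.1)
  have hφ : Function.Injective φ := by
    rintro ⟨H, s⟩ ⟨H', s'⟩ hEq
    have hEq' : (kperm s).toEmbedding.trans (w H) = (kperm s').toEmbedding.trans (w H') := hEq
    have h1 : H.1.1.edgeSet = H'.1.1.edgeSet := by
      rw [← hw H, ← hw H', ← swSet_kperm G.1 (w H) s, ← swSet_kperm G.1 (w H') s', hEq']
    have h2 : H = H' := by
      apply Subtype.ext
      apply Subtype.ext
      exact SimpleGraph.edgeSet_injective h1
    subst h2
    have h3 := DFunLike.congr_fun hEq' 0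
    have h4 : w H (kf s 0) = w H (kf s' 0) := h3
    rw [kf_zero, kf_zero] at h4
    rw [(w H).injective h4]
  have hcard := Fintype.card_le_of_injective φ hφ
  rw [Fintype.card_prod, Fintype.card_embedding_eq, Fintype.card_fin, Fintype.card_fin,
    Fintype.card_subtype, Nat.descFactorial_eq_factorial_mul_choose] at hcard
  have h24 : Nat.factorial 4 = 24 := by decide
  rw [h24] at hcard
  omega


theorem switchChain_symm (d : Fin n → ℕ) (G G' : Realization n d) :
    switchChain n d G G' = switchChain n d G' G := by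
  by_cases h : G = G'
  · subst h; rfl
  · have h' : ¬ G' = G := fun h2 => h h2.symm
    unfold switchChain
    rw [if_neg h, if_neg h']
    by_cases hs : IsSwitch G.1 G'.1
    · rw [if_pos hs, if_pos hs.symm]
    · have hs' : ¬ IsSwitch G'.1 G.1 := fun h2 => hs h2.symm
      rw [if_neg hs, if_neg hs']

theorem card_div_le (d : Fin n → ℕ) (G : Realization n d) :
    ((univ.filter (fun H : Realization n d => IsSwitch G.1 H.1)).card : ℝ)
        / (12 * (n.choose 4 : ℝ)) ≤ 1 / 2 := by
  have h := card_switch_le d G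
  have h' : ((univ.filter (fun H : Realization n d => IsSwitch G.1 H.1)).card : ℝ)
      ≤ 6 * (n.choose 4 : ℝ) := by exact_mod_cast h
  rcases Nat.eq_zero_or_pos (n.choose 4) with h0 | h0
  · rw [h0]; simp
  · have hpos : (0 : ℝ) < 12 * (n.choose 4 : ℝ) := by positivity
    rw [div_le_iff₀ hpos]
    linarith

theorem switchChain_lazy (d : Fin n → ℕ) (G : Realization n d) :
    1 / 2 ≤ switchChain n d G G := by
  unfold switchChain
  rw [if_pos rfl]
  have := card_div_le d G
  linarith

theorem switchChain_nonneg (d : Fin n → ℕ) (G G' : Realization n d) :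
    0 ≤ switchChain n d G G' := by
  by_cases h : G = G'
  · subst h
    have := switchChain_lazy d G
    linarith
  · unfold switchChain
    rw [if_neg h]
    split_ifs
    · positivity
    · exact le_refl _

theorem switchChain_row_sum (d : Fin n → ℕ) (G : Realization n d) :
    ∑ G', switchChain n d G G' = 1 := by
  have h1 : ∀ G' : Realization n d, switchChain n d G G'
      = (if G = G' then 1 - ((univ.filter (fun H : Realization n d => IsSwitch G.1 H.1)).card : ℝ)
        / (12 * (n.choose 4 : ℝ)) else 0)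
        + (if IsSwitch G.1 G'.1 then 1 / (12 * (n.choose 4 : ℝ)) else 0) := by
    intro G'
    unfold switchChain
    by_cases h : G = G'
    · subst h
      have hs : ¬ IsSwitch G.1 G.1 := fun h2 => h2.ne rfl
      rw [if_pos rfl, if_pos rfl, if_neg hs, add_zero]
    · rw [if_neg h, if_neg h, zero_add]
  rw [Finset.sum_congr rfl (fun G' _ => h1 G'), Finset.sum_add_distrib, Finset.sum_ite_eq,
    if_pos (mem_univ G), ← Finset.sum_filter, Finset.sum_const, nsmul_eq_mul]
  ring

/-- the Dirichlet form of the switch chain -/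
theorem switchChain_dirichlet (d : Fin n → ℕ) (f : Realization n d → ℝ) :
    ∑ G, ∑ G', switchChain n d G G' * (f G - f G') ^ 2
      = (1 / (12 * (n.choose 4 : ℝ))) *
        ∑ G : Realization n d, ∑ G' : Realization n d,
          (if IsSwitch G.1 G'.1 then (f G - f G') ^ 2 else 0) := by
  rw [Finset.mul_sum]
  refine Finset.sum_congr rfl (fun G _ => ?_)
  rw [Finset.mul_sum]
  refine Finset.sum_congr rfl (fun G' _ => ?_)
  by_cases h : G = G'
  · subst h
    simp
  · unfold switchChain
    rw [if_neg h]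
    split_ifs
    · rfl
    · simp

/-- crude bound on the number of realizations (inject `G` into `Fin n → Fin n → Bool`) -/
theorem card_realization_le (d : Fin n → ℕ) : Fintype.card (Realization n d) ≤ 2 ^ (n * n) := by
  let φ : Realization n d → (Fin n → Fin n → Bool) := fun G i j => decide (G.1.Adj i j)
  have hφ : Function.Injective φ := by
    intro G G' h
    apply Subtype.ext
    ext i j
    have h2 := congrFun (congrFun h i) j
    have h3 : decide (G.1.Adj i j) = decide (G'.1.Adj i j) := h2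
    exact decide_eq_decide.mp h3
  have hcard := Fintype.card_le_of_injective φ hφ
  have h2 : Fintype.card (Fin n → Fin n → Bool) = 2 ^ (n * n) := by
    simp [← pow_mul]
  rw [h2] at hcard
  exact hcard

end P335
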