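import Vale.Agent.Lib.P335.Step2b

/-!
# P335: three-row lemma, step 2: class I
-/

namespace P335

open Finset

set_option linter.unusedSectionVars false

variable {ι κ : Type*} [Fintype ι] [Fintype κ] [DecidableEq ι] [DecidableEq κ]
variable {r : ι → ℕ} {c : κ → ℕ}

theorem cycq_x (x e e' : ι) (p q : κ) : cyc x e e' p q q x = Equiv.swap p q := by
  unfold cyc
  rw [if_pos rfl]

theorem cycq_e {x e : ι} (hxe : x ≠ e) (e' : ι) (p q : κ) :
    cyc x e e' p q q e = Equiv.swap p q := by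
  unfold cyc
  rw [if_neg hxe.symm, if_pos rfl, Equiv.swap_comm]

theorem cycq_other {x e : ι} (e' : ι) (p q : κ) {y : ι} (hx : y ≠ x) (he : y ≠ e) :
    cyc x e e' p q q y = 1 := by
  unfold cyc
  rw [if_neg hx, if_neg he, Equiv.swap_self]
  split_ifs <;> rfl

theorem cycq_off {T : Finset ι} {x e e' : ι} (h : Tri T x e e') (p q : κ) :
    ∀ y, y ∉ T → cyc x e e' p q q y = 1 := by
  intro y hy
  refine cycq_other e' p q ?_ ?_
  · rintro rfl; exact hy h.mem1
  · rintro rfl; exact hy h.mem2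

theorem cycq_cases {x e : ι} (hxe : x ≠ e) (e' : ι) (p q : κ) (y : ι) :
    cyc x e e' p q q y = Equiv.swap p q ∨ cyc x e e' p q q y = 1 := by
  by_cases hx : y = x
  · left; rw [hx]; exact cycq_x x e e' p q
  · by_cases he : y = e
    · left; rw [he]; exact cycq_e hxe e' p q
    · right; exact cycq_other e' p q hx he

theorem cycq_inv {x e : ι} (hxe : x ≠ e) (e' : ι) (p q : κ) :
    ∀ y w, cyc x e e' p q q y (cyc x e e' p q q y w) = w := by
  intro y w
  rcases cycq_cases hxe e' p q y with h | h <;> rw [h]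
  · exact Equiv.swap_apply_self p q w
  · rfl

theorem cycq_fix {C : Finset κ} {x e : ι} (hxe : x ≠ e) (e' : ι) {p q : κ} (hp : p ∈ C)
    (hq : q ∈ C) : ∀ y w, w ∉ C → cyc x e e' p q q y w = w := by
  intro y w hw
  rcases cycq_cases hxe e' p q y with h | h <;> rw [h]
  · refine Equiv.swap_apply_of_ne_of_ne ?_ ?_
    · rintro rfl; exact hw hp
    · rintro rfl; exact hw hq
  · rfl

theorem tsum_cycq {T : Finset ι} {x e e' : ι} (h : Tri T x e e') {p q : κ} (Z : ι → κ → Bool)
    (hs : (Z x p).toNat + (Z e p).toNat = (Z x q).toNat + (Z e q).toNat) (w : κ) :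
    tsum T (permRaw (cyc x e e' p q q) Z) w = tsum T Z w := by
  rw [h.tsum, h.tsum]
  unfold permRaw
  rw [cycq_x, cycq_e h.1, cycq_other e' p q h.2.1.symm h.2.2.1.symm]
  by_cases hwp : w = p
  · subst hwp
    rw [Equiv.swap_apply_left]
    simp only [Equiv.Perm.coe_one, id_eq]
    omega
  · by_cases hwq : w = q
    · subst hwq
      rw [Equiv.swap_apply_right]
      simp only [Equiv.Perm.coe_one, id_eq]
      omega
    · rw [Equiv.swap_apply_of_ne_of_ne hwp hwq]
      rfl

/-- the switch on rows `x e`, columns `p q`: its value and its relation to the original matrix -/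
theorem cycq_move {T : Finset ι} {C : Finset κ} {x e e' : ι} (h : Tri T x e e') {p q : κ}
    (hp : p ∈ C) (hq : q ∈ C) (Z : Mat r c)
    (hs : (Z.1 x p).toNat + (Z.1 e p).toNat = (Z.1 x q).toNat + (Z.1 e q).toNat) :
    (move (cyc x e e' p q q) Z).1 = permRaw (cyc x e e' p q q) Z.1 ∧
    move (cyc x e e' p q q) (move (cyc x e e' p q q) Z) = Z ∧
    AgreeOff T C Z (move (cyc x e e' p q q) Z) ∧
    AgreeOff (T.erase e') C Z (move (cyc x e e' p q q) Z) ∧
    (∀ w, (move (cyc x e e' p q q) Z).1 x w = Z.1 x (Equiv.swap p q w)) ∧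
    (∀ w, (move (cyc x e e' p q q) Z).1 e w = Z.1 e (Equiv.swap p q w)) := by
  have hv : (move (cyc x e e' p q q) Z).1 = permRaw (cyc x e e' p q q) Z.1 :=
    move_val (cycq_off h p q) (tsum_cycq h Z.1 hs)
  have hA : AgreeOff T C Z (move (cyc x e e' p q q) Z) :=
    agreeOff_move (cycq_off h p q) (cycq_fix h.1 e' hp hq) hv
  refine ⟨hv, move_move (cycq_inv h.1 e' p q) hv, hA, ?_, ?_, ?_⟩
  · refine agreeOff_erase_of_row hA ?_
    intro w
    rw [hv]
    unfold permRaw
    rw [cycq_other e' p q h.2.1.symm h.2.2.1.symm]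
    rfl
  · intro w
    rw [hv]
    unfold permRaw
    rw [cycq_x]
  · intro w
    rw [hv]
    unfold permRaw
    rw [cycq_e h.1]

/-- **Class I**: matrices `Z'` of the second fibre with `Z' e p = 1`, `Z' e q = 0`.
The map `Z ↦ move (cyc x e e' p q q) Z` (a switch on rows `x e`, columns `p q`) is a bijection from
the first fibre onto this class; it leaves row `e'` unchanged and transposes `p q` in row `e`.
Use `biregular_indexed` with `U = Unit` (or `NA = NB = fun _ => {q}`), `α = β = 1`. -/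
theorem classI_bound {T : Finset ι} {C : Finset κ} {x e e' : ι} {p q : κ} {X Y : Mat r c}
    (h : Ctx T C x e e' p q X Y) {g : ι → Mat r c → ℝ} {δ : ℝ} (hg : Hyp T C g δ) :
    |∑ Z' ∈ (cls (AgreeOff (T.erase x) C) Y).filter
        (fun Z' => Z'.1 e p = true ∧ Z'.1 e q = false),
      ((g e + g e') Z' - (∑ Z ∈ cls (AgreeOff (T.erase x) C) X, (g e + g e') Z)
        / ((cls (AgreeOff (T.erase x) C) X).card : ℝ))|
    ≤ (((cls (AgreeOff (T.erase x) C) Y).filter
        (fun Z' => Z'.1 e p = true ∧ Z'.1 e q = false)).card : ℝ) * δ := by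
  classical
  have tri := h.tri
  obtain ⟨μ, hμ⟩ : ∃ μ : Mat r c → Mat r c, μ = move (cyc x e e' p q q) := ⟨_, rfl⟩
  have hpq := h.hpq
  -- from the first fibre to class I
  have hAB : ∀ Z ∈ cls (AgreeOff (T.erase x) C) X,
      μ Z ∈ (cls (AgreeOff (T.erase x) C) Y).filter
        (fun Z' => Z'.1 e p = true ∧ Z'.1 e q = false) ∧ μ (μ Z) = Z ∧
      |(g e + g e') (μ Z) - (g e + g e') Z| ≤ δ := by
    intro Z hZ
    have hZ' : AgreeOff (T.erase x) C X Z := mem_cls.1 hZ
    obtain ⟨f1, f2, f3, f4, f5, f6⟩ := h.factF hZ'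
    obtain ⟨m1, m2, m3, m4, m5, m6⟩ := cycq_move (r := r) (c := c) tri h.hp h.hq Z
      (by rw [f1, f2, f3, f5]; rfl)
    rw [← hμ] at m1 m2 m3 m4 m5 m6
    refine ⟨?_, m2, ?_⟩
    · rw [Finset.mem_filter]
      refine ⟨mem_cls.2 ?_, ?_, ?_⟩
      · have hYZ : AgreeOff T C Y (μ Z) :=
          (agreeOff_equiv T C).trans ((agreeOff_equiv T C).symm h.hXY)
            ((agreeOff_equiv T C).trans hZ'.of_erase m3)
        refine agreeOff_erase_of_row hYZ ?_
        intro w
        rw [h.hrow, m5, hZ'.row_eq]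
      · rw [m6, Equiv.swap_apply_left]; exact f5
      · rw [m6, Equiv.swap_apply_right]; exact f3
    · have e1 : g e' Z = g e' (μ Z) := hg.inv e' tri.mem3 Z (μ Z) m4
      have e2 : |g e Z - g e (μ Z)| ≤ δ := hg.bound e tri.mem2 Z (μ Z) m3 p h.hp q h.hq m6
      simp only [Pi.add_apply]
      rw [← e1, abs_sub_comm]
      have : g e Z + g e' Z - (g e (μ Z) + g e' Z) = g e Z - g e (μ Z) := by ring
      rw [this]
      exact e2
  -- from class I to the first fibre
  have hBA : ∀ Z ∈ (cls (AgreeOff (T.erase x) C) Y).filter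
        (fun Z' => Z'.1 e p = true ∧ Z'.1 e q = false),
      μ Z ∈ cls (AgreeOff (T.erase x) C) X ∧ μ (μ Z) = Z := by
    intro Z hZ
    rw [Finset.mem_filter] at hZ
    obtain ⟨hZ1, hZp, hZq⟩ := hZ
    have hZ' : AgreeOff (T.erase x) C Y Z := mem_cls.1 hZ1
    obtain ⟨f1, f2, -, -⟩ := h.factF' hZ'
    obtain ⟨m1, m2, m3, m4, m5, m6⟩ := cycq_move (r := r) (c := c) tri h.hp h.hq Z
      (by rw [f1, f2, hZp, hZq]; rfl)
    rw [← hμ] at m1 m2 m3 m4 m5 m6
    refine ⟨mem_cls.2 ?_, m2⟩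
    have hXZ : AgreeOff T C X (μ Z) :=
      (agreeOff_equiv T C).trans h.hXY ((agreeOff_equiv T C).trans hZ'.of_erase m3)
    refine agreeOff_erase_of_row hXZ ?_
    intro w
    rw [m5, ← hZ'.row_eq, h.hrow, Equiv.swap_apply_self]
  have hne : (cls (AgreeOff (T.erase x) C) X).Nonempty :=
    cls_nonempty (agreeOff_equiv _ _) X
  exact biregular_indexed (U := Unit) _ _ (fun _ => {()}) (fun _ => {()}) (fun _ => μ)
    (fun _ => μ) 1 1 (fun _ _ => rfl) (fun _ _ => rfl) Nat.one_pos hne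
    (fun a ha u _ => ⟨(hAB a ha).1, Finset.mem_singleton.2 rfl, (hAB a ha).2.1⟩)
    (fun b hb u _ => ⟨(hBA b hb).1, Finset.mem_singleton.2 rfl, (hBA b hb).2⟩)
    (g e + g e') δ (fun a ha _ _ => (hAB a ha).2.2)

end P335
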