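import Vale.Agent.Lib.P335.Step2b

/-!
# P335: three-row lemma, step 2: class II
-/

namespace P335

open Finset

set_option linter.unusedSectionVars false

variable {ι κ : Type*} [Fintype ι] [Fintype κ] [DecidableEq ι] [DecidableEq κ]
variable {r : ι → ℕ} {c : κ → ℕ}

theorem cyc_x (x e e' : ι) (p q u : κ) : cyc x e e' p q u x = Equiv.swap p q := by
  simp [cyc]

theorem cyc_e {x e : ι} (h : x ≠ e) (e' : ι) (p q u : κ) :
    cyc x e e' p q u e = Equiv.swap u p := by
  simp [cyc, h.symm]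

theorem cyc_e' {x e e' : ι} (h1 : x ≠ e') (h2 : e ≠ e') (p q u : κ) :
    cyc x e e' p q u e' = Equiv.swap q u := by
  simp [cyc, h1.symm, h2.symm]

theorem cyc_off {T : Finset ι} {x e e' : ι} (h : Tri T x e e') (p q u : κ) :
    ∀ y, y ∉ T → cyc x e e' p q u y = 1 := by
  intro y hy
  rw [h.mem_iff] at hy
  push Not at hy
  simp [cyc, hy.1, hy.2.1, hy.2.2]

theorem cyc_inv (x e e' : ι) (p q u : κ) :
    ∀ y w, cyc x e e' p q u y (cyc x e e' p q u y w) = w := by
  intro y w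
  unfold cyc
  split_ifs <;> simp

theorem cyc_fix {C : Finset κ} (x e e' : ι) {p q u : κ} (hp : p ∈ C) (hq : q ∈ C) (hu : u ∈ C) :
    ∀ y w, w ∉ C → cyc x e e' p q u y w = w := by
  intro y w hw
  have h1 : w ≠ p := fun h => hw (h ▸ hp)
  have h2 : w ≠ q := fun h => hw (h ▸ hq)
  have h3 : w ≠ u := fun h => hw (h ▸ hu)
  unfold cyc
  split_ifs
  · exact Equiv.swap_apply_of_ne_of_ne h1 h2
  · exact Equiv.swap_apply_of_ne_of_ne h3 h1
  · exact Equiv.swap_apply_of_ne_of_ne h2 h3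
  · rfl

theorem tri_cycle_sum (a b d : κ → Bool) {p q u : κ} (hpq : p ≠ q) (hup : u ≠ p) (huq : u ≠ q)
    (t : Bool) (ha : a p = t) (ha' : a q = !t) (hb : b u = t) (hb' : b p = !t) (hd : d q = t)
    (hd' : d u = !t) (w : κ) :
    (a (Equiv.swap p q w)).toNat + (b (Equiv.swap u p w)).toNat + (d (Equiv.swap q u w)).toNat
      = (a w).toNat + (b w).toNat + (d w).toNat := by
  by_cases h1 : w = p
  · subst h1
    rw [Equiv.swap_apply_left, Equiv.swap_apply_right, Equiv.swap_apply_of_ne_of_ne hpq hup.symm,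
      ha, ha', hb, hb']
    cases t <;> simp
  by_cases h2 : w = q
  · subst h2
    rw [Equiv.swap_apply_right, Equiv.swap_apply_left, Equiv.swap_apply_of_ne_of_ne huq.symm h1,
      ha, ha', hd, hd']
    cases t <;> simp <;> omega
  by_cases h3 : w = u
  · subst h3
    rw [Equiv.swap_apply_left, Equiv.swap_apply_right, Equiv.swap_apply_of_ne_of_ne h1 h2,
      hb, hb', hd, hd']
    cases t <;> simp
  rw [Equiv.swap_apply_of_ne_of_ne h1 h2, Equiv.swap_apply_of_ne_of_ne h3 h1,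
    Equiv.swap_apply_of_ne_of_ne h2 h3]

/-- validity of the cyclic move -/
theorem cyc_val {T : Finset ι} {x e e' : ι} (h : Tri T x e e') {p q u : κ} (hpq : p ≠ q)
    (hup : u ≠ p) (huq : u ≠ q) {Z : Mat r c} (t : Bool) (ha : Z.1 x p = t) (ha' : Z.1 x q = !t)
    (hb : Z.1 e u = t) (hb' : Z.1 e p = !t) (hd : Z.1 e' q = t) (hd' : Z.1 e' u = !t) :
    (move (cyc x e e' p q u) Z).1 = permRaw (cyc x e e' p q u) Z.1 := by
  refine move_val (cyc_off h p q u) (fun w => ?_)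
  rw [h.tsum, h.tsum]
  unfold permRaw
  rw [cyc_x, cyc_e h.1, cyc_e' h.2.1 h.2.2.1]
  exact tri_cycle_sum _ _ _ hpq hup huq t ha ha' hb hb' hd hd' w

/-- a valid move whose permutation on row `x` is `swap p q` maps the fibre of `X` to that of `Y` -/
theorem class_move {T : Finset ι} {C : Finset κ} {x : ι} {p q : κ} {σ : ι → Equiv.Perm κ}
    (hσoff : ∀ y, y ∉ T → σ y = 1) (hσC : ∀ y w, w ∉ C → σ y w = w) (hσx : σ x = Equiv.swap p q)
    {X Y : Mat r c} (hXY : AgreeOff T C X Y) (hrow : ∀ w, Y.1 x w = X.1 x (Equiv.swap p q w))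
    {Z : Mat r c} (hZ : AgreeOff (T.erase x) C X Z) (hv : (move σ Z).1 = permRaw σ Z.1) :
    AgreeOff (T.erase x) C Y (move σ Z) := by
  intro y w hyw
  rw [hv]
  unfold permRaw
  by_cases hy : y ∈ T
  · by_cases hyx : y = x
    · subst hyx
      rw [hσx, hrow, hZ.row_eq]
    · have hw : w ∉ C := fun hw => hyw ⟨Finset.mem_erase.2 ⟨hyx, hy⟩, hw⟩
      rw [hσC y w hw, ← hXY y w (fun h' => hw h'.2)]
      exact hZ y w (fun h' => hw h'.2)
  · rw [hσoff y hy, ← hXY y w (fun h' => hy h'.1)]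
    exact hZ y w (fun h' => hy (Finset.mem_of_mem_erase h'.1))

theorem mem_NN {C : Finset κ} {e e' : ι} {Z : Mat r c} {u : κ} :
    u ∈ NN C e e' Z ↔ u ∈ C ∧ Z.1 e u = true ∧ Z.1 e' u = false := by
  unfold NN
  rw [Finset.mem_filter]


section main

variable {T : Finset ι} {C : Finset κ} {x e e' : ι} {p q : κ} {X Y : Mat r c}

/-- forward move: from the first fibre to class II -/
theorem Ctx.fwd (h : Ctx T C x e e' p q X Y) {Z : Mat r c} (hZ : AgreeOff (T.erase x) C X Z)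
    {u : κ} (hu : u ∈ NN C e e' Z) :
    (move (cyc x e e' p q u) Z).1 = permRaw (cyc x e e' p q u) Z.1 ∧ u ≠ p ∧ u ≠ q := by
  obtain ⟨f1, f2, f3, f4, f5, f6⟩ := h.factF hZ
  obtain ⟨huC, hu1, hu2⟩ := mem_NN.1 hu
  have hup : u ≠ p := by
    intro hh; rw [hh, f3] at hu1; exact Bool.noConfusion hu1
  have huq : u ≠ q := by
    intro hh; rw [hh, f6] at hu2; exact Bool.noConfusion hu2
  exact ⟨cyc_val h.tri h.hpq hup huq true f1 f2 hu1 f3 f6 hu2, hup, huq⟩

/-- backward move: from class II to the first fibre -/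
theorem Ctx.bwd (h : Ctx T C x e e' p q X Y) {Z : Mat r c} (hZ : AgreeOff (T.erase x) C Y Z)
    (hep : Z.1 e p = true) (heq : Z.1 e q = true) {u : κ} (hu : u ∈ NN C e' e Z) :
    (move (cyc x e e' p q u) Z).1 = permRaw (cyc x e e' p q u) Z.1 ∧ u ≠ p ∧ u ≠ q ∧
      Z.1 e' p = false ∧ Z.1 e' q = false := by
  obtain ⟨f1, f2, f3, f4⟩ := h.factF' hZ
  obtain ⟨huC, hu1, hu2⟩ := mem_NN.1 hu
  have g1 : Z.1 e' p = false := by
    rw [hep] at f3
    cases hh : Z.1 e' p
    · rfl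
    · rw [hh] at f3; simp at f3
  have g2 : Z.1 e' q = false := by
    rw [heq] at f4
    cases hh : Z.1 e' q
    · rfl
    · rw [hh] at f4; simp at f4
  have hup : u ≠ p := by
    intro hh; rw [hh, hep] at hu2; exact Bool.noConfusion hu2
  have huq : u ≠ q := by
    intro hh; rw [hh, heq] at hu2; exact Bool.noConfusion hu2
  exact ⟨cyc_val h.tri h.hpq hup huq false f1 f2 hu2 hep g2 hu1, hup, huq, g1, g2⟩

theorem Ctx.hrow' (h : Ctx T C x e e' p q X Y) : ∀ w, X.1 x w = Y.1 x (Equiv.swap p q w) := by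
  intro w
  rw [h.hrow, Equiv.swap_apply_self]

/-- class II is only nonempty if the index sets on its side are nonempty -/
theorem Ctx.NN_pos (h : Ctx T C x e e' p q X Y) {Z : Mat r c} (hZ : AgreeOff (T.erase x) C Y Z)
    (hep : Z.1 e p = true) (heq : Z.1 e q = true) : (NN C e' e Z).Nonempty := by
  obtain ⟨f1, f2, f3, f4⟩ := h.factF' hZ
  obtain ⟨k1, k2, k3, k4, k5, k6⟩ := h.factF ((agreeOff_equiv (T.erase x) C).refl X)
  have g1 : Z.1 e' p = false := by
    rw [hep] at f3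
    cases hh : Z.1 e' p
    · rfl
    · rw [hh] at f3; simp at f3
  have g2 : Z.1 e' q = false := by
    rw [heq] at f4
    cases hh : Z.1 e' q
    · rfl
    · rw [hh] at f4; simp at f4
  have hXZ : AgreeOff T C X Z := (agreeOff_equiv T C).trans h.hXY hZ.of_erase
  have hsum := sum_row_eq_of_agreeOff hXZ e'
  have hex : ∃ u ∈ C, Z.1 e' u = true ∧ X.1 e' u = false := by
    by_contra hcon
    push Not at hcon
    have hlt : ∑ w ∈ C, (Z.1 e' w).toNat < ∑ w ∈ C, (X.1 e' w).toNat := by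
      refine Finset.sum_lt_sum (fun w hw => ?_) ⟨q, h.hq, ?_⟩
      · cases hz : Z.1 e' w
        · simp
        · have := hcon w hw hz
          have hx1 : X.1 e' w = true := by
            cases hh : X.1 e' w
            · exact absurd hh this
            · rfl
          rw [hx1]
      · rw [g2, k6]; simp
    omega
  obtain ⟨u, huC, hu1, hu2⟩ := hex
  have hup : u ≠ p := by
    intro hh; rw [hh, g1] at hu1; exact Bool.noConfusion hu1
  have huq : u ≠ q := by
    intro hh; rw [hh, g2] at hu1; exact Bool.noConfusion hu1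
  have hxu : Z.1 x u = X.1 x u := by
    rw [← hZ.row_eq, h.hrow, Equiv.swap_apply_of_ne_of_ne hup huq]
  have ht := tsum_eq_of_agreeOff hXZ u
  rw [h.tri.tsum, h.tri.tsum, hxu, hu1, hu2] at ht
  refine ⟨u, mem_NN.2 ⟨huC, hu1, ?_⟩⟩
  cases hh : Z.1 e u
  · rfl
  · rw [hh] at ht
    have u1 : (X.1 e u).toNat ≤ 1 := by cases X.1 e u <;> simp
    simp at ht
    omega

/-- the cost of a forward move -/
theorem Ctx.cost (h : Ctx T C x e e' p q X Y) {g : ι → Mat r c → ℝ} {δ : ℝ} (hg : Hyp T C g δ)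
    {Z : Mat r c} (hZ : AgreeOff (T.erase x) C X Z) {u : κ} (hu : u ∈ NN C e e' Z) :
    |(g e + g e') (move (cyc x e e' p q u) Z) - (g e + g e') Z| ≤ δ := by
  obtain ⟨hv, hup, huq⟩ := h.fwd hZ hu
  obtain ⟨huC, hu1, hu2⟩ := mem_NN.1 hu
  set Z' := move (cyc x e e' p q u) Z with hZ'
  have hZZ' : AgreeOff T C Z Z' :=
    agreeOff_move (cyc_off h.tri p q u) (cyc_fix x e e' h.hp h.hq huC) hv
  have re : ∀ w, Z'.1 e w = Z.1 e (Equiv.swap u p w) := by
    intro w
    rw [hv]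
    unfold permRaw
    rw [cyc_e h.tri.1]
  have re' : ∀ w, Z'.1 e' w = Z.1 e' (Equiv.swap q u w) := by
    intro w
    rw [hv]
    unfold permRaw
    rw [cyc_e' h.tri.2.1 h.tri.2.2.1]
  have tp : tsum T Z.1 p = 1 := by rw [← tsum_eq_of_agreeOff hZ.of_erase]; exact h.hsp
  have tq : tsum T Z.1 q = 2 := by rw [← tsum_eq_of_agreeOff hZ.of_erase]; exact h.hsq
  have tu := h.tri.tsum Z.1 u
  rw [hu1, hu2] at tu
  have hsplit : (g e + g e') Z' - (g e + g e') Z = -(g e Z - g e Z') + -(g e' Z - g e' Z') := by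
    simp only [Pi.add_apply]
    ring
  rw [hsplit]
  cases hxu : Z.1 x u
  · rw [hxu] at tu
    have h1 : g e Z = g e Z' :=
      hg.same e h.tri.mem2 Z Z' hZZ' u huC p h.hp (by rw [tu, tp]; simp) re
    have h2 := hg.bound e' h.tri.mem3 Z Z' hZZ' q h.hq u huC re'
    rw [h1, sub_self, neg_zero, zero_add, abs_neg]
    exact h2
  · rw [hxu] at tu
    have h1 : g e' Z = g e' Z' :=
      hg.same e' h.tri.mem3 Z Z' hZZ' q h.hq u huC (by rw [tu, tq]; simp) re'
    have h2 := hg.bound e h.tri.mem2 Z Z' hZZ' u huC p h.hp re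
    rw [h1, sub_self, neg_zero, add_zero, abs_neg]
    exact h2

end main

/-- **Class II**: matrices `Z'` of the second fibre with `Z' e p = 1`, `Z' e q = 1`. -/
theorem classII_bound {T : Finset ι} {C : Finset κ} {x e e' : ι} {p q : κ} {X Y : Mat r c}
    (h : Ctx T C x e e' p q X Y) {g : ι → Mat r c → ℝ} {δ : ℝ} (hg : Hyp T C g δ) :
    |∑ Z' ∈ (cls (AgreeOff (T.erase x) C) Y).filter
        (fun Z' => Z'.1 e p = true ∧ Z'.1 e q = true),
      ((g e + g e') Z' - (∑ Z ∈ cls (AgreeOff (T.erase x) C) X, (g e + g e') Z)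
        / ((cls (AgreeOff (T.erase x) C) X).card : ℝ))|
    ≤ (((cls (AgreeOff (T.erase x) C) Y).filter
        (fun Z' => Z'.1 e p = true ∧ Z'.1 e q = true)).card : ℝ) * δ := by
  set B := (cls (AgreeOff (r := r) (c := c) (T.erase x) C) Y).filter
        (fun Z' => Z'.1 e p = true ∧ Z'.1 e q = true) with hB
  rcases B.eq_empty_or_nonempty with hemp | ⟨Z0, hZ0⟩
  · rw [hemp]; simp
  have memB : ∀ Z : Mat r c, Z ∈ B ↔
      AgreeOff (T.erase x) C Y Z ∧ Z.1 e p = true ∧ Z.1 e q = true := by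
    intro Z
    rw [hB, Finset.mem_filter, mem_cls]
  have hYX : AgreeOff T C Y X := (agreeOff_equiv T C).symm h.hXY
  refine biregular_indexed (cls (AgreeOff (T.erase x) C) X) B (NN C e e') (NN C e' e)
    (fun u => move (cyc x e e' p q u)) (fun u => move (cyc x e e' p q u))
    (NN C e e' X).card (NN C e' e Y).card ?_ ?_ ?_
    (cls_nonempty (agreeOff_equiv _ _) X) ?_ ?_ (g e + g e') δ ?_
  · intro Z hZ
    have hZ' := mem_cls.1 hZ
    rw [h.tri.erase] at hZ'
    exact (card_NN_eq h.tri.2.2.1 hZ').symm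
  · intro Z hZ
    have hZ' := ((memB Z).1 hZ).1
    rw [h.tri.swap23.erase] at hZ'
    exact (card_NN_eq h.tri.2.2.1.symm hZ').symm
  · obtain ⟨a1, a2, a3⟩ := (memB Z0).1 hZ0
    have hpos := (h.NN_pos a1 a2 a3).card_pos
    have a1' := a1
    rw [h.tri.swap23.erase] at a1'
    rw [card_NN_eq h.tri.2.2.1.symm a1']
    exact hpos
  · intro Z hZ u hu
    have hZ' := mem_cls.1 hZ
    obtain ⟨hv, hup, huq⟩ := h.fwd hZ' hu
    obtain ⟨huC, hu1, hu2⟩ := mem_NN.1 hu
    obtain ⟨f1, f2, f3, f4, f5, f6⟩ := h.factF hZ'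
    refine ⟨(memB _).2 ⟨class_move (cyc_off h.tri p q u) (cyc_fix x e e' h.hp h.hq huC)
      (cyc_x x e e' p q u) h.hXY h.hrow hZ' hv, ?_, ?_⟩, mem_NN.2 ⟨huC, ?_, ?_⟩,
      move_move (cyc_inv x e e' p q u) hv⟩
    · simp only [hv]
      unfold permRaw
      rw [cyc_e h.tri.1, Equiv.swap_apply_right]
      exact hu1
    · simp only [hv]
      unfold permRaw
      rw [cyc_e h.tri.1, Equiv.swap_apply_of_ne_of_ne huq.symm h.hpq.symm]
      exact f5
    · simp only [hv]
      unfold permRaw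
      rw [cyc_e' h.tri.2.1 h.tri.2.2.1, Equiv.swap_apply_right]
      exact f6
    · simp only [hv]
      unfold permRaw
      rw [cyc_e h.tri.1, Equiv.swap_apply_left]
      exact f3
  · intro Z hZ u hu
    obtain ⟨a1, a2, a3⟩ := (memB Z).1 hZ
    obtain ⟨hv, hup, huq, g1, g2⟩ := h.bwd a1 a2 a3 hu
    obtain ⟨huC, hu1, hu2⟩ := mem_NN.1 hu
    refine ⟨mem_cls.2 (class_move (cyc_off h.tri p q u) (cyc_fix x e e' h.hp h.hq huC)
      (cyc_x x e e' p q u) hYX h.hrow' a1 hv), mem_NN.2 ⟨huC, ?_, ?_⟩,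
      move_move (cyc_inv x e e' p q u) hv⟩
    · simp only [hv]
      unfold permRaw
      rw [cyc_e h.tri.1, Equiv.swap_apply_left]
      exact a2
    · simp only [hv]
      unfold permRaw
      rw [cyc_e' h.tri.2.1 h.tri.2.2.1, Equiv.swap_apply_right]
      exact g2
  · intro Z hZ u hu
    exact h.cost hg (mem_cls.1 hZ) hu

end P335
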