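import Vale.Agent.Lib.P335.Mat

/-!
# P335: block averagings over disjoint sets of rows commute
-/

namespace P335

open Finset

set_option linter.unusedSectionVars false

variable {ι κ : Type*} [Fintype ι] [Fintype κ] [DecidableEq ι] [DecidableEq κ]
variable {r : ι → ℕ} {c : κ → ℕ}

/-- gluing the rows of `R₁` of `Y` into `X'` keeps the margins -/
theorem isMat_glue {R₁ R₂ : Finset ι} (hd : Disjoint R₁ R₂) {C : Finset κ} {X X' Y : Mat r c}
    (hXX' : AgreeOff R₂ C X X') (hXY : AgreeOff R₁ C X Y) :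
    IsMat r c (fun i p => if i ∈ R₁ then Y.1 i p else X'.1 i p) := by
  constructor
  · intro i
    by_cases hi : i ∈ R₁
    · simp only [if_pos hi]
      exact Y.2.1 i
    · simp only [if_neg hi]
      exact X'.2.1 i
  · intro p
    rw [← Finset.sum_add_sum_compl R₁, ← X'.2.2 p, ← Finset.sum_add_sum_compl R₁]
    congr 1
    · calc ∑ i ∈ R₁, (if i ∈ R₁ then Y.1 i p else X'.1 i p).toNat
          = ∑ i ∈ R₁, (Y.1 i p).toNat :=
            Finset.sum_congr rfl (fun i hi => by rw [if_pos hi])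
        _ = ∑ i ∈ R₁, (X.1 i p).toNat := (sum_col_eq_of_agreeOff hXY p).symm
        _ = ∑ i ∈ R₁, (X'.1 i p).toNat := by
            refine Finset.sum_congr rfl (fun i hi => ?_)
            rw [hXX' i p (fun h => (Finset.disjoint_left.1 hd hi) h.1)]
    · refine Finset.sum_congr rfl (fun i hi => ?_)
      show (if i ∈ R₁ then Y.1 i p else X'.1 i p).toNat = (X'.1 i p).toNat
      rw [if_neg (Finset.mem_compl.1 hi)]

/-- rows of `R₁` from `Y`, all other rows from `B` -/
noncomputable def glue (R₁ : Finset ι) (B Y : Mat r c) : Mat r c :=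
  ofRaw (fun i p => if i ∈ R₁ then Y.1 i p else B.1 i p) B

theorem glue_val {R₁ R₂ : Finset ι} (hd : Disjoint R₁ R₂) {C : Finset κ} {X X' Y : Mat r c}
    (hXX' : AgreeOff R₂ C X X') (hXY : AgreeOff R₁ C X Y) (i : ι) (p : κ) :
    (glue R₁ X' Y).1 i p = if i ∈ R₁ then Y.1 i p else X'.1 i p := by
  unfold glue
  rw [ofRaw_val (isMat_glue hd hXX' hXY)]

theorem glue_class {R₁ R₂ : Finset ι} (hd : Disjoint R₁ R₂) {C : Finset κ} {X X' Y : Mat r c}
    (hXX' : AgreeOff R₂ C X X') (hXY : AgreeOff R₁ C X Y) :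
    AgreeOff R₁ C X' (glue R₁ X' Y) := by
  intro i p hip
  rw [glue_val hd hXX' hXY]
  by_cases hi : i ∈ R₁
  · rw [if_pos hi, ← hXY i p hip, hXX' i p (fun h => (Finset.disjoint_left.1 hd hi) h.1)]
  · rw [if_neg hi]

theorem glue_move {R₁ R₂ : Finset ι} (hd : Disjoint R₁ R₂) {C : Finset κ} {X X' Y : Mat r c}
    (hXX' : AgreeOff R₂ C X X') (hXY : AgreeOff R₁ C X Y) :
    AgreeOff R₂ C Y (glue R₁ X' Y) := by
  intro i p hip
  rw [glue_val hd hXX' hXY]
  by_cases hi : i ∈ R₁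
  · rw [if_pos hi]
  · rw [if_neg hi, ← hXY i p (fun h => hi h.1), hXX' i p hip]

theorem glue_glue {R₁ R₂ : Finset ι} (hd : Disjoint R₁ R₂) {C : Finset κ} {X X' Y : Mat r c}
    (hXX' : AgreeOff R₂ C X X') (hXY : AgreeOff R₁ C X Y) :
    glue R₁ X (glue R₁ X' Y) = Y := by
  have hsymm : AgreeOff R₂ C X' X := (agreeOff_equiv R₂ C).symm hXX'
  refine Mat.ext' (fun i p => ?_)
  rw [glue_val hd hsymm (glue_class hd hXX' hXY), glue_val hd hXX' hXY]
  by_cases hi : i ∈ R₁
  · rw [if_pos hi, if_pos hi]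
  · rw [if_neg hi, hXY i p (fun h => hi h.1)]

/-- Use `avg_comm_of_preserves` and `avg_eq_avg_of_bij`: if `g` is invariant under
`AgreeOff R₂ C` and `AgreeOff R₂ C X X'`, the map `Y ↦ (rows of R₁ from Y, all other rows from X')`
(built with `ofRaw`) is a bijection from the `AgreeOff R₁ C`-class of `X` onto that of `X'`, and it
moves `Y` inside its `AgreeOff R₂ C`-class.  Column sums: use `sum_col_eq_of_agreeOff`. -/
theorem E_comm_of_disjoint (R₁ R₂ : Finset ι) (hd : Disjoint R₁ R₂) (C : Finset κ)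
    (f : Mat r c → ℝ) : E R₁ C (E R₂ C f) = E R₂ C (E R₁ C f) := by
  unfold E
  refine avg_comm_of_preserves (agreeOff_equiv R₁ C) (agreeOff_equiv R₂ C) ?_ f
  intro g hg X X' hXX'
  have hsymm : AgreeOff R₂ C X' X := (agreeOff_equiv R₂ C).symm hXX'
  exact avg_eq_avg_of_bij (agreeOff_equiv R₁ C) g X X' (glue R₁ X') (glue R₁ X)
    (fun Y hY => glue_class hd hXX' hY)
    (fun Y hY => glue_class hd hsymm hY)
    (fun Y hY => glue_glue hd hXX' hY)
    (fun Y hY => glue_glue hd hsymm hY)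
    (fun Y hY => hg Y _ (glue_move hd hXX' hY))

end P335
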