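import Vale.Agent.Lib.P335.Mat

/-!
# P335: switch connectivity inside a block
-/

namespace P335

open Finset

set_option linter.unusedSectionVars false

variable {ι κ : Type*} [Fintype ι] [Fintype κ] [DecidableEq ι] [DecidableEq κ]
variable {r : ι → ℕ} {c : κ → ℕ}

/-- the set of cells where two raw matrices differ -/
def diffSet (X Y : ι → κ → Bool) : Finset (ι × κ) :=
  univ.filter (fun z => X z.1 z.2 ≠ Y z.1 z.2)

theorem mem_diffSet {X Y : ι → κ → Bool} {z : ι × κ} :
    z ∈ diffSet X Y ↔ X z.1 z.2 ≠ Y z.1 z.2 := by
  simp [diffSet]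

theorem diffSet_comm (X Y : ι → κ → Bool) : diffSet X Y = diffSet Y X := by
  ext z
  simp only [mem_diffSet, ne_comm]

theorem card_lt_of_subset_insert {α : Type*} [DecidableEq α] {D D' : Finset α} {a b z : α}
    (ha : a ∈ D) (hb : b ∈ D) (hab : a ≠ b) (h : D' ⊆ insert z ((D.erase a).erase b)) :
    D'.card < D.card := by
  have h1 := Finset.card_le_card h
  have h2 := Finset.card_insert_le z ((D.erase a).erase b)
  have h3 : ((D.erase a).erase b).card = (D.erase a).card - 1 :=
    Finset.card_erase_of_mem (Finset.mem_erase.2 ⟨hab.symm, hb⟩)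
  have h4 : (D.erase a).card = D.card - 1 := Finset.card_erase_of_mem ha
  have h5 : 2 ≤ D.card := by
    have h6 : ({a, b} : Finset α) ⊆ D := by
      intro x hx
      simp only [mem_insert, mem_singleton] at hx
      rcases hx with rfl | rfl <;> assumption
    have h7 := Finset.card_le_card h6
    rwa [Finset.card_pair hab] at h7
  omega

theorem exists_lt_of_sum_eq {α : Type*} [Fintype α] (a b : α → ℕ) (h : ∑ x, a x = ∑ x, b x)
    {x0 : α} (h0 : b x0 < a x0) : ∃ x, a x < b x := by
  by_contra hcon
  push Not at hcon
  have := Finset.sum_lt_sum (fun x _ => hcon x) ⟨x0, mem_univ _, h0⟩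
  omega

theorem diff_card_lt {X Y : ι → κ → Bool} {i j : ι} {p q : κ} (hsw : Switchable i j p q X)
    (h1 : Y i p = false) (h2 : Y i q = true) (h3 : ¬ (Y j p = false ∧ Y j q = true)) :
    (diffSet (swRaw i j p q X) Y).card < (diffSet X Y).card := by
  obtain ⟨hij, hpq, x1, x2, x3, x4⟩ := hsw
  have ha : (i, p) ∈ diffSet X Y := by
    rw [mem_diffSet]
    simp [x1, h1]
  have hb : (i, q) ∈ diffSet X Y := by
    rw [mem_diffSet]
    simp [x2, h2]
  have hab : (i, p) ≠ (i, q) := by
    simp [hpq]
  refine card_lt_of_subset_insert (z := if Y j p = false then (j, p) else (j, q)) ha hb hab ?_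
  rintro ⟨x, u⟩ hz
  rw [mem_diffSet] at hz
  simp only [mem_insert, mem_erase, mem_diffSet]
  unfold swRaw at hz
  simp only at hz
  by_cases hxu : (x = i ∨ x = j) ∧ (u = p ∨ u = q)
  · rw [if_pos hxu] at hz
    obtain ⟨hx, hu⟩ := hxu
    rcases hx with rfl | rfl <;> rcases hu with rfl | rfl
    · simp [x1, h1] at hz
    · simp [x2, h2] at hz
    · left
      rw [x3] at hz
      have : Y x u = false := by
        cases hh : Y x u
        · rfl
        · simp [hh] at hz
      rw [if_pos this]
    · left
      rw [x4] at hz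
      have h5 : Y x u = true := by
        cases hh : Y x u
        · simp [hh] at hz
        · rfl
      have h6 : ¬ (Y x p = false) := fun h => h3 ⟨h, h5⟩
      rw [if_neg h6]
  · rw [if_neg hxu] at hz
    right
    refine ⟨?_, ?_, hz⟩
    · intro h
      simp only [Prod.mk.injEq] at h
      exact hxu ⟨Or.inl h.1, Or.inr h.2⟩
    · intro h
      simp only [Prod.mk.injEq] at h
      exact hxu ⟨Or.inl h.1, Or.inl h.2⟩

/-- A function invariant under all switches inside the block `R × C` is constant on every class
of matrices agreeing off `R × C`.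

Proof: strong induction on the Hamming distance of `X` and `Y` (agreeing off `R × C`).  If
`X ≠ Y`, equal row sums give a row `i` and columns `p q` with `X i p = 1, Y i p = 0, X i q = 0,
Y i q = 1` (so `i ∈ R`, `p q ∈ C`).  With `φ_Z(j) = Z j p - Z j q` the column sums give
`Σ_j φ_X(j) = Σ_j φ_Y(j)` while `φ_X(i) = 1 > -1 = φ_Y(i)`, so some `j ≠ i` has
`φ_X(j) < φ_Y(j)` (hence `j ∈ R`).  If `φ_X(j) = -1`, switch `X` on `(i j; p q)`; otherwise
`φ_Y(j) = 1` and switch `Y` on `(j i; p q)`.  Either way the distance drops by at least 2. -/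
theorem inv_of_inv_sw (R : Finset ι) (C : Finset κ) (k : Mat r c → ℝ)
    (hk : ∀ X Y, IsSw R C X Y → k X = k Y) : Inv (AgreeOff R C) k := by
  have main : ∀ n : ℕ, ∀ X Y : Mat r c, AgreeOff R C X Y → (diffSet X.1 Y.1).card = n →
      k X = k Y := by
    intro n
    induction n using Nat.strong_induction_on with
    | _ n ih =>
      intro X Y hXY hn
      by_cases hne : X = Y
      · rw [hne]
      -- a cell of disagreement
      have h0 : ∃ i p, X.1 i p ≠ Y.1 i p := by
        by_contra hcon
        push Not at hcon
        exact hne (Mat.ext' hcon)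
      -- a row with both kinds of disagreement
      have h1 : ∃ i p q, X.1 i p = true ∧ Y.1 i p = false ∧ X.1 i q = false ∧ Y.1 i q = true := by
        obtain ⟨i, p0, hp0⟩ := h0
        have hrow : ∑ u, (X.1 i u).toNat = ∑ u, (Y.1 i u).toNat := by
          rw [X.2.1 i, Y.2.1 i]
        cases hx : X.1 i p0 <;> cases hy : Y.1 i p0
        · simp [hx, hy] at hp0
        · obtain ⟨p, hp⟩ := exists_lt_of_sum_eq _ _ hrow.symm (x0 := p0) (by simp [hx, hy])
          refine ⟨i, p, p0, ?_, ?_, hx, hy⟩
          · cases hh : X.1 i p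
            · simp [hh] at hp
            · rfl
          · cases hh : Y.1 i p
            · rfl
            · cases hh' : X.1 i p <;> simp [hh, hh'] at hp
        · obtain ⟨q, hq⟩ := exists_lt_of_sum_eq _ _ hrow (x0 := p0) (by simp [hx, hy])
          refine ⟨i, p0, q, hx, hy, ?_, ?_⟩
          · cases hh : X.1 i q
            · rfl
            · cases hh' : Y.1 i q <;> simp [hh, hh'] at hq
          · cases hh : Y.1 i q
            · simp [hh] at hq
            · rfl
        · simp [hx, hy] at hp0
      obtain ⟨i, p, q, xip, yip, xiq, yiq⟩ := h1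
      have hpq : p ≠ q := by
        rintro rfl
        rw [xip] at xiq
        exact Bool.noConfusion xiq
      have hiR : i ∈ R := by
        by_contra h
        have := hXY i p (fun h' => h h'.1)
        rw [xip, yip] at this
        exact Bool.noConfusion this
      have hpC : p ∈ C := by
        by_contra h
        have := hXY i p (fun h' => h h'.2)
        rw [xip, yip] at this
        exact Bool.noConfusion this
      have hqC : q ∈ C := by
        by_contra h
        have := hXY i q (fun h' => h h'.2)
        rw [xiq, yiq] at this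
        exact Bool.noConfusion this
      -- the second row
      have hcol : ∑ x, ((X.1 x p).toNat + (Y.1 x q).toNat)
          = ∑ x, ((Y.1 x p).toNat + (X.1 x q).toNat) := by
        rw [Finset.sum_add_distrib, Finset.sum_add_distrib, X.2.2 p, Y.2.2 q, Y.2.2 p, X.2.2 q]
      obtain ⟨j, hj⟩ := exists_lt_of_sum_eq _ _ hcol (x0 := i) (by simp [xip, yip, xiq, yiq])
      have hij : i ≠ j := by
        rintro rfl
        simp [xip, yip, xiq, yiq] at hj
      have hjR : j ∈ R := by
        by_contra h
        have e1 := hXY j p (fun h' => h h'.1)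
        have e2 := hXY j q (fun h' => h h'.1)
        rw [e1, e2] at hj
        omega
      by_cases hA : X.1 j p = false ∧ X.1 j q = true
      · -- switch `X`
        have hsw : Switchable i j p q X.1 := ⟨hij, hpq, xip, xiq, hA.1, hA.2⟩
        have hS : IsSw R C X (sw i j p q X) :=
          ⟨i, hiR, j, hjR, p, hpC, q, hqC, hsw, sw_val hsw⟩
        have hlt : (diffSet (sw i j p q X).1 Y.1).card < n := by
          rw [sw_val hsw, ← hn]
          refine diff_card_lt hsw yip yiq ?_
          rintro ⟨e1, e2⟩
          simp [hA.1, hA.2, e1, e2] at hj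
        rw [hk _ _ hS]
        exact ih _ hlt _ _ ((agreeOff_equiv R C).trans ((agreeOff_equiv R C).symm hS.agreeOff) hXY)
          rfl
      · -- switch `Y`
        have hB : Y.1 j p = true ∧ Y.1 j q = false := by
          cases e1 : X.1 j p <;> cases e2 : X.1 j q <;> cases e3 : Y.1 j p <;>
            cases e4 : Y.1 j q <;> simp [e1, e2, e3, e4] at hj hA ⊢
        have hsw : Switchable i j q p Y.1 := ⟨hij, hpq.symm, yiq, yip, hB.2, hB.1⟩
        have hS : IsSw R C Y (sw i j q p Y) :=
          ⟨i, hiR, j, hjR, q, hqC, p, hpC, hsw, sw_val hsw⟩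
        have hlt : (diffSet X.1 (sw i j q p Y).1).card < n := by
          rw [sw_val hsw, ← hn, diffSet_comm, diffSet_comm X.1]
          refine diff_card_lt hsw xiq xip ?_
          rintro ⟨e1, e2⟩
          simp [hB.1, hB.2, e1, e2] at hj
        rw [hk _ _ hS]
        exact ih _ hlt _ _ ((agreeOff_equiv R C).trans hXY hS.agreeOff) rfl
  intro X Y hXY
  exact main _ X Y hXY rfl

end P335
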