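import Vale.Agent.Lib.P335.Avg

/-!
# P335: the abstract cross-term inequality (I)

`r`, `r'` are two equivalence relations on a finite set (the fibres of two disjoint vertex pairs),
`sw` a subset (the configurations in which the 4-cycle between the pairs is alternating) and `S` an
involution (the switch).  `refine r sw` is `r` cut by `sw`.  If the refined averagings commute with
each other and with the other unrefined averaging, then
`<Q f, Q' f> ≥ |q f|^2 - K f / 2 - K' f / 2`.
-/

namespace P335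

open Finset

variable {Ω : Type*} [Fintype Ω]

/-- the relation `r` cut by the set `sw` -/
def cut (r : Ω → Ω → Prop) (sw : Ω → Prop) : Ω → Ω → Prop := fun x y => r x y ∧ (sw x ↔ sw y)

omit [Fintype Ω] in
theorem cut_equiv {r : Ω → Ω → Prop} (hr : Equivalence r) (sw : Ω → Prop) :
    Equivalence (cut r sw) where
  refl := fun x => ⟨hr.refl x, Iff.rfl⟩
  symm := fun h => ⟨hr.symm h.1, h.2.symm⟩
  trans := fun h1 h2 => ⟨hr.trans h1.1 h2.1, h1.2.trans h2.2⟩

/-- symmetric operators -/
def SymOp (A : Module.End ℝ (Ω → ℝ)) : Prop := ∀ f g, dot (A f) g = dot f (A g)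

theorem SymOp.sub {A B : Module.End ℝ (Ω → ℝ)} (hA : SymOp A) (hB : SymOp B) : SymOp (A - B) := by
  intro f g
  rw [LinearMap.sub_apply, LinearMap.sub_apply, dot_sub_left, dot_sub_right, hA, hB]

theorem symOp_one : SymOp (1 : Module.End ℝ (Ω → ℝ)) := fun _ _ => rfl

theorem symOp_avgL {r : Ω → Ω → Prop} (hr : Equivalence r) : SymOp (avgL r) :=
  fun f g => avg_symm hr f g

/-- commuting symmetric idempotents have a nonnegative cross term -/
theorem dot_comm_proj {A B : Module.End ℝ (Ω → ℝ)} (sA : SymOp A) (sB : SymOp B)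
    (iA : A * A = A) (iB : B * B = B) (c : A * B = B * A) (f : Ω → ℝ) :
    dot (A f) (B f) = dot ((A * B) f) ((A * B) f) := by
  have e1 : dot ((A * B) f) ((A * B) f) = dot (B f) ((A * A * B) f) := by
    rw [mul_assoc]
    exact sA (B f) ((A * B) f)
  have e2 : dot (B f) ((B * A) f) = dot ((B * B) f) (A f) := (sB (B f) (A f)).symm
  rw [e1, iA, c, e2, iB, dot_comm]

theorem dot_comm_proj_nonneg {A B : Module.End ℝ (Ω → ℝ)} (sA : SymOp A) (sB : SymOp B)
    (iA : A * A = A) (iB : B * B = B) (c : A * B = B * A) (f : Ω → ℝ) :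
    0 ≤ dot (A f) (B f) := by
  rw [dot_comm_proj sA sB iA iB c]
  exact dot_self_nonneg _

/-- **The abstract cross-term inequality (I).** -/
theorem cross_abs {r r' : Ω → Ω → Prop} (hr : Equivalence r) (hr' : Equivalence r')
    (sw : Ω → Prop) [DecidablePred sw] (S : Ω → Ω) (hSS : ∀ x, S (S x) = x)
    (hSr : ∀ x, r x (S x)) (hSr' : ∀ x, r' x (S x)) (hSsw : ∀ x, sw (S x) ↔ sw x)
    (C1 : ∀ f, avg (cut r sw) (avg (cut r' sw) f) = avg (cut r' sw) (avg (cut r sw) f))
    (C2 : ∀ f, avg (cut r sw) (avg r' f) = avg r' (avg (cut r sw) f))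
    (C3 : ∀ f, avg r (avg (cut r' sw) f) = avg (cut r' sw) (avg r f))
    (hN : ∀ x, ¬ sw x → (∀ y, r x y → ¬ sw y) ∨ (∀ y, r' x y → ¬ sw y))
    (f : Ω → ℝ) :
    ∑ x, ((f x - f (S x)) / 2) ^ 2
      - (1 / 2) * ∑ x, (if sw x then (avg (cut r sw) f x - avg r f x) ^ 2 else 0)
      - (1 / 2) * ∑ x, (if sw x then (avg (cut r' sw) f x - avg r' f x) ^ 2 else 0)
      ≤ dot (f - avg r f) (f - avg r' f) := by
  have ht := cut_equiv hr sw
  have ht' := cut_equiv hr' sw
  -- the operators
  obtain ⟨P, hP⟩ : ∃ P : Module.End ℝ (Ω → ℝ), P = avgL r := ⟨_, rfl⟩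
  obtain ⟨P', hP'⟩ : ∃ P : Module.End ℝ (Ω → ℝ), P = avgL r' := ⟨_, rfl⟩
  obtain ⟨T, hT⟩ : ∃ P : Module.End ℝ (Ω → ℝ), P = avgL (cut r sw) := ⟨_, rfl⟩
  obtain ⟨T', hT'⟩ : ∃ P : Module.End ℝ (Ω → ℝ), P = avgL (cut r' sw) := ⟨_, rfl⟩
  have aP : ∀ g, P g = avg r g := fun g => by rw [hP]; rfl
  have aP' : ∀ g, P' g = avg r' g := fun g => by rw [hP']; rfl
  have aT : ∀ g, T g = avg (cut r sw) g := fun g => by rw [hT]; rfl
  have aT' : ∀ g, T' g = avg (cut r' sw) g := fun g => by rw [hT']; rfl
  have sP : SymOp P := hP ▸ symOp_avgL hr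
  have sP' : SymOp P' := hP' ▸ symOp_avgL hr'
  have sT : SymOp T := hT ▸ symOp_avgL ht
  have sT' : SymOp T' := hT' ▸ symOp_avgL ht'
  have PP : P * P = P := LinearMap.ext fun g => by
    rw [Module.End.mul_apply, aP, aP, avg_idem hr]
  have PP' : P' * P' = P' := LinearMap.ext fun g => by
    rw [Module.End.mul_apply, aP', aP', avg_idem hr']
  have TT : T * T = T := LinearMap.ext fun g => by
    rw [Module.End.mul_apply, aT, aT, avg_idem ht]
  have TT' : T' * T' = T' := LinearMap.ext fun g => by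
    rw [Module.End.mul_apply, aT', aT', avg_idem ht']
  have TP : T * P = P := LinearMap.ext fun g => by
    rw [Module.End.mul_apply, aT, aP, avg_avg_of_ge ht hr (fun _ _ h => h.1)]
  have PT : P * T = P := LinearMap.ext fun g => by
    rw [Module.End.mul_apply, aT, aP, aP, avg_avg_of_le ht hr (fun _ _ h => h.1)]
  have TP' : T' * P' = P' := LinearMap.ext fun g => by
    rw [Module.End.mul_apply, aT', aP', avg_avg_of_ge ht' hr' (fun _ _ h => h.1)]
  have PT' : P' * T' = P' := LinearMap.ext fun g => by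
    rw [Module.End.mul_apply, aT', aP', aP', avg_avg_of_le ht' hr' (fun _ _ h => h.1)]
  have c1 : T * T' = T' * T := LinearMap.ext fun g => by
    rw [Module.End.mul_apply, Module.End.mul_apply, aT', aT, aT, aT', C1]
  have c2 : T * P' = P' * T := LinearMap.ext fun g => by
    rw [Module.End.mul_apply, Module.End.mul_apply, aP', aT, aT, aP', C2]
  have c3 : P * T' = T' * P := LinearMap.ext fun g => by
    rw [Module.End.mul_apply, Module.End.mul_apply, aT', aP, aP, aT', C3]
  -- the four projections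
  have iA : (1 - T) * (1 - T) = 1 - T := by
    simp only [sub_mul, mul_sub, one_mul, mul_one, TT]; abel
  have iA' : (1 - T') * (1 - T') = 1 - T' := by
    simp only [sub_mul, mul_sub, one_mul, mul_one, TT']; abel
  have iR : (T - P) * (T - P) = T - P := by
    rw [sub_mul, mul_sub, mul_sub, TT, TP, PT, PP]; abel
  have iR' : (T' - P') * (T' - P') = T' - P' := by
    rw [sub_mul, mul_sub, mul_sub, TT', TP', PT', PP']; abel
  have cAA : (1 - T) * (1 - T') = (1 - T') * (1 - T) := by
    simp only [sub_mul, mul_sub, one_mul, mul_one, c1]; abel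
  have cAR : (1 - T) * (T' - P') = (T' - P') * (1 - T) := by
    simp only [sub_mul, mul_sub, one_mul, mul_one, c1, c2]; abel
  have cRA : (T - P) * (1 - T') = (1 - T') * (T - P) := by
    simp only [sub_mul, mul_sub, one_mul, mul_one, c1, c3]; abel
  have sA : SymOp (1 - T) := symOp_one.sub sT
  have sA' : SymOp (1 - T') := symOp_one.sub sT'
  have sR : SymOp (T - P) := sT.sub sP
  have sR' : SymOp (T' - P') := sT'.sub sP'
  -- decomposition
  have d1 : f - avg r f = (1 - T) f + (T - P) f := by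
    rw [LinearMap.sub_apply, LinearMap.sub_apply, aP, Module.End.one_apply]; abel
  have d2 : f - avg r' f = (1 - T') f + (T' - P') f := by
    rw [LinearMap.sub_apply, LinearMap.sub_apply, aP', Module.End.one_apply]; abel
  rw [d1, d2, dot_add_left, dot_add_right, dot_add_right]
  have n2 := dot_comm_proj_nonneg sA sR' iA iR' cAR f
  have n3 := dot_comm_proj_nonneg sR sA' iR iA' cRA f
  -- first term
  have n1 : ∑ x, ((f x - f (S x)) / 2) ^ 2 ≤ dot ((1 - T) f) ((1 - T') f) := by
    rw [dot_comm_proj sA sA' iA iA' cAA]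
    obtain ⟨u, hu⟩ : ∃ u, u = ((1 - T) * (1 - T')) f := ⟨_, rfl⟩
    rw [← hu]
    have hux : ∀ x, u x - u (S x) = f x - f (S x) := by
      intro x
      have e : u = f - avg (cut r' sw) f - avg (cut r sw) (f - avg (cut r' sw) f) := by
        rw [hu, Module.End.mul_apply, LinearMap.sub_apply, LinearMap.sub_apply,
          Module.End.one_apply, Module.End.one_apply, aT', aT]
      have i1 : avg (cut r' sw) f x = avg (cut r' sw) f (S x) :=
        avg_inv ht' f x (S x) ⟨hSr' x, (hSsw x).symm⟩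
      have i2 : avg (cut r sw) (f - avg (cut r' sw) f) x
          = avg (cut r sw) (f - avg (cut r' sw) f) (S x) :=
        avg_inv ht _ x (S x) ⟨hSr x, (hSsw x).symm⟩
      rw [e]
      simp only [Pi.sub_apply]
      rw [i1, i2]
      ring
    have hsum : ∑ x, u (S x) ^ 2 = ∑ x, u x ^ 2 :=
      Equiv.sum_comp (Function.Involutive.toPerm S hSS) (fun x => u x ^ 2)
    have h1 : ∀ x, ((f x - f (S x)) / 2) ^ 2 ≤ (u x ^ 2 + u (S x) ^ 2) / 2 := by
      intro x
      rw [← hux x]
      nlinarith [sq_nonneg (u x + u (S x))]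
    calc ∑ x, ((f x - f (S x)) / 2) ^ 2 ≤ ∑ x, (u x ^ 2 + u (S x) ^ 2) / 2 :=
          Finset.sum_le_sum fun x _ => h1 x
      _ = dot u u := by
          rw [← Finset.sum_div, Finset.sum_add_distrib, hsum]
          unfold dot
          rw [← two_mul, mul_div_cancel_left₀ _ (two_ne_zero)]
          exact Finset.sum_congr rfl fun x _ => sq (u x)
  -- last term
  have n4 : - (1 / 2) * ∑ x, (if sw x then (avg (cut r sw) f x - avg r f x) ^ 2 else 0)
      - (1 / 2) * ∑ x, (if sw x then (avg (cut r' sw) f x - avg r' f x) ^ 2 else 0)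
      ≤ dot ((T - P) f) ((T' - P') f) := by
    unfold dot
    rw [Finset.mul_sum, Finset.mul_sum, ← Finset.sum_sub_distrib]
    refine Finset.sum_le_sum fun x _ => ?_
    rw [LinearMap.sub_apply, LinearMap.sub_apply, aT, aP, aT', aP']
    simp only [Pi.sub_apply]
    by_cases hx : sw x
    · rw [if_pos hx, if_pos hx]
      nlinarith [sq_nonneg ((avg (cut r sw) f x - avg r f x)
        + (avg (cut r' sw) f x - avg r' f x))]
    · rw [if_neg hx, if_neg hx]
      have key : ∀ (ρ : Ω → Ω → Prop), (∀ y, ρ x y → ¬ sw y) → avg (cut ρ sw) f x = avg ρ f x := by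
        intro ρ h
        have hc : cls (cut ρ sw) x = cls ρ x := by
          ext y
          rw [mem_cls, mem_cls]
          exact ⟨fun h' => h'.1, fun h' => ⟨h', iff_of_false hx (h y h')⟩⟩
        unfold avg
        rw [hc]
      rcases hN x hx with h | h
      · rw [key r h]; simp
      · rw [key r' h]; simp
  linarith

/-- **The abstract cross-term inequality (I), relational form**: the switch is replaced by an
equivalence relation `ρ` finer than both cut relations. -/
theorem cross_abs_rel {r r' ρ : Ω → Ω → Prop} (hr : Equivalence r) (hr' : Equivalence r')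
    (hρ : Equivalence ρ) (sw : Ω → Prop) [DecidablePred sw]
    (hρr : ∀ x y, ρ x y → cut r sw x y) (hρr' : ∀ x y, ρ x y → cut r' sw x y)
    (C1 : ∀ f, avg (cut r sw) (avg (cut r' sw) f) = avg (cut r' sw) (avg (cut r sw) f))
    (C2 : ∀ f, avg (cut r sw) (avg r' f) = avg r' (avg (cut r sw) f))
    (C3 : ∀ f, avg r (avg (cut r' sw) f) = avg (cut r' sw) (avg r f))
    (hN : ∀ x, ¬ sw x → (∀ y, r x y → ¬ sw y) ∨ (∀ y, r' x y → ¬ sw y))
    (f : Ω → ℝ) :
    dot f (f - avg ρ f)
      - (1 / 2) * ∑ x, (if sw x then (avg (cut r sw) f x - avg r f x) ^ 2 else 0)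
      - (1 / 2) * ∑ x, (if sw x then (avg (cut r' sw) f x - avg r' f x) ^ 2 else 0)
      ≤ dot (f - avg r f) (f - avg r' f) := by
  have ht := cut_equiv hr sw
  have ht' := cut_equiv hr' sw
  -- the operators
  obtain ⟨P, hP⟩ : ∃ P : Module.End ℝ (Ω → ℝ), P = avgL r := ⟨_, rfl⟩
  obtain ⟨P', hP'⟩ : ∃ P : Module.End ℝ (Ω → ℝ), P = avgL r' := ⟨_, rfl⟩
  obtain ⟨T, hT⟩ : ∃ P : Module.End ℝ (Ω → ℝ), P = avgL (cut r sw) := ⟨_, rfl⟩
  obtain ⟨T', hT'⟩ : ∃ P : Module.End ℝ (Ω → ℝ), P = avgL (cut r' sw) := ⟨_, rfl⟩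
  have aP : ∀ g, P g = avg r g := fun g => by rw [hP]; rfl
  have aP' : ∀ g, P' g = avg r' g := fun g => by rw [hP']; rfl
  have aT : ∀ g, T g = avg (cut r sw) g := fun g => by rw [hT]; rfl
  have aT' : ∀ g, T' g = avg (cut r' sw) g := fun g => by rw [hT']; rfl
  have sP : SymOp P := hP ▸ symOp_avgL hr
  have sP' : SymOp P' := hP' ▸ symOp_avgL hr'
  have sT : SymOp T := hT ▸ symOp_avgL ht
  have sT' : SymOp T' := hT' ▸ symOp_avgL ht'
  have PP : P * P = P := LinearMap.ext fun g => by
    rw [Module.End.mul_apply, aP, aP, avg_idem hr]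
  have PP' : P' * P' = P' := LinearMap.ext fun g => by
    rw [Module.End.mul_apply, aP', aP', avg_idem hr']
  have TT : T * T = T := LinearMap.ext fun g => by
    rw [Module.End.mul_apply, aT, aT, avg_idem ht]
  have TT' : T' * T' = T' := LinearMap.ext fun g => by
    rw [Module.End.mul_apply, aT', aT', avg_idem ht']
  have TP : T * P = P := LinearMap.ext fun g => by
    rw [Module.End.mul_apply, aT, aP, avg_avg_of_ge ht hr (fun _ _ h => h.1)]
  have PT : P * T = P := LinearMap.ext fun g => by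
    rw [Module.End.mul_apply, aT, aP, aP, avg_avg_of_le ht hr (fun _ _ h => h.1)]
  have TP' : T' * P' = P' := LinearMap.ext fun g => by
    rw [Module.End.mul_apply, aT', aP', avg_avg_of_ge ht' hr' (fun _ _ h => h.1)]
  have PT' : P' * T' = P' := LinearMap.ext fun g => by
    rw [Module.End.mul_apply, aT', aP', aP', avg_avg_of_le ht' hr' (fun _ _ h => h.1)]
  have c1 : T * T' = T' * T := LinearMap.ext fun g => by
    rw [Module.End.mul_apply, Module.End.mul_apply, aT', aT, aT, aT', C1]
  have c2 : T * P' = P' * T := LinearMap.ext fun g => by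
    rw [Module.End.mul_apply, Module.End.mul_apply, aP', aT, aT, aP', C2]
  have c3 : P * T' = T' * P := LinearMap.ext fun g => by
    rw [Module.End.mul_apply, Module.End.mul_apply, aT', aP, aP, aT', C3]
  -- the four projections
  have iA : (1 - T) * (1 - T) = 1 - T := by
    simp only [sub_mul, mul_sub, one_mul, mul_one, TT]; abel
  have iA' : (1 - T') * (1 - T') = 1 - T' := by
    simp only [sub_mul, mul_sub, one_mul, mul_one, TT']; abel
  have iR : (T - P) * (T - P) = T - P := by
    rw [sub_mul, mul_sub, mul_sub, TT, TP, PT, PP]; abel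
  have iR' : (T' - P') * (T' - P') = T' - P' := by
    rw [sub_mul, mul_sub, mul_sub, TT', TP', PT', PP']; abel
  have cAA : (1 - T) * (1 - T') = (1 - T') * (1 - T) := by
    simp only [sub_mul, mul_sub, one_mul, mul_one, c1]; abel
  have cAR : (1 - T) * (T' - P') = (T' - P') * (1 - T) := by
    simp only [sub_mul, mul_sub, one_mul, mul_one, c1, c2]; abel
  have cRA : (T - P) * (1 - T') = (1 - T') * (T - P) := by
    simp only [sub_mul, mul_sub, one_mul, mul_one, c1, c3]; abel
  have sA : SymOp (1 - T) := symOp_one.sub sT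
  have sA' : SymOp (1 - T') := symOp_one.sub sT'
  have sR : SymOp (T - P) := sT.sub sP
  have sR' : SymOp (T' - P') := sT'.sub sP'
  -- decomposition
  have d1 : f - avg r f = (1 - T) f + (T - P) f := by
    rw [LinearMap.sub_apply, LinearMap.sub_apply, aP, Module.End.one_apply]; abel
  have d2 : f - avg r' f = (1 - T') f + (T' - P') f := by
    rw [LinearMap.sub_apply, LinearMap.sub_apply, aP', Module.End.one_apply]; abel
  rw [d1, d2, dot_add_left, dot_add_right, dot_add_right]
  have n2 := dot_comm_proj_nonneg sA sR' iA iR' cAR f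
  have n3 := dot_comm_proj_nonneg sR sA' iR iA' cRA f
  -- first term
  have n1 : dot f (f - avg ρ f) ≤ dot ((1 - T) f) ((1 - T') f) := by
    rw [dot_comm_proj sA sA' iA iA' cAA]
    obtain ⟨u, hu⟩ : ∃ u, u = ((1 - T) * (1 - T')) f := ⟨_, rfl⟩
    rw [← hu]
    have e : u = f - avg (cut r' sw) f - avg (cut r sw) (f - avg (cut r' sw) f) := by
      rw [hu, Module.End.mul_apply, LinearMap.sub_apply, LinearMap.sub_apply,
        Module.End.one_apply, Module.End.one_apply, aT', aT]
    -- `(1 - avg ρ) u = (1 - avg ρ) f`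
    have hq : u - avg ρ u = f - avg ρ f := by
      obtain ⟨a, ha⟩ : ∃ a, a = avg (cut r' sw) f := ⟨_, rfl⟩
      obtain ⟨b, hb⟩ : ∃ b, b = avg (cut r sw) (f - avg (cut r' sw) f) := ⟨_, rfl⟩
      have ea : avg ρ a = a := by rw [ha, avg_avg_of_ge hρ ht' hρr']
      have eb : avg ρ b = b := by rw [hb, avg_avg_of_ge hρ ht hρr]
      rw [e, ← hb, ← ha, avg_sub, avg_sub, ea, eb]
      abel
    -- `|u|^2 = |u - avg ρ u|^2 + |avg ρ u|^2`
    have h1 : dot u u = dot (u - avg ρ u) (u - avg ρ u) + dot (avg ρ u) (avg ρ u) := by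
      rw [dot_Q_Q hρ, dot_avg_avg hρ, dot_sub_right]
      ring
    rw [h1, hq, dot_Q_Q hρ]
    linarith [dot_self_nonneg (avg ρ u)]
  -- last term
  have n4 : - (1 / 2) * ∑ x, (if sw x then (avg (cut r sw) f x - avg r f x) ^ 2 else 0)
      - (1 / 2) * ∑ x, (if sw x then (avg (cut r' sw) f x - avg r' f x) ^ 2 else 0)
      ≤ dot ((T - P) f) ((T' - P') f) := by
    unfold dot
    rw [Finset.mul_sum, Finset.mul_sum, ← Finset.sum_sub_distrib]
    refine Finset.sum_le_sum fun x _ => ?_
    rw [LinearMap.sub_apply, LinearMap.sub_apply, aT, aP, aT', aP']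
    simp only [Pi.sub_apply]
    by_cases hx : sw x
    · rw [if_pos hx, if_pos hx]
      nlinarith [sq_nonneg ((avg (cut r sw) f x - avg r f x)
        + (avg (cut r' sw) f x - avg r' f x))]
    · rw [if_neg hx, if_neg hx]
      have key : ∀ (ρ : Ω → Ω → Prop), (∀ y, ρ x y → ¬ sw y) → avg (cut ρ sw) f x = avg ρ f x := by
        intro ρ h
        have hc : cls (cut ρ sw) x = cls ρ x := by
          ext y
          rw [mem_cls, mem_cls]
          exact ⟨fun h' => h'.1, fun h' => ⟨h', iff_of_false hx (h y h')⟩⟩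
        unfold avg
        rw [hc]
      rcases hN x hx with h | h
      · rw [key r h]; simp
      · rw [key r' h]; simp
  linarith

/-- the same inequality for arbitrary intermediate relations `s`, `s'` (statement of
`Gen/Sharp2.lean`) -/
theorem sharp_ineq_aux {r r' s s' x : Ω → Ω → Prop}
    (hr : Equivalence r) (hr' : Equivalence r') (hs : Equivalence s) (hs' : Equivalence s')
    (hx : Equivalence x)
    (hsr : ∀ a b, s a b → r a b) (hsr' : ∀ a b, s' a b → r' a b)
    (hxs : ∀ a b, x a b → s a b) (hxs' : ∀ a b, x a b → s' a b)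
    (c1 : ∀ f : Ω → ℝ, avg s (avg s' f) = avg s' (avg s f))
    (c2 : ∀ f : Ω → ℝ, avg s (avg r' f) = avg r' (avg s f))
    (c3 : ∀ f : Ω → ℝ, avg r (avg s' f) = avg s' (avg r f))
    (σ : Ω → Prop) [DecidablePred σ]
    (c5 : ∀ (f : Ω → ℝ) (a : Ω), ¬ σ a → (avg s f a - avg r f a) * (avg s' f a - avg r' f a) = 0)
    (f : Ω → ℝ) :
    dot f (f - avg x f) - (1 / 2) * ∑ a, (if σ a then (avg s f a - avg r f a) ^ 2 else 0)
        - (1 / 2) * ∑ a, (if σ a then (avg s' f a - avg r' f a) ^ 2 else 0)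
      ≤ dot (f - avg r f) (f - avg r' f) := by
  -- the operators
  obtain ⟨P, hP⟩ : ∃ P : Module.End ℝ (Ω → ℝ), P = avgL r := ⟨_, rfl⟩
  obtain ⟨P', hP'⟩ : ∃ P : Module.End ℝ (Ω → ℝ), P = avgL r' := ⟨_, rfl⟩
  obtain ⟨T, hT⟩ : ∃ P : Module.End ℝ (Ω → ℝ), P = avgL s := ⟨_, rfl⟩
  obtain ⟨T', hT'⟩ : ∃ P : Module.End ℝ (Ω → ℝ), P = avgL s' := ⟨_, rfl⟩
  have aP : ∀ g, P g = avg r g := fun g => by rw [hP]; rfl
  have aP' : ∀ g, P' g = avg r' g := fun g => by rw [hP']; rfl
  have aT : ∀ g, T g = avg s g := fun g => by rw [hT]; rfl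
  have aT' : ∀ g, T' g = avg s' g := fun g => by rw [hT']; rfl
  have sP : SymOp P := hP ▸ symOp_avgL hr
  have sP' : SymOp P' := hP' ▸ symOp_avgL hr'
  have sT : SymOp T := hT ▸ symOp_avgL hs
  have sT' : SymOp T' := hT' ▸ symOp_avgL hs'
  have PP : P * P = P := LinearMap.ext fun g => by
    rw [Module.End.mul_apply, aP, aP, avg_idem hr]
  have PP' : P' * P' = P' := LinearMap.ext fun g => by
    rw [Module.End.mul_apply, aP', aP', avg_idem hr']
  have TT : T * T = T := LinearMap.ext fun g => by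
    rw [Module.End.mul_apply, aT, aT, avg_idem hs]
  have TT' : T' * T' = T' := LinearMap.ext fun g => by
    rw [Module.End.mul_apply, aT', aT', avg_idem hs']
  have TP : T * P = P := LinearMap.ext fun g => by
    rw [Module.End.mul_apply, aT, aP, avg_avg_of_ge hs hr hsr]
  have PT : P * T = P := LinearMap.ext fun g => by
    rw [Module.End.mul_apply, aT, aP, aP, avg_avg_of_le hs hr hsr]
  have TP' : T' * P' = P' := LinearMap.ext fun g => by
    rw [Module.End.mul_apply, aT', aP', avg_avg_of_ge hs' hr' hsr']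
  have PT' : P' * T' = P' := LinearMap.ext fun g => by
    rw [Module.End.mul_apply, aT', aP', aP', avg_avg_of_le hs' hr' hsr']
  have k1 : T * T' = T' * T := LinearMap.ext fun g => by
    rw [Module.End.mul_apply, Module.End.mul_apply, aT', aT, aT, aT', c1]
  have k2 : T * P' = P' * T := LinearMap.ext fun g => by
    rw [Module.End.mul_apply, Module.End.mul_apply, aP', aT, aT, aP', c2]
  have k3 : P * T' = T' * P := LinearMap.ext fun g => by
    rw [Module.End.mul_apply, Module.End.mul_apply, aT', aP, aP, aT', c3]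
  -- the four projections
  have iA : (1 - T) * (1 - T) = 1 - T := by
    simp only [sub_mul, mul_sub, one_mul, mul_one, TT]; abel
  have iA' : (1 - T') * (1 - T') = 1 - T' := by
    simp only [sub_mul, mul_sub, one_mul, mul_one, TT']; abel
  have iR : (T - P) * (T - P) = T - P := by
    rw [sub_mul, mul_sub, mul_sub, TT, TP, PT, PP]; abel
  have iR' : (T' - P') * (T' - P') = T' - P' := by
    rw [sub_mul, mul_sub, mul_sub, TT', TP', PT', PP']; abel
  have cAA : (1 - T) * (1 - T') = (1 - T') * (1 - T) := by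
    simp only [sub_mul, mul_sub, one_mul, mul_one, k1]; abel
  have cAR : (1 - T) * (T' - P') = (T' - P') * (1 - T) := by
    simp only [sub_mul, mul_sub, one_mul, mul_one, k1, k2]; abel
  have cRA : (T - P) * (1 - T') = (1 - T') * (T - P) := by
    simp only [sub_mul, mul_sub, one_mul, mul_one, k1, k3]; abel
  have sA : SymOp (1 - T) := symOp_one.sub sT
  have sA' : SymOp (1 - T') := symOp_one.sub sT'
  have sR : SymOp (T - P) := sT.sub sP
  have sR' : SymOp (T' - P') := sT'.sub sP'
  -- decomposition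
  have d1 : f - avg r f = (1 - T) f + (T - P) f := by
    rw [LinearMap.sub_apply, LinearMap.sub_apply, aP, Module.End.one_apply]; abel
  have d2 : f - avg r' f = (1 - T') f + (T' - P') f := by
    rw [LinearMap.sub_apply, LinearMap.sub_apply, aP', Module.End.one_apply]; abel
  rw [d1, d2, dot_add_left, dot_add_right, dot_add_right]
  have n2 := dot_comm_proj_nonneg sA sR' iA iR' cAR f
  have n3 := dot_comm_proj_nonneg sR sA' iR iA' cRA f
  -- first term
  have n1 : dot f (f - avg x f) ≤ dot ((1 - T) f) ((1 - T') f) := by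
    rw [dot_comm_proj sA sA' iA iA' cAA]
    obtain ⟨u, hu⟩ : ∃ u, u = ((1 - T) * (1 - T')) f := ⟨_, rfl⟩
    rw [← hu]
    have e : u = f - avg s' f - avg s (f - avg s' f) := by
      rw [hu, Module.End.mul_apply, LinearMap.sub_apply, LinearMap.sub_apply,
        Module.End.one_apply, Module.End.one_apply, aT', aT]
    have hq : u - avg x u = f - avg x f := by
      obtain ⟨a, ha⟩ : ∃ a, a = avg s' f := ⟨_, rfl⟩
      obtain ⟨b, hb⟩ : ∃ b, b = avg s (f - avg s' f) := ⟨_, rfl⟩
      have ea : avg x a = a := by rw [ha, avg_avg_of_ge hx hs' hxs']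
      have eb : avg x b = b := by rw [hb, avg_avg_of_ge hx hs hxs]
      rw [e, ← hb, ← ha, avg_sub, avg_sub, ea, eb]
      abel
    have h1 : dot u u = dot (u - avg x u) (u - avg x u) + dot (avg x u) (avg x u) := by
      rw [dot_Q_Q hx, dot_avg_avg hx, dot_sub_right]
      ring
    rw [h1, hq, dot_Q_Q hx]
    linarith [dot_self_nonneg (avg x u)]
  -- last term
  have n4 : - (1 / 2) * ∑ a, (if σ a then (avg s f a - avg r f a) ^ 2 else 0)
      - (1 / 2) * ∑ a, (if σ a then (avg s' f a - avg r' f a) ^ 2 else 0)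
      ≤ dot ((T - P) f) ((T' - P') f) := by
    unfold dot
    rw [Finset.mul_sum, Finset.mul_sum, ← Finset.sum_sub_distrib]
    refine Finset.sum_le_sum fun a _ => ?_
    rw [LinearMap.sub_apply, LinearMap.sub_apply, aT, aP, aT', aP']
    simp only [Pi.sub_apply]
    by_cases ha : σ a
    · rw [if_pos ha, if_pos ha]
      nlinarith [sq_nonneg ((avg s f a - avg r f a) + (avg s' f a - avg r' f a))]
    · rw [if_neg ha, if_neg ha, c5 f a ha]
      simp
  linarith

end P335
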