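import Mathlib

/-!
# P335: the switch chain on the realizations of a degree vector
-/

namespace P335

open Finset Classical

/-- `Ω_d`: the simple graphs on `Fin n` with degree `d v` at every vertex `v` -/
def Realization (n : ℕ) (d : Fin n → ℕ) : Type :=
  {G : SimpleGraph (Fin n) // ∀ v, G.degree v = d v}

noncomputable instance (n : ℕ) (d : Fin n → ℕ) : Fintype (Realization n d) := by
  unfold Realization
  infer_instance

/-- `G'` arises from `G` by a switch: two disjoint edges `ab`, `ce` of `G` are deleted and the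
two non-edges `ac`, `be` are inserted. -/
def IsSwitch {n : ℕ} (G G' : SimpleGraph (Fin n)) : Prop :=
  ∃ a b c e : Fin n, a ≠ b ∧ a ≠ c ∧ a ≠ e ∧ b ≠ c ∧ b ≠ e ∧ c ≠ e ∧
    G.Adj a b ∧ G.Adj c e ∧ ¬ G.Adj a c ∧ ¬ G.Adj b e ∧
    G'.edgeSet = (G.edgeSet \ {s(a, b), s(c, e)}) ∪ {s(a, c), s(b, e)}

/-- transition matrix of the switch chain: a switch `G → G'` is produced by exactly one choice of
the 4-set `S` and of the ordered pair `(F, F')`, so it has probability
`(1/2) (1 / C(n,4)) (1/6)`; all the remaining mass stays at `G`. -/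
noncomputable def switchChain (n : ℕ) (d : Fin n → ℕ) :
    Matrix (Realization n d) (Realization n d) ℝ :=
  fun G G' =>
    if G = G' then
      1 - ((univ.filter (fun H : Realization n d => IsSwitch G.1 H.1)).card : ℝ)
        / (12 * (n.choose 4 : ℝ))
    else if IsSwitch G.1 G'.1 then 1 / (12 * (n.choose 4 : ℝ)) else 0

/-- total variation distance between `P_d^t(G, ·)` and the uniform distribution on `Ω_d` -/
noncomputable def tvDist (n : ℕ) (d : Fin n → ℕ) (t : ℕ) (G : Realization n d) : ℝ :=
  (1 / 2) * ∑ G', |((switchChain n d) ^ t) G G' - 1 / (Fintype.card (Realization n d) : ℝ)|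

/-- the mixing time `t_mix(d)` -/
noncomputable def tmix (n : ℕ) (d : Fin n → ℕ) : ℕ :=
  sInf {t : ℕ | ∀ G : Realization n d, tvDist n d t G ≤ 1 / 4}

/-- `d` is the degree vector of a split graph: some realization has a vertex set `K` spanning a
clique whose complement is independent. -/
def IsSplit (n : ℕ) (d : Fin n → ℕ) : Prop :=
  ∃ (G : Realization n d) (K : Finset (Fin n)),
    (∀ x ∈ K, ∀ y ∈ K, x ≠ y → G.1.Adj x y) ∧ (∀ x, x ∉ K → ∀ y, y ∉ K → ¬ G.1.Adj x y)

end P335
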