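import Vale.Agent.Lib.P335.Defs

/-!
# P335: connectivity of `Ω_d` under switches (general graphs)

Vertex-by-vertex (Havel–Hakimi style) argument.  `AgreeOff U G G'`: the two graphs agree on every pair
meeting the complement of `U`.  Induction on `|U|`: pick `v ∈ U` and make the neighbourhoods of `v` equal by
switches inside `U` (inner induction on the number of `w` with `G.Adj v w ≠ G'.Adj v w`), then remove `v`
from `U`.
-/

namespace P335
namespace GConn

open Finset Classical

variable {n : ℕ}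

/-- adjacency indicator -/
noncomputable def ind (G : SimpleGraph (Fin n)) (x y : Fin n) : ℕ := if G.Adj x y then 1 else 0

theorem degree_eq_sum_ind (G : SimpleGraph (Fin n)) (v : Fin n) :
    G.degree v = ∑ y, ind G v y := by
  unfold ind
  rw [← Finset.card_filter, ← SimpleGraph.card_neighborFinset_eq_degree]
  congr 1
  ext y
  simp

/-- the hypotheses of a switch -/
def Valid (G : SimpleGraph (Fin n)) (a b c e : Fin n) : Prop :=
  a ≠ b ∧ a ≠ c ∧ a ≠ e ∧ b ≠ c ∧ b ≠ e ∧ c ≠ e ∧
    G.Adj a b ∧ G.Adj c e ∧ ¬ G.Adj a c ∧ ¬ G.Adj b e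

/-- the switched graph -/
def swG (G : SimpleGraph (Fin n)) (a b c e : Fin n) : SimpleGraph (Fin n) where
  Adj x y := (G.Adj x y ∧ s(x, y) ≠ s(a, b) ∧ s(x, y) ≠ s(c, e)) ∨
    (x ≠ y ∧ (s(x, y) = s(a, c) ∨ s(x, y) = s(b, e)))
  symm := ⟨by
    intro x y h
    rcases h with ⟨h1, h2, h3⟩ | ⟨h1, h2⟩
    · left
      exact ⟨h1.symm, by rwa [Sym2.eq_swap], by rwa [Sym2.eq_swap]⟩
    · right
      refine ⟨h1.symm, ?_⟩
      rwa [Sym2.eq_swap]⟩
  loopless := ⟨fun x h => by
    rcases h with ⟨h1, _, _⟩ | ⟨h1, _⟩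
    · exact G.loopless.irrefl x h1
    · exact h1 rfl⟩

theorem swG_adj (G : SimpleGraph (Fin n)) (a b c e x y : Fin n) :
    (swG G a b c e).Adj x y ↔ (G.Adj x y ∧ s(x, y) ≠ s(a, b) ∧ s(x, y) ≠ s(c, e)) ∨
    (x ≠ y ∧ (s(x, y) = s(a, c) ∨ s(x, y) = s(b, e))) := Iff.rfl

theorem adj_of_eq {G : SimpleGraph (Fin n)} {x y a b : Fin n} (h : s(x, y) = s(a, b)) :
    G.Adj x y ↔ G.Adj a b := by
  rw [← SimpleGraph.mem_edgeSet, ← SimpleGraph.mem_edgeSet, h]

theorem ne_of_eq {x y a b : Fin n} (h : s(x, y) = s(a, b)) (hab : a ≠ b) : x ≠ y := by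
  rintro rfl
  rw [Sym2.eq_iff] at h
  rcases h with ⟨h1, h2⟩ | ⟨h1, h2⟩
  · exact hab (h1.symm.trans h2)
  · exact hab (h2.symm.trans h1)

theorem isSwitch_swG {G : SimpleGraph (Fin n)} {a b c e : Fin n} (h : Valid G a b c e) :
    IsSwitch G (swG G a b c e) := by
  obtain ⟨h1, h2, h3, h4, h5, h6, h7, h8, h9, h10⟩ := h
  refine ⟨a, b, c, e, h1, h2, h3, h4, h5, h6, h7, h8, h9, h10, ?_⟩
  ext z
  induction z using Sym2.ind with
  | _ x y =>
    simp only [SimpleGraph.mem_edgeSet, swG_adj, Set.mem_union, Set.mem_sdiff, Set.mem_insert_iff,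
      Set.mem_singleton_iff, not_or]
    constructor
    · rintro (h | ⟨_, h⟩)
      · exact Or.inl h
      · exact Or.inr h
    · rintro (h | h)
      · exact Or.inl h
      · refine Or.inr ⟨?_, h⟩
        rcases h with h | h
        · exact ne_of_eq h h2
        · exact ne_of_eq h h5

theorem sum_sym2 (x a b : Fin n) (hab : a ≠ b) :
    ∑ y, (if s(x, y) = s(a, b) then 1 else 0) = (if x = a then 1 else 0) + (if x = b then 1 else 0) := by
  by_cases hxa : x = a
  · subst hxa
    have : ∀ y, (s(x, y) = s(x, b)) ↔ y = b := by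
      intro y
      rw [Sym2.eq_iff]
      constructor
      · rintro (h | h)
        · exact h.2
        · exact absurd h.1 hab
      · intro h
        exact Or.inl ⟨rfl, h⟩
    simp only [this]
    simp [hab]
  · by_cases hxb : x = b
    · subst hxb
      have : ∀ y, (s(x, y) = s(a, x)) ↔ y = a := by
        intro y
        rw [Sym2.eq_iff]
        constructor
        · rintro (h | h)
          · exact absurd h.1 hxa
          · exact h.2
        · intro h
          exact Or.inr ⟨rfl, h⟩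
      simp only [this]
      simp [hxa]
    · have : ∀ y, ¬ (s(x, y) = s(a, b)) := by
        intro y
        rw [Sym2.eq_iff]
        rintro (h | h)
        · exact hxa h.1
        · exact hxb h.1
      simp [this, hxa, hxb]

theorem ite_aux (A P1 P2 P3 P4 N : Prop) [Decidable A] [Decidable P1] [Decidable P2] [Decidable P3]
    [Decidable P4] [Decidable ((A ∧ ¬ P1 ∧ ¬ P2) ∨ (N ∧ (P3 ∨ P4)))] (f1 : P1 → A) (f2 : P2 → A) (f3 : P3 → ¬ A ∧ N)
    (f4 : P4 → ¬ A ∧ N) (f12 : P1 → ¬ P2) (f34 : P3 → ¬ P4) :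
    (if (A ∧ ¬ P1 ∧ ¬ P2) ∨ (N ∧ (P3 ∨ P4)) then 1 else 0) + (if P1 then 1 else 0)
        + (if P2 then 1 else 0)
      = (if A then 1 else 0) + (if P3 then 1 else 0) + (if P4 then 1 else 0) := by
  by_cases hA : A <;> by_cases h1 : P1 <;> by_cases h2 : P2 <;> by_cases h3 : P3 <;>
    by_cases h4 : P4 <;> simp_all

theorem ind_swG {G : SimpleGraph (Fin n)} {a b c e : Fin n} (h : Valid G a b c e) (x y : Fin n) :
    ind (swG G a b c e) x y + (if s(x, y) = s(a, b) then 1 else 0)
        + (if s(x, y) = s(c, e) then 1 else 0)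
      = ind G x y + (if s(x, y) = s(a, c) then 1 else 0) + (if s(x, y) = s(b, e) then 1 else 0) := by
  obtain ⟨h1, h2, h3, h4, h5, h6, h7, h8, h9, h10⟩ := h
  unfold ind
  simp only [swG_adj]
  refine ite_aux (G.Adj x y) _ _ _ _ (x ≠ y) (fun p => (adj_of_eq p).2 h7)
    (fun p => (adj_of_eq p).2 h8) (fun p => ⟨fun g => h9 ((adj_of_eq p).1 g), ne_of_eq p h2⟩)
    (fun p => ⟨fun g => h10 ((adj_of_eq p).1 g), ne_of_eq p h5⟩) ?_ ?_
  · intro p1 p2
    rw [p1, Sym2.eq_iff] at p2
    rcases p2 with h | h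
    · exact h2 h.1
    · exact h3 h.1
  · intro p3 p4
    rw [p3, Sym2.eq_iff] at p4
    rcases p4 with h | h
    · exact h1 h.1
    · exact h3 h.1

theorem degree_swG {G : SimpleGraph (Fin n)} {a b c e : Fin n} (h : Valid G a b c e) (x : Fin n) :
    (swG G a b c e).degree x = G.degree x := by
  have hs := Finset.sum_congr (s₁ := (univ : Finset (Fin n))) rfl (fun y _ => ind_swG h x y)
  obtain ⟨h1, h2, h3, h4, h5, h6, h7, h8, h9, h10⟩ := h
  simp only [Finset.sum_add_distrib] at hs
  rw [sum_sym2 x a b h1, sum_sym2 x c e h6, sum_sym2 x a c h2, sum_sym2 x b e h5,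
    ← degree_eq_sum_ind, ← degree_eq_sum_ind] at hs
  omega

/-- the reverse of a switch is a switch -/
theorem isSwitch_symm {G H : SimpleGraph (Fin n)} (h : IsSwitch G H) : IsSwitch H G := by
  obtain ⟨a, b, c, e, h1, h2, h3, h4, h5, h6, h7, h8, h9, h10, hE⟩ := h
  have adjH : ∀ x y, H.Adj x y ↔ (G.Adj x y ∧ s(x, y) ≠ s(a, b) ∧ s(x, y) ≠ s(c, e)) ∨
      (s(x, y) = s(a, c) ∨ s(x, y) = s(b, e)) := by
    intro x y
    rw [← SimpleGraph.mem_edgeSet, hE]
    simp only [SimpleGraph.mem_edgeSet, Set.mem_union, Set.mem_sdiff, Set.mem_insert_iff,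
      Set.mem_singleton_iff, not_or, ne_eq]
  refine ⟨a, c, b, e, h2, h1, h3, h4.symm, h6, h5, (adjH a c).2 (Or.inr (Or.inl rfl)),
    (adjH b e).2 (Or.inr (Or.inr rfl)), ?_, ?_, ?_⟩
  · intro h
    rcases (adjH a b).1 h with ⟨_, h, _⟩ | h | h
    · exact h rfl
    · exact h9 ((adj_of_eq h).1 h7)
    · exact h10 ((adj_of_eq h).1 h7)
  · intro h
    rcases (adjH c e).1 h with ⟨_, _, h⟩ | h | h
    · exact h rfl
    · exact h9 ((adj_of_eq h).1 h8)
    · exact h10 ((adj_of_eq h).1 h8)
  · ext z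
    induction z using Sym2.ind with
    | _ x y =>
      simp only [SimpleGraph.mem_edgeSet, Set.mem_union, Set.mem_sdiff, Set.mem_insert_iff,
        Set.mem_singleton_iff, not_or]
      constructor
      · intro g
        by_cases p1 : s(x, y) = s(a, b)
        · exact Or.inr (Or.inl p1)
        · by_cases p2 : s(x, y) = s(c, e)
          · exact Or.inr (Or.inr p2)
          · exact Or.inl ⟨(adjH x y).2 (Or.inl ⟨g, p1, p2⟩), fun p => h9 ((adj_of_eq p).1 g),
              fun p => h10 ((adj_of_eq p).1 g)⟩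
      · rintro (⟨h, p3, p4⟩ | p | p)
        · rcases (adjH x y).1 h with h | h | h
          · exact h.1
          · exact absurd h p3
          · exact absurd h p4
        · exact (adj_of_eq p).2 h7
        · exact (adj_of_eq p).2 h8

/-- agreement on all pairs meeting the complement of `U` -/
def AgreeOff (U : Finset (Fin n)) (G G' : SimpleGraph (Fin n)) : Prop :=
  ∀ x y, (x ∉ U ∨ y ∉ U) → (G.Adj x y ↔ G'.Adj x y)

theorem AgreeOff.symm {U : Finset (Fin n)} {G G' : SimpleGraph (Fin n)} (h : AgreeOff U G G') :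
    AgreeOff U G' G := fun x y hxy => (h x y hxy).symm

theorem AgreeOff.trans {U : Finset (Fin n)} {G G' G'' : SimpleGraph (Fin n)} (h : AgreeOff U G G')
    (h' : AgreeOff U G' G'') : AgreeOff U G G'' := fun x y hxy => (h x y hxy).trans (h' x y hxy)

theorem sym2_ne_of_notMem {U : Finset (Fin n)} {x y a b : Fin n} (ha : a ∈ U) (hb : b ∈ U)
    (h : x ∉ U ∨ y ∉ U) : s(x, y) ≠ s(a, b) := by
  intro he
  rw [Sym2.eq_iff] at he
  rcases he with ⟨rfl, rfl⟩ | ⟨rfl, rfl⟩
  · rcases h with h | h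
    · exact h ha
    · exact h hb
  · rcases h with h | h
    · exact h hb
    · exact h ha

theorem swG_adj_of_ne {G : SimpleGraph (Fin n)} {a b c e x y : Fin n} (h1 : s(x, y) ≠ s(a, b))
    (h2 : s(x, y) ≠ s(c, e)) (h3 : s(x, y) ≠ s(a, c)) (h4 : s(x, y) ≠ s(b, e)) :
    (swG G a b c e).Adj x y ↔ G.Adj x y := by
  rw [swG_adj]
  constructor
  · rintro (h | ⟨_, h | h⟩)
    · exact h.1
    · exact absurd h h3
    · exact absurd h h4
  · intro h
    exact Or.inl ⟨h, h1, h2⟩

theorem agreeOff_swG {U : Finset (Fin n)} (G : SimpleGraph (Fin n)) {a b c e : Fin n} (ha : a ∈ U)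
    (hb : b ∈ U) (hc : c ∈ U) (he : e ∈ U) : AgreeOff U (swG G a b c e) G :=
  fun _ _ h => swG_adj_of_ne (sym2_ne_of_notMem ha hb h) (sym2_ne_of_notMem hc he h)
    (sym2_ne_of_notMem ha hc h) (sym2_ne_of_notMem hb he h)

/-- the residual degrees inside `U` agree -/
theorem rho_eq {U : Finset (Fin n)} {G G' : SimpleGraph (Fin n)}
    (hdeg : ∀ v, G.degree v = G'.degree v) (h : AgreeOff U G G') (x : Fin n) :
    ∑ w ∈ U, ind G x w = ∑ w ∈ U, ind G' x w := by
  have e1 := degree_eq_sum_ind G x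
  have e2 := degree_eq_sum_ind G' x
  rw [← Finset.sum_add_sum_compl U] at e1 e2
  have e3 : ∑ w ∈ Uᶜ, ind G x w = ∑ w ∈ Uᶜ, ind G' x w := by
    refine Finset.sum_congr rfl (fun w hw => ?_)
    unfold ind
    simp only [h x w (Or.inr (Finset.mem_compl.1 hw))]
  have := hdeg x
  omega

theorem ind_le_one (G : SimpleGraph (Fin n)) (x y : Fin n) : ind G x y ≤ 1 := by
  unfold ind
  split_ifs <;> omega

theorem ind_pos {G : SimpleGraph (Fin n)} {x y : Fin n} (h : G.Adj x y) : ind G x y = 1 := if_pos h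

theorem ind_neg {G : SimpleGraph (Fin n)} {x y : Fin n} (h : ¬ G.Adj x y) : ind G x y = 0 := if_neg h

theorem exists_z {G : SimpleGraph (Fin n)} {U : Finset (Fin n)} {v x y : Fin n} (hv : v ∈ U)
    (hx : x ∈ U) (hy : y ∈ U) (hvy : v ≠ y) (h1 : G.Adj v x) (h2 : ¬ G.Adj v y)
    (hρ : ∑ w ∈ U, ind G x w ≤ ∑ w ∈ U, ind G y w) :
    ∃ z ∈ U, G.Adj y z ∧ ¬ G.Adj x z ∧ z ≠ x := by
  by_contra hcon
  push Not at hcon
  have hvx : v ≠ x := h1.ne
  have hsw : ∑ w ∈ U, ind G x (Equiv.swap x y w) = ∑ w ∈ U, ind G x w := by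
    refine Finset.sum_equiv (Equiv.swap x y) (fun w => ?_) (fun w _ => rfl)
    by_cases hwx : w = x
    · subst hwx
      rw [Equiv.swap_apply_left]
      exact ⟨fun _ => hy, fun _ => hx⟩
    · by_cases hwy : w = y
      · subst hwy
        rw [Equiv.swap_apply_right]
        exact ⟨fun _ => hx, fun _ => hy⟩
      · rw [Equiv.swap_apply_of_ne_of_ne hwx hwy]
  have hlt : ∑ w ∈ U, ind G y w < ∑ w ∈ U, ind G x (Equiv.swap x y w) := by
    refine Finset.sum_lt_sum (fun w hw => ?_) ⟨v, hv, ?_⟩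
    · by_cases hwx : w = x
      · subst hwx
        rw [Equiv.swap_apply_left]
        unfold ind
        simp only [G.adj_comm y w]
        exact le_rfl
      · by_cases hwy : w = y
        · subst hwy
          rw [ind_neg (G.loopless.irrefl w)]
          exact Nat.zero_le _
        · rw [Equiv.swap_apply_of_ne_of_ne hwx hwy]
          by_cases hyw : G.Adj y w
          · by_cases hxw : G.Adj x w
            · rw [ind_pos hxw]
              exact ind_le_one _ _ _
            · exact absurd (hcon w hw hyw hxw) hwx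
          · rw [ind_neg hyw]
            exact Nat.zero_le _
    · rw [Equiv.swap_apply_of_ne_of_ne hvx hvy, ind_pos h1.symm, ind_neg (fun h => h2 h.symm)]
      exact Nat.zero_lt_one
  omega

/-- the vertices `w` at which the neighbourhoods of `v` differ -/
noncomputable def D (v : Fin n) (G G' : SimpleGraph (Fin n)) : Finset (Fin n) :=
  univ.filter (fun w => ¬ (G.Adj v w ↔ G'.Adj v w))

theorem mem_D {v w : Fin n} {G G' : SimpleGraph (Fin n)} :
    w ∈ D v G G' ↔ ¬ (G.Adj v w ↔ G'.Adj v w) := by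
  simp [D]

theorem D_comm (v : Fin n) (G G' : SimpleGraph (Fin n)) : D v G G' = D v G' G := by
  ext w
  rw [mem_D, mem_D]
  exact not_congr iff_comm

variable {d : Fin n → ℕ}

theorem progress {U : Finset (Fin n)} (G G' : Realization n d) (h : AgreeOff U G.1 G'.1)
    {v x y : Fin n} (hv : v ∈ U) (h1 : G.1.Adj v x) (h2 : ¬ G'.1.Adj v x) (h3 : ¬ G.1.Adj v y)
    (h4 : G'.1.Adj v y) (hρ : ∑ w ∈ U, ind G.1 x w ≤ ∑ w ∈ U, ind G.1 y w) :
    ∃ G₁ : Realization n d, IsSwitch G.1 G₁.1 ∧ AgreeOff U G₁.1 G'.1 ∧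
      (D v G₁.1 G'.1).card < (D v G.1 G'.1).card := by
  have hx : x ∈ U := by
    by_contra hx
    exact h2 ((h v x (Or.inr hx)).1 h1)
  have hy : y ∈ U := by
    by_contra hy
    exact h3 ((h v y (Or.inr hy)).2 h4)
  have hvx : v ≠ x := h1.ne
  have hvy : v ≠ y := h4.ne
  obtain ⟨z, hz, hyz, hxz, hzx⟩ := exists_z hv hx hy hvy h1 h3 hρ
  have hvz : v ≠ z := by
    rintro rfl
    exact h3 hyz.symm
  have hxy : x ≠ y := by
    rintro rfl
    exact h3 h1
  have hval : Valid G.1 v x y z := ⟨hvx, hvy, hvz, hxy, hzx.symm, hyz.ne, h1, hyz, h3, hxz⟩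
  refine ⟨⟨swG G.1 v x y z, fun w => (degree_swG hval w).trans (G.2 w)⟩, isSwitch_swG hval,
    (agreeOff_swG G.1 hv hx hy hz).trans h, ?_⟩
  have hxD : x ∈ D v G.1 G'.1 := by
    rw [mem_D]
    exact fun hiff => h2 (hiff.1 h1)
  refine lt_of_le_of_lt (Finset.card_le_card (t := (D v G.1 G'.1).erase x) ?_)
    (Finset.card_erase_lt_of_mem hxD)
  intro w hw
  rw [mem_D] at hw
  simp only at hw
  have hwx : w ≠ x := by
    rintro rfl
    apply hw
    refine ⟨fun hh => ?_, fun hh => absurd hh h2⟩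
    exfalso
    rcases (swG_adj _ _ _ _ _ _ _).1 hh with ⟨_, hh, _⟩ | ⟨_, hh | hh⟩
    · exact hh rfl
    · rw [Sym2.eq_iff] at hh
      rcases hh with hh | hh
      · exact hxy hh.2
      · exact hvy hh.1
    · rw [Sym2.eq_iff] at hh
      rcases hh with hh | hh
      · exact hvx hh.1
      · exact hvz hh.1
  have hwy : w ≠ y := by
    rintro rfl
    apply hw
    exact ⟨fun _ => h4, fun _ => (swG_adj _ _ _ _ _ _ _).2 (Or.inr ⟨hvy, Or.inl rfl⟩)⟩
  rw [Finset.mem_erase, mem_D]
  refine ⟨hwx, ?_⟩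
  rwa [swG_adj_of_ne] at hw
  · rw [Ne, Sym2.eq_iff]
    rintro (hh | hh)
    · exact hwx hh.2
    · exact hvx hh.1
  · rw [Ne, Sym2.eq_iff]
    rintro (hh | hh)
    · exact hvy hh.1
    · exact hvz hh.1
  · rw [Ne, Sym2.eq_iff]
    rintro (hh | hh)
    · exact hwy hh.2
    · exact hvy hh.1
  · rw [Ne, Sym2.eq_iff]
    rintro (hh | hh)
    · exact hvx hh.1
    · exact hvz hh.1

/-- reachability by switches -/
def Reach (G G' : Realization n d) : Prop :=
  Relation.ReflTransGen (fun A B : Realization n d => IsSwitch A.1 B.1) G G'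

theorem Reach.symm {G G' : Realization n d} (h : Reach G G') : Reach G' G := by
  unfold Reach at h ⊢
  induction h with
  | refl => exact Relation.ReflTransGen.refl
  | tail _ hs ih => exact Relation.ReflTransGen.head (isSwitch_symm hs) ih

theorem exists_lt_of_sum_eq {α : Type*} [Fintype α] (a b : α → ℕ) (h : ∑ x, a x = ∑ x, b x)
    {x0 : α} (h0 : b x0 < a x0) : ∃ x, a x < b x := by
  by_contra hcon
  push Not at hcon
  have := Finset.sum_lt_sum (fun x _ => hcon x) ⟨x0, mem_univ _, h0⟩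
  omega

theorem adj_of_ind_lt {G G' : SimpleGraph (Fin n)} {v w : Fin n} (h : ind G v w < ind G' v w) :
    ¬ G.Adj v w ∧ G'.Adj v w := by
  unfold ind at h
  by_cases h1 : G.Adj v w <;> by_cases h2 : G'.Adj v w <;> simp [h1, h2] at h ⊢

theorem reach_of_agreeOff : ∀ (m : ℕ) (U : Finset (Fin n)), U.card = m →
    ∀ G G' : Realization n d, AgreeOff U G.1 G'.1 → Reach G G' := by
  intro m
  induction m with
  | zero =>
    intro U hU G G' h
    have hU' : U = ∅ := Finset.card_eq_zero.1 hU
    have : G = G' := by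
      apply Subtype.ext
      ext x y
      exact h x y (Or.inl (by simp [hU']))
    rw [this]
    exact Relation.ReflTransGen.refl
  | succ m ih =>
    intro U hU
    obtain ⟨v, hv⟩ : U.Nonempty := Finset.card_pos.1 (by omega)
    have inner : ∀ t : ℕ, ∀ G G' : Realization n d, AgreeOff U G.1 G'.1 →
        (D v G.1 G'.1).card = t → Reach G G' := by
      intro t
      induction t using Nat.strong_induction_on with
      | _ t iht =>
        intro G G' h ht
        by_cases hD : D v G.1 G'.1 = ∅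
        · -- the neighbourhoods of `v` agree
          have hvw : ∀ w, G.1.Adj v w ↔ G'.1.Adj v w := by
            intro w
            by_contra hw
            have : w ∈ D v G.1 G'.1 := mem_D.2 hw
            rw [hD] at this
            simp at this
          refine ih (U.erase v) (by rw [Finset.card_erase_of_mem hv, hU]; rfl) G G' ?_
          intro x y hxy
          by_cases hxv : x = v
          · subst hxv
            exact hvw y
          · by_cases hyv : y = v
            · subst hyv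
              rw [G.1.adj_comm, G'.1.adj_comm]
              exact hvw x
            · refine h x y ?_
              rcases hxy with hh | hh
              · exact Or.inl (fun hxU => hh (Finset.mem_erase.2 ⟨hxv, hxU⟩))
              · exact Or.inr (fun hyU => hh (Finset.mem_erase.2 ⟨hyv, hyU⟩))
        · obtain ⟨w0, hw0⟩ := Finset.nonempty_iff_ne_empty.2 hD
          rw [mem_D] at hw0
          have hsum : ∑ w, ind G.1 v w = ∑ w, ind G'.1 v w := by
            rw [← degree_eq_sum_ind, ← degree_eq_sum_ind, G.2 v, G'.2 v]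
          have hxy : ∃ x y, G.1.Adj v x ∧ ¬ G'.1.Adj v x ∧ ¬ G.1.Adj v y ∧ G'.1.Adj v y := by
            by_cases g : G.1.Adj v w0
            · have g' : ¬ G'.1.Adj v w0 := fun g' => hw0 ⟨fun _ => g', fun _ => g⟩
              obtain ⟨y, hy⟩ := exists_lt_of_sum_eq _ _ hsum (x0 := w0)
                (by rw [ind_pos g, ind_neg g']; exact Nat.zero_lt_one)
              exact ⟨w0, y, g, g', (adj_of_ind_lt hy).1, (adj_of_ind_lt hy).2⟩
            · have g' : G'.1.Adj v w0 := by
                by_contra g'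
                exact hw0 ⟨fun h => absurd h g, fun h => absurd h g'⟩
              obtain ⟨x, hx⟩ := exists_lt_of_sum_eq _ _ hsum.symm (x0 := w0)
                (by rw [ind_pos g', ind_neg g]; exact Nat.zero_lt_one)
              exact ⟨x, w0, (adj_of_ind_lt hx).2, (adj_of_ind_lt hx).1, g, g'⟩
          obtain ⟨x, y, h1, h2, h3, h4⟩ := hxy
          rcases le_total (∑ w ∈ U, ind G.1 x w) (∑ w ∈ U, ind G.1 y w) with hρ | hρ
          · obtain ⟨G₁, hs, ha, hc⟩ := progress G G' h hv h1 h2 h3 h4 hρ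
            exact Relation.ReflTransGen.head hs (iht _ (ht ▸ hc) G₁ G' ha rfl)
          · have hdeg : ∀ u, G.1.degree u = G'.1.degree u := fun u => (G.2 u).trans (G'.2 u).symm
            rw [rho_eq hdeg h, rho_eq hdeg h] at hρ
            obtain ⟨G₁, hs, ha, hc⟩ := progress G' G h.symm hv h4 h3 h2 h1 hρ
            rw [D_comm v G'.1 G.1] at hc
            have r1 : Reach G₁ G := iht _ (ht ▸ hc) G₁ G ha rfl
            have r2 : Reach G' G := Relation.ReflTransGen.head hs r1
            exact r2.symm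
    intro G G' h
    exact inner _ G G' h rfl

/-- **Connectivity of `Ω_d` under switches.** -/
theorem switch_reachable (G G' : Realization n d) :
    Relation.ReflTransGen (fun A B : Realization n d => IsSwitch A.1 B.1) G G' :=
  reach_of_agreeOff _ univ rfl G G' (fun x _ h => by simp at h)

/-- A function on `Ω_d` which is invariant under all switches is constant. -/
theorem const_of_inv_switch {α : Type*} (k : Realization n d → α)
    (hk : ∀ G G' : Realization n d, IsSwitch G.1 G'.1 → k G = k G') (G G' : Realization n d) :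
    k G = k G' := by
  have h := switch_reachable G G'
  induction h with
  | refl => rfl
  | tail _ hs ih => exact ih.trans (hk _ _ hs)

end GConn
end P335
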