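import Vale.Agent.Lib.P335.Avg

/-!
# P335: the matrix model (0/1 matrices with prescribed margins), blocks and switches
-/

namespace P335

open Finset

set_option linter.unusedSectionVars false

variable {ι κ : Type*} [Fintype ι] [Fintype κ] [DecidableEq ι] [DecidableEq κ]

/-- `X` has row sums `r` and column sums `c` -/
def IsMat (r : ι → ℕ) (c : κ → ℕ) (X : ι → κ → Bool) : Prop :=
  (∀ i, ∑ p, (X i p).toNat = r i) ∧ (∀ p, ∑ i, (X i p).toNat = c p)

/-- 0/1 matrices with row sums `r` and column sums `c` -/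
abbrev Mat (r : ι → ℕ) (c : κ → ℕ) : Type _ := {X : ι → κ → Bool // IsMat r c X}

noncomputable instance (r : ι → ℕ) (c : κ → ℕ) : Fintype (Mat r c) := by
  classical
  unfold Mat
  infer_instance

variable {r : ι → ℕ} {c : κ → ℕ}

theorem Mat.ext' {X Y : Mat r c} (h : ∀ i p, X.1 i p = Y.1 i p) : X = Y :=
  Subtype.ext (funext fun i => funext fun p => h i p)

/-- `X` and `Y` agree outside the block `R × C` -/
def AgreeOff (R : Finset ι) (C : Finset κ) (X Y : Mat r c) : Prop :=
  ∀ i p, ¬ (i ∈ R ∧ p ∈ C) → X.1 i p = Y.1 i p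

theorem agreeOff_equiv (R : Finset ι) (C : Finset κ) :
    Equivalence (AgreeOff (r := r) (c := c) R C) where
  refl := fun _ _ _ _ => rfl
  symm := fun h i p hip => (h i p hip).symm
  trans := fun h1 h2 i p hip => (h1 i p hip).trans (h2 i p hip)

theorem AgreeOff.mono {R R' : Finset ι} {C C' : Finset κ} (hR : R ⊆ R') (hC : C ⊆ C')
    {X Y : Mat r c} (h : AgreeOff R C X Y) : AgreeOff R' C' X Y :=
  fun i p hip => h i p (fun h' => hip ⟨hR h'.1, hC h'.2⟩)

/-- block averaging: the mean over all matrices of `Mat r c` agreeing with `X` off `R × C` -/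
noncomputable def E (R : Finset ι) (C : Finset κ) (f : Mat r c → ℝ) : Mat r c → ℝ :=
  avg (AgreeOff R C) f

open Classical in
/-- turn a raw matrix into an element of `Mat r c` (fallback `fb` if the margins are wrong) -/
noncomputable def ofRaw (Z : ι → κ → Bool) (fb : Mat r c) : Mat r c :=
  if h : IsMat r c Z then ⟨Z, h⟩ else fb

theorem ofRaw_val {Z : ι → κ → Bool} (h : IsMat r c Z) (fb : Mat r c) : (ofRaw Z fb).1 = Z := by
  unfold ofRaw
  rw [dif_pos h]

/-- flip the four cells of the minor with rows `i j` and columns `p q` -/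
def swRaw (i j : ι) (p q : κ) (X : ι → κ → Bool) : ι → κ → Bool :=
  fun x u => if (x = i ∨ x = j) ∧ (u = p ∨ u = q) then !(X x u) else X x u

/-- the minor on rows `i j`, columns `p q` is `(1 0 ; 0 1)` -/
def Switchable (i j : ι) (p q : κ) (X : ι → κ → Bool) : Prop :=
  i ≠ j ∧ p ≠ q ∧ X i p = true ∧ X i q = false ∧ X j p = false ∧ X j q = true

theorem swRaw_eq_swap_col {i j : ι} {p q : κ} {X : ι → κ → Bool} (h : Switchable i j p q X)
    (x : ι) (u : κ) :
    swRaw i j p q X x u = if x = i ∨ x = j then X x (Equiv.swap p q u) else X x u := by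
  obtain ⟨hij, hpq, h1, h2, h3, h4⟩ := h
  unfold swRaw
  by_cases hx : x = i ∨ x = j
  · by_cases hu : u = p ∨ u = q
    · rw [if_pos ⟨hx, hu⟩, if_pos hx]
      rcases hx with rfl | rfl <;> rcases hu with rfl | rfl <;> simp [*]
    · rw [if_neg (fun h => hu h.2), if_pos hx]
      push Not at hu
      rw [Equiv.swap_apply_of_ne_of_ne hu.1 hu.2]
  · rw [if_neg (fun h => hx h.1), if_neg hx]

theorem swRaw_eq_swap_row {i j : ι} {p q : κ} {X : ι → κ → Bool} (h : Switchable i j p q X)
    (x : ι) (u : κ) :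
    swRaw i j p q X x u = if u = p ∨ u = q then X (Equiv.swap i j x) u else X x u := by
  obtain ⟨hij, hpq, h1, h2, h3, h4⟩ := h
  unfold swRaw
  by_cases hu : u = p ∨ u = q
  · by_cases hx : x = i ∨ x = j
    · rw [if_pos ⟨hx, hu⟩, if_pos hu]
      rcases hx with rfl | rfl <;> rcases hu with rfl | rfl <;> simp [*]
    · rw [if_neg (fun h => hx h.1), if_pos hu]
      push Not at hx
      rw [Equiv.swap_apply_of_ne_of_ne hx.1 hx.2]
  · rw [if_neg (fun h => hu h.2), if_neg hu]

theorem isMat_swRaw {i j : ι} {p q : κ} {X : ι → κ → Bool} (h : Switchable i j p q X)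
    (hX : IsMat r c X) : IsMat r c (swRaw i j p q X) := by
  constructor
  · intro x
    rw [← hX.1 x]
    by_cases hx : x = i ∨ x = j
    · rw [← Equiv.sum_comp (Equiv.swap p q) (fun u => (X x u).toNat)]
      refine Finset.sum_congr rfl (fun u _ => ?_)
      rw [swRaw_eq_swap_col h, if_pos hx]
    · refine Finset.sum_congr rfl (fun u _ => ?_)
      rw [swRaw_eq_swap_col h, if_neg hx]
  · intro u
    rw [← hX.2 u]
    by_cases hu : u = p ∨ u = q
    · rw [← Equiv.sum_comp (Equiv.swap i j) (fun x => (X x u).toNat)]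
      refine Finset.sum_congr rfl (fun x _ => ?_)
      rw [swRaw_eq_swap_row h, if_pos hu]
    · refine Finset.sum_congr rfl (fun x _ => ?_)
      rw [swRaw_eq_swap_row h, if_neg hu]

open Classical in
/-- the switch on rows `i j`, columns `p q` (identity when the minor is not `(1 0 ; 0 1)`) -/
noncomputable def sw (i j : ι) (p q : κ) (X : Mat r c) : Mat r c :=
  if h : Switchable i j p q X.1 then ⟨swRaw i j p q X.1, isMat_swRaw h X.2⟩ else X

theorem sw_val {i j : ι} {p q : κ} {X : Mat r c} (h : Switchable i j p q X.1) :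
    (sw i j p q X).1 = swRaw i j p q X.1 := by
  unfold sw
  rw [dif_pos h]

/-- `Y` arises from `X` by a switch inside the block `R × C` -/
def IsSw (R : Finset ι) (C : Finset κ) (X Y : Mat r c) : Prop :=
  ∃ i ∈ R, ∃ j ∈ R, ∃ p ∈ C, ∃ q ∈ C, Switchable i j p q X.1 ∧ Y.1 = swRaw i j p q X.1

theorem agreeOff_of_swRaw {i j : ι} {p q : κ} {X Y : Mat r c} (h : Y.1 = swRaw i j p q X.1) :
    AgreeOff {i, j} {p, q} X Y := by
  intro x u hxu
  rw [h]
  unfold swRaw
  rw [if_neg]
  simpa using hxu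

theorem IsSw.agreeOff {R : Finset ι} {C : Finset κ} {X Y : Mat r c} (h : IsSw R C X Y) :
    AgreeOff R C X Y := by
  obtain ⟨i, hi, j, hj, p, hp, q, hq, -, hY⟩ := h
  refine (agreeOff_of_swRaw hY).mono ?_ ?_
  · intro x hx
    simp only [mem_insert, mem_singleton] at hx
    rcases hx with rfl | rfl <;> assumption
  · intro x hx
    simp only [mem_insert, mem_singleton] at hx
    rcases hx with rfl | rfl <;> assumption

/-- restricted row sums over the free columns agree for matrices agreeing off `R × C` -/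
theorem sum_row_eq_of_agreeOff {R : Finset ι} {C : Finset κ} {X Y : Mat r c}
    (h : AgreeOff R C X Y) (i : ι) :
    ∑ p ∈ C, (X.1 i p).toNat = ∑ p ∈ C, (Y.1 i p).toNat := by
  have h1 := X.2.1 i
  have h2 := Y.2.1 i
  rw [← Finset.sum_add_sum_compl C] at h1 h2
  have h3 : ∑ p ∈ Cᶜ, (X.1 i p).toNat = ∑ p ∈ Cᶜ, (Y.1 i p).toNat := by
    refine Finset.sum_congr rfl (fun p hp => ?_)
    rw [h i p (fun h' => (Finset.mem_compl.1 hp) h'.2)]
  omega

/-- restricted column sums over the free rows agree for matrices agreeing off `R × C` -/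
theorem sum_col_eq_of_agreeOff {R : Finset ι} {C : Finset κ} {X Y : Mat r c}
    (h : AgreeOff R C X Y) (p : κ) :
    ∑ i ∈ R, (X.1 i p).toNat = ∑ i ∈ R, (Y.1 i p).toNat := by
  have h1 := X.2.2 p
  have h2 := Y.2.2 p
  rw [← Finset.sum_add_sum_compl R] at h1 h2
  have h3 : ∑ i ∈ Rᶜ, (X.1 i p).toNat = ∑ i ∈ Rᶜ, (Y.1 i p).toNat := by
    refine Finset.sum_congr rfl (fun i hi => ?_)
    rw [h i p (fun h' => (Finset.mem_compl.1 hi) h'.1)]
  omega

end P335
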