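import Vale.Agent.Lib.P335.JohnsonAbs

/-!
# P335: inequality (II) for the abstract two-row fibre `JAbs.Sys` (the summation step)
-/

namespace P335
namespace JAbs

open Finset

/-- variance identity -/
theorem var_id {ι : Type*} (I : Finset ι) (x : ι → ℝ) :
    ∑ i ∈ I, ∑ j ∈ I, (x i - x j) ^ 2
      = 2 * (I.card : ℝ) * ∑ i ∈ I, x i ^ 2 - 2 * (∑ i ∈ I, x i) ^ 2 := by
  have h : ∀ i j, (x i - x j) ^ 2 = x i ^ 2 - 2 * (x i * x j) + x j ^ 2 := fun i j => by ring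
  simp only [h, Finset.sum_add_distrib, Finset.sum_sub_distrib, Finset.sum_const, nsmul_eq_mul,
    ← Finset.mul_sum, ← Finset.sum_mul]
  ring

/-- removing one point from a symmetric double sum vanishing on the diagonal -/
theorem sum_erase_erase {κ : Type*} [DecidableEq κ] {M : Finset κ} (D : κ → κ → ℝ)
    (hs : ∀ a ∈ M, ∀ b ∈ M, D a b = D b a) (hd : ∀ a ∈ M, D a a = 0) :
    ∑ w ∈ M, ∑ z ∈ M.erase w, ∑ z' ∈ M.erase w, D z z'
      = ((M.card : ℝ) - 2) * ∑ z ∈ M, ∑ z' ∈ M, D z z' := by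
  have key : ∀ w ∈ M, ∑ z ∈ M.erase w, ∑ z' ∈ M.erase w, D z z'
      = ∑ z ∈ M, ∑ z' ∈ M, D z z' - 2 * ∑ z' ∈ M, D w z' := by
    intro w hw
    have h1 : ∀ z, ∑ z' ∈ M.erase w, D z z' = ∑ z' ∈ M, D z z' - D z w := fun z => by
      rw [← Finset.add_sum_erase M (fun z' => D z z') hw]
      ring
    simp only [h1, Finset.sum_sub_distrib]
    have h2 : ∑ z ∈ M.erase w, ∑ z' ∈ M, D z z'
        = ∑ z ∈ M, ∑ z' ∈ M, D z z' - ∑ z' ∈ M, D w z' := by
      rw [← Finset.add_sum_erase M (fun z => ∑ z' ∈ M, D z z') hw]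
      ring
    have h3 : ∑ z ∈ M.erase w, D z w = ∑ z' ∈ M, D w z' := by
      rw [Finset.sum_erase (f := fun z => D z w) M (hd w hw)]
      exact Finset.sum_congr rfl fun z hz => hs z hz w hw
    rw [h2, h3]
    ring
  rw [Finset.sum_congr rfl key, Finset.sum_sub_distrib, Finset.sum_const, nsmul_eq_mul,
    ← Finset.mul_sum]
  ring

variable {W κ : Type*} [DecidableEq κ] [Fintype W] (J : Sys W κ)

namespace Sys

theorem sum_A {φ : W → ℝ} (h0 : ∑ S, φ S = 0) : ∑ w ∈ J.M, J.A φ w = 0 := by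
  unfold A
  rw [Finset.sum_comm]
  have : ∀ S ∈ (univ : Finset W), ∑ w ∈ J.M, J.ind w S * φ S = J.k * φ S := fun S _ => by
    rw [← Finset.sum_mul, J.sum_ind S]
  rw [Finset.sum_congr rfl this, ← Finset.mul_sum, h0, mul_zero]

theorem sum_l {φ : W → ℝ} (h0 : ∑ S, φ S = 0) (w : κ) :
    ∑ z ∈ J.M, J.l φ w z = ((J.M.card : ℝ) - 2 * J.k) * J.A φ w := by
  unfold l
  rw [Finset.sum_comm]
  have : ∀ S ∈ (univ : Finset W), ∑ z ∈ J.M, J.chi w z S * φ S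
      = ((J.M.card : ℝ) - 2 * J.k) * (J.ind w S * φ S) + J.k * φ S := fun S _ => by
    have h1 : ∀ z, J.chi w z S * φ S
        = J.ind w S * φ S + (φ S - 2 * (J.ind w S * φ S)) * J.ind z S := fun z => by
      rw [J.chi_eq]
      ring
    simp only [h1, Finset.sum_add_distrib, Finset.sum_const, nsmul_eq_mul, ← Finset.mul_sum,
      J.sum_ind S]
    ring
  rw [Finset.sum_congr rfl this, Finset.sum_add_distrib, ← Finset.mul_sum, ← Finset.mul_sum, h0]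
  unfold A
  ring

/-- the main case `1 ≤ k ≤ |M| - 1` -/
theorem two_main {φ : W → ℝ} (h0 : ∑ S, φ S = 0) (N0 : ℝ)
    (hN : ∀ w ∈ J.M, ∀ z ∈ J.M, w ≠ z → J.N w z = N0) (hk1 : 1 ≤ J.k)
    (hk2 : J.k + 1 ≤ J.M.card) :
    (J.M.card : ℝ) * ∑ w ∈ J.M, ∑ z ∈ J.M, (J.l φ w z) ^ 2
      ≤ ((J.M.card : ℝ) - 2) * N0 * (∑ w ∈ J.M, ∑ z ∈ J.M, J.D φ w z) / 4 := by
  set n1 : ℝ := N0 / 2 with hn1
  set m : ℝ := (J.M.card : ℝ) with hm
  set Dt : ℝ := ∑ w ∈ J.M, ∑ z ∈ J.M, J.D φ w z with hDt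
  set L : ℝ := ∑ w ∈ J.M, ∑ z ∈ J.M, (J.l φ w z) ^ 2 with hL
  set SA : ℝ := ∑ w ∈ J.M, (J.A φ w) ^ 2 with hSA
  have hSA0 : 0 ≤ SA := Finset.sum_nonneg fun w _ => sq_nonneg _
  have hm2 : (J.k : ℝ) + 1 ≤ m := by
    rw [hm]
    exact_mod_cast hk2
  have hk0 : (1 : ℝ) ≤ J.k := by exact_mod_cast hk1
  -- pointwise bounds
  have hA : ∀ w ∈ J.M, ∀ z ∈ J.M, (J.A φ w - J.A φ z) ^ 2 ≤ n1 / 2 * J.D φ w z := by
    intro w hw z hz
    by_cases hne : w = z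
    · subst hne
      simp [J.D_self φ hw]
    · have h1 := J.A_sub_sq φ hw hz
      rw [hN w hw z hz hne] at h1
      rw [hn1]
      linarith
  have hl : ∀ w ∈ J.M, ∀ z ∈ J.M.erase w, ∀ z' ∈ J.M.erase w,
      (J.l φ w z - J.l φ w z') ^ 2 ≤ n1 / 2 * J.D φ z z' := by
    intro w hw z hz z' hz'
    rw [Finset.mem_erase] at hz hz'
    by_cases hne : z = z'
    · subst hne
      simp [J.D_self φ hz.2]
    · have h1 := J.l_sub_sq φ hw hz.2 hz'.2 hz.1.symm hz'.1.symm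
      rw [hN z hz.2 z' hz'.2 hne] at h1
      rw [hn1]
      linarith
  -- H1
  have H1 : 2 * m * SA ≤ n1 / 2 * Dt := by
    have h1 := var_id J.M (fun w => J.A φ w)
    rw [J.sum_A h0] at h1
    have h' : ∑ w ∈ J.M, ∑ z ∈ J.M, (J.A φ w - J.A φ z) ^ 2 ≤ n1 / 2 * Dt := by
      rw [hDt, Finset.mul_sum]
      refine Finset.sum_le_sum fun w hw => ?_
      rw [Finset.mul_sum]
      exact Finset.sum_le_sum fun z hz => hA w hw z hz
    rw [h1] at h'
    linarith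
  -- H2
  have H2 : 2 * (m - 1) * L ≤ 2 * (m - 2 * J.k) ^ 2 * SA + n1 / 2 * ((m - 2) * Dt) := by
    have hw : ∀ w ∈ J.M, 2 * (m - 1) * ∑ z ∈ J.M, (J.l φ w z) ^ 2
        ≤ 2 * (m - 2 * J.k) ^ 2 * (J.A φ w) ^ 2
          + n1 / 2 * ∑ z ∈ J.M.erase w, ∑ z' ∈ J.M.erase w, J.D φ z z' := by
      intro w hw
      have h1 := var_id (J.M.erase w) (fun z => J.l φ w z)
      have e1 : ∑ z ∈ J.M.erase w, J.l φ w z = (m - 2 * J.k) * J.A φ w := by
        rw [Finset.sum_erase J.M (J.l_self φ w), J.sum_l h0 w]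
      have e2 : ∑ z ∈ J.M.erase w, (J.l φ w z) ^ 2 = ∑ z ∈ J.M, (J.l φ w z) ^ 2 := by
        apply Finset.sum_erase
        rw [J.l_self]
        norm_num
      have e3 : ((J.M.erase w).card : ℝ) = m - 1 := by
        rw [Finset.card_erase_of_mem hw, Nat.cast_sub (by omega)]
        simp [hm]
      rw [e1, e2, e3] at h1
      have h' : ∑ z ∈ J.M.erase w, ∑ z' ∈ J.M.erase w, (J.l φ w z - J.l φ w z') ^ 2
          ≤ n1 / 2 * ∑ z ∈ J.M.erase w, ∑ z' ∈ J.M.erase w, J.D φ z z' := by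
        rw [Finset.mul_sum]
        refine Finset.sum_le_sum fun z hz => ?_
        rw [Finset.mul_sum]
        exact Finset.sum_le_sum fun z' hz' => hl w hw z hz z' hz'
      rw [h1] at h'
      nlinarith [h']
    have hs := Finset.sum_le_sum hw
    rw [← Finset.mul_sum, Finset.sum_add_distrib, ← Finset.mul_sum, ← Finset.mul_sum,
      sum_erase_erase (fun a b => J.D φ a b) (fun a ha b hb => J.D_comm φ ha hb)
        (fun a ha => J.D_self φ ha)] at hs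
    exact hs
  -- arithmetic
  have hq : (m - 2 * J.k) ^ 2 ≤ (m - 2) ^ 2 := by
    apply sq_le_sq'
    · linarith
    · linarith
  have h5 : (m - 2 * J.k) ^ 2 * (2 * m * SA) ≤ (m - 2) ^ 2 * (n1 / 2 * Dt) := by
    have hmSA : 0 ≤ 2 * m * SA := by
      have : 0 ≤ m := by linarith
      positivity
    calc (m - 2 * J.k) ^ 2 * (2 * m * SA) ≤ (m - 2) ^ 2 * (2 * m * SA) :=
          mul_le_mul_of_nonneg_right hq hmSA
      _ ≤ (m - 2) ^ 2 * (n1 / 2 * Dt) := mul_le_mul_of_nonneg_left H1 (sq_nonneg _)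
  have hm1 : 0 < 2 * (m - 1) := by linarith
  have h6 : 2 * (m - 1) * (m * L) ≤ 2 * (m - 1) * ((m - 2) * N0 * Dt / 4) := by
    have hm0 : 0 ≤ m := by linarith
    have h7 := mul_le_mul_of_nonneg_left H2 hm0
    have h8 : N0 = 2 * n1 := by rw [hn1]; ring
    rw [h8]
    nlinarith [h7, h5]
  exact le_of_mul_le_mul_left h6 hm1

omit [Fintype W] in
/-- if some pair of free columns is switchable in some configuration then `1 ≤ k ≤ |M| - 1` -/
theorem k_range {a b : κ} (ha : a ∈ J.M) (hb : b ∈ J.M) {S : W} (hS : J.s S a ≠ J.s S b) :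
    1 ≤ J.k ∧ J.k + 1 ≤ J.M.card := by
  have hc := J.card S
  obtain ⟨p, hp, q, hq, hsp, hsq⟩ : ∃ p ∈ J.M, ∃ q ∈ J.M, J.s S p = true ∧ J.s S q = false := by
    cases h1 : J.s S a <;> cases h2 : J.s S b
    · rw [h1, h2] at hS; exact absurd rfl hS
    · exact ⟨b, hb, a, ha, h2, h1⟩
    · exact ⟨a, ha, b, hb, h1, h2⟩
    · rw [h1, h2] at hS; exact absurd rfl hS
  constructor
  · rw [← hc]
    exact Finset.card_pos.2 ⟨p, Finset.mem_filter.2 ⟨hp, hsp⟩⟩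
  · rw [← hc]
    apply Finset.card_lt_card
    refine ⟨Finset.filter_subset _ _, fun hsub => ?_⟩
    have := (Finset.mem_filter.1 (hsub hq)).2
    rw [hsq] at this
    exact absurd this (by simp)

/-- **Inequality (II)** for the abstract two-row fibre. -/
theorem two {φ : W → ℝ} (h0 : ∑ S, φ S = 0) (N0 : ℝ)
    (hN : ∀ w ∈ J.M, ∀ z ∈ J.M, w ≠ z → J.N w z = N0) :
    (J.M.card : ℝ) * ∑ w ∈ J.M, ∑ z ∈ J.M, (J.l φ w z) ^ 2
      ≤ ((J.M.card : ℝ) - 2) * N0 * (∑ w ∈ J.M, ∑ z ∈ J.M, J.D φ w z) / 4 := by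
  by_cases hex : ∃ a ∈ J.M, ∃ b ∈ J.M, ∃ S : W, J.s S a ≠ J.s S b
  · obtain ⟨a, ha, b, hb, S, hS⟩ := hex
    obtain ⟨hk1, hk2⟩ := J.k_range ha hb hS
    exact J.two_main h0 N0 hN hk1 hk2
  · push Not at hex
    have hchi : ∀ w ∈ J.M, ∀ z ∈ J.M, ∀ S, J.chi w z S = 0 := fun w hw z hz S => by
      unfold chi
      rw [if_neg (by simpa using hex w hw z hz S)]
    have hl : ∀ w ∈ J.M, ∀ z ∈ J.M, (J.l φ w z) ^ 2 = 0 := fun w hw z hz => by
      unfold l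
      simp [hchi w hw z hz]
    have hD : ∀ w ∈ J.M, ∀ z ∈ J.M, J.D φ w z = 0 := fun w hw z hz => by
      unfold D
      refine Finset.sum_eq_zero fun S _ => ?_
      rw [J.τ_fix hw hz (hex w hw z hz S)]
      norm_num
    rw [Finset.sum_eq_zero fun w hw => Finset.sum_eq_zero fun z hz => hl w hw z hz,
      Finset.sum_eq_zero fun w hw => Finset.sum_eq_zero fun z hz => hD w hw z hz]
    simp

/-- **Inequality (II), `K`-form** (with `x / 0 = 0`). -/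
theorem two_K {φ : W → ℝ} (h0 : ∑ S, φ S = 0) :
    ∑ w ∈ J.M, ∑ z ∈ J.M, (J.l φ w z) ^ 2 / J.N w z
      ≤ ((J.M.card : ℝ) - 2) / J.M.card * ∑ w ∈ J.M, ∑ z ∈ J.M, J.D φ w z / 4 := by
  have hD0 : 0 ≤ ∑ w ∈ J.M, ∑ z ∈ J.M, J.D φ w z / 4 :=
    Finset.sum_nonneg fun w _ => Finset.sum_nonneg fun z _ =>
      div_nonneg (J.D_nonneg _ _ _) (by norm_num)
  by_cases hex : ∃ a ∈ J.M, ∃ b ∈ J.M, a ≠ b ∧ J.N a b ≠ 0
  · obtain ⟨a, ha, b, hb, hab, hNab⟩ := hex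
    set N0 := J.N a b with hN0
    have hN : ∀ w ∈ J.M, ∀ z ∈ J.M, w ≠ z → J.N w z = N0 := fun w hw z hz hne =>
      J.N_eq hw hz ha hb hne hab
    have hb' := J.two h0 N0 hN
    have hpos : (0 : ℝ) < N0 := lt_of_le_of_ne (J.N_nonneg a b) (Ne.symm hNab)
    have hm : (0 : ℝ) < J.M.card := by
      have : 0 < J.M.card := Finset.card_pos.2 ⟨a, ha⟩
      exact_mod_cast this
    have h1 : ∀ w ∈ J.M, ∀ z ∈ J.M, (J.l φ w z) ^ 2 / J.N w z = (J.l φ w z) ^ 2 / N0 := by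
      intro w hw z hz
      by_cases hne : w = z
      · subst hne
        simp [J.l_self]
      · rw [hN w hw z hz hne]
    have h2 : ∑ w ∈ J.M, ∑ z ∈ J.M, (J.l φ w z) ^ 2 / J.N w z
        = (∑ w ∈ J.M, ∑ z ∈ J.M, (J.l φ w z) ^ 2) / N0 := by
      rw [Finset.sum_div]
      refine Finset.sum_congr rfl fun w hw => ?_
      rw [Finset.sum_div]
      exact Finset.sum_congr rfl fun z hz => h1 w hw z hz
    have h3 : ∑ w ∈ J.M, ∑ z ∈ J.M, J.D φ w z / 4 = (∑ w ∈ J.M, ∑ z ∈ J.M, J.D φ w z) / 4 := by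
      rw [Finset.sum_div]
      exact Finset.sum_congr rfl fun w _ => (Finset.sum_div _ _ _).symm
    rw [h2, h3, div_le_iff₀ hpos]
    have h4 : ((J.M.card : ℝ) - 2) / J.M.card * ((∑ w ∈ J.M, ∑ z ∈ J.M, J.D φ w z) / 4) * N0
        = (((J.M.card : ℝ) - 2) * N0 * (∑ w ∈ J.M, ∑ z ∈ J.M, J.D φ w z) / 4) / J.M.card := by
      field_simp
    rw [h4, le_div_iff₀ hm]
    linarith
  · push Not at hex
    have h1 : ∀ w ∈ J.M, ∀ z ∈ J.M, (J.l φ w z) ^ 2 / J.N w z = 0 := by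
      intro w hw z hz
      by_cases hne : w = z
      · subst hne
        simp [J.l_self]
      · rw [hex w hw z hz hne]
        simp
    rw [Finset.sum_eq_zero fun w hw => Finset.sum_eq_zero fun z hz => h1 w hw z hz]
    rcases Nat.lt_or_ge J.M.card 2 with hlt | hge
    · have h3 : ∑ w ∈ J.M, ∑ z ∈ J.M, J.D φ w z / 4 = 0 := by
        refine Finset.sum_eq_zero fun w hw => Finset.sum_eq_zero fun z hz => ?_
        have : w = z := Finset.card_le_one.1 (by omega) w hw z hz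
        subst this
        rw [J.D_self φ hw, zero_div]
      rw [h3, mul_zero]
    · have hm : (2 : ℝ) ≤ J.M.card := by exact_mod_cast hge
      apply mul_nonneg _ hD0
      apply div_nonneg <;> linarith

end Sys

end JAbs
end P335
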