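import Vale.Agent.Lib.P335.JohnsonGap
import Vale.Agent.Lib.P335.JohnsonTwo

/-!
# P335: the combined inequality (JS) for the abstract two-row fibre

For `φ : W → ℝ` with `∑ φ = 0`, `m = |M|`:
* `main` : `2 ∑ φ^2 ≤ ∑_{w,z ∈ M} (D w z / 4 - (l w z)^2 / N w z)`
  (inequality (II) = `Sys.two` of `JohnsonTwo.lean`, plus the sharp gap `Sys.gap` of `JohnsonGap.lean`).
-/

namespace P335
namespace JAbs

open Finset

set_option linter.unusedSectionVars false

variable {W κ : Type*} [DecidableEq κ] (J : Sys W κ) [Fintype W]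

namespace Sys

/-- **(JS)**: inequality (II) combined with the sharp gap -/
theorem main (φ : W → ℝ) (hφ : ∑ S, φ S = 0) :
    2 * ∑ S, φ S ^ 2 ≤ ∑ w ∈ J.M, ∑ z ∈ J.M, (J.D φ w z / 4 - J.l φ w z ^ 2 / J.N w z) := by
  set m : ℝ := (J.M.card : ℝ) with hm
  set T := ∑ w ∈ J.M, ∑ z ∈ J.M, J.D φ w z with hT
  set X := ∑ w ∈ J.M, ∑ z ∈ J.M, J.l φ w z ^ 2 with hX
  have hgap := J.gap φ hφ
  rw [← hm, ← hT] at hgap
  have hq0 : 0 ≤ ∑ S, φ S ^ 2 := Finset.sum_nonneg (fun S _ => sq_nonneg _)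
  have hsplit : ∀ N0 : ℝ, (∀ w ∈ J.M, ∀ z ∈ J.M, w ≠ z → J.N w z = N0) →
      ∑ w ∈ J.M, ∑ z ∈ J.M, (J.D φ w z / 4 - J.l φ w z ^ 2 / J.N w z) = T / 4 - X / N0 := by
    intro N0 hN
    rw [hT, hX, Finset.sum_div, Finset.sum_div, ← Finset.sum_sub_distrib]
    refine Finset.sum_congr rfl (fun w hw => ?_)
    rw [Finset.sum_div, Finset.sum_div, ← Finset.sum_sub_distrib]
    refine Finset.sum_congr rfl (fun z hz => ?_)
    by_cases hwz : w = z
    · rw [hwz, J.l_self]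
      norm_num
    · rw [hN w hw z hz hwz]
  rcases Nat.lt_or_ge J.M.card 2 with hm2 | hm2
  · have hone : ∀ w ∈ J.M, ∀ z ∈ J.M, w = z := Finset.card_le_one.1 (by omega)
    have hsub : ∀ S S' : W, S = S' := by
      intro S S'
      by_contra hne
      obtain ⟨x, hx, h1, h2⟩ := J.exists_pair_aux hne
      obtain ⟨y, hy, h3, h4⟩ := J.exists_pair_aux (Ne.symm hne)
      rw [hone x hx y hy, h4] at h1
      cases h1
    have hφ0 : ∀ S, φ S = 0 := by
      intro S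
      rw [← hφ]
      rw [Finset.sum_eq_single S (fun S' _ h => absurd (hsub S' S) h) (fun h => absurd (mem_univ S) h)]
    have hl : ∑ S, φ S ^ 2 = 0 := Finset.sum_eq_zero (fun S _ => by rw [hφ0 S]; norm_num)
    rw [hl, mul_zero]
    refine Finset.sum_nonneg (fun w hw => Finset.sum_nonneg (fun z hz => ?_))
    rw [hone w hw z hz, J.l_self, J.D_self φ hz]
    norm_num
  have hm2' : (2 : ℝ) ≤ m := by rw [hm]; exact_mod_cast hm2
  obtain ⟨w0, hw0, z0, hz0, hwz0⟩ := Finset.one_lt_card.1 (by omega : 1 < J.M.card)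
  have hN : ∀ w ∈ J.M, ∀ z ∈ J.M, w ≠ z → J.N w z = J.N w0 z0 :=
    fun w hw z hz hwz => J.N_eq hw hz hw0 hz0 hwz hwz0
  have hN0 := J.N_nonneg w0 z0
  rw [hsplit _ hN]
  have htwo := J.two hφ _ hN
  rw [← hm, ← hT, ← hX] at htwo
  rcases hN0.eq_or_lt with h0 | h0
  · rw [← h0, div_zero]
    nlinarith
  · have h1 : X / J.N w0 z0 ≤ (m - 2) * T / (4 * m) := by
      rw [div_le_div_iff₀ h0 (by linarith)]
      nlinarith
    have h2 : T / 4 - (m - 2) * T / (4 * m) = T / (2 * m) := by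
      field_simp
      ring
    have h3 : 2 * ∑ S, φ S ^ 2 ≤ T / (2 * m) := by
      rw [le_div_iff₀ (by linarith)]
      linarith
    linarith

end Sys

end JAbs
end P335
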