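import Vale.Agent.Lib.P335.Hilbert

/-!
# P335: the abstract two-row fibre (Johnson scheme)

`W` is one fibre of a two-row block: a configuration `S : W` is determined by the Boolean vector
`s S x`, `x ∈ M` (`M` = the free columns), the number of `true` entries is a constant `k`, and all
coordinate transpositions `τ w z` (`w z ∈ M`) act on `W`.

This file: the interface `Sys`, the quantities `D`, `l`, `N`, `A` and the two Cauchy-Schwarz estimates
`A_sub_sq`, `l_sub_sq`, and `N_eq` (the number of switchable configurations is the same for all pairs).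
-/

namespace P335
namespace JAbs

open Finset

/-- abstract two-row fibre -/
structure Sys (W κ : Type*) [DecidableEq κ] where
  /-- free columns -/
  M : Finset κ
  /-- the Boolean vector of a configuration -/
  s : W → κ → Bool
  /-- coordinate transpositions -/
  τ : κ → κ → W → W
  /-- number of `true` entries -/
  k : ℕ
  s_τ : ∀ w ∈ M, ∀ z ∈ M, ∀ S, ∀ x ∈ M, s (τ w z S) x = s S (Equiv.swap w z x)
  inj : ∀ S S', (∀ x ∈ M, s S x = s S' x) → S = S'
  card : ∀ S, (M.filter (fun x => s S x = true)).card = k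

variable {W κ : Type*} [DecidableEq κ] (J : Sys W κ)

namespace Sys

theorem swap_mem {w z x : κ} (hw : w ∈ J.M) (hz : z ∈ J.M) (hx : x ∈ J.M) :
    Equiv.swap w z x ∈ J.M := by
  rw [Equiv.swap_apply_def]
  split_ifs <;> assumption

theorem s_τ_τ {a b w z : κ} (ha : a ∈ J.M) (hb : b ∈ J.M) (hw : w ∈ J.M) (hz : z ∈ J.M) (S : W)
    {x : κ} (hx : x ∈ J.M) :
    J.s (J.τ a b (J.τ w z S)) x = J.s S (Equiv.swap w z (Equiv.swap a b x)) := by
  rw [J.s_τ a ha b hb _ x hx, J.s_τ w hw z hz _ _ (J.swap_mem ha hb hx)]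

theorem τ_self {w : κ} (hw : w ∈ J.M) (S : W) : J.τ w w S = S := by
  apply J.inj
  intro x hx
  rw [J.s_τ w hw w hw S x hx, Equiv.swap_self]
  rfl

theorem τ_comm {w z : κ} (hw : w ∈ J.M) (hz : z ∈ J.M) (S : W) : J.τ w z S = J.τ z w S := by
  apply J.inj
  intro x hx
  rw [J.s_τ w hw z hz S x hx, J.s_τ z hz w hw S x hx, Equiv.swap_comm]

theorem τ_τ {w z : κ} (hw : w ∈ J.M) (hz : z ∈ J.M) (S : W) : J.τ w z (J.τ w z S) = S := by
  apply J.inj
  intro x hx
  rw [J.s_τ_τ hw hz hw hz S hx, Equiv.swap_apply_self]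

theorem τ_fix {w z : κ} (hw : w ∈ J.M) (hz : z ∈ J.M) {S : W} (h : J.s S w = J.s S z) :
    J.τ w z S = S := by
  apply J.inj
  intro x hx
  rw [J.s_τ w hw z hz S x hx, Equiv.swap_apply_def]
  split_ifs with h1 h2
  · rw [h1, h]
  · rw [h2, h]
  · rfl

theorem s_τ_left {w z : κ} (hw : w ∈ J.M) (hz : z ∈ J.M) (S : W) :
    J.s (J.τ w z S) w = J.s S z := by
  rw [J.s_τ w hw z hz S w hw, Equiv.swap_apply_left]

theorem s_τ_right {w z : κ} (hw : w ∈ J.M) (hz : z ∈ J.M) (S : W) :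
    J.s (J.τ w z S) z = J.s S w := by
  rw [J.s_τ w hw z hz S z hz, Equiv.swap_apply_right]

theorem s_τ_of_ne {w z x : κ} (hw : w ∈ J.M) (hz : z ∈ J.M) (hx : x ∈ J.M) (h1 : x ≠ w)
    (h2 : x ≠ z) (S : W) : J.s (J.τ w z S) x = J.s S x := by
  rw [J.s_τ w hw z hz S x hx, Equiv.swap_apply_of_ne_of_ne h1 h2]

/-- `τ w z` as a permutation of `W` -/
def perm {w z : κ} (hw : w ∈ J.M) (hz : z ∈ J.M) : Equiv.Perm W where
  toFun := J.τ w z
  invFun := J.τ w z
  left_inv := J.τ_τ hw hz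
  right_inv := J.τ_τ hw hz

theorem sum_comp_τ [Fintype W] {w z : κ} (hw : w ∈ J.M) (hz : z ∈ J.M) (F : W → ℝ) :
    ∑ S, F (J.τ w z S) = ∑ S, F S :=
  Equiv.sum_comp (J.perm hw hz) F

/-- disjoint transpositions commute -/
theorem τ_comm_of_disjoint {a b w z : κ} (ha : a ∈ J.M) (hb : b ∈ J.M) (hw : w ∈ J.M)
    (hz : z ∈ J.M) (hwa : w ≠ a) (hwb : w ≠ b) (hza : z ≠ a) (hzb : z ≠ b) (S : W) :
    J.τ w z (J.τ a b S) = J.τ a b (J.τ w z S) := by
  apply J.inj
  intro x hx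
  rw [J.s_τ_τ hw hz ha hb S hx, J.s_τ_τ ha hb hw hz S hx]
  congr 1
  simp only [Equiv.swap_apply_def]
  split_ifs <;> simp_all


/-! ### the quantities -/

/-- indicator of `s S w` -/
def ind (w : κ) (S : W) : ℝ := if J.s S w = true then 1 else 0

/-- indicator of `s S w ≠ s S z` -/
def chi (w z : κ) (S : W) : ℝ := if J.s S w ≠ J.s S z then 1 else 0

theorem chi_eq (w z : κ) (S : W) :
    J.chi w z S = J.ind w S + J.ind z S - 2 * J.ind w S * J.ind z S := by
  unfold chi ind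
  cases J.s S w <;> cases J.s S z <;> norm_num

theorem ind_sq (w : κ) (S : W) : J.ind w S * J.ind w S = J.ind w S := by
  unfold ind
  split_ifs <;> norm_num

theorem chi_self (w : κ) (S : W) : J.chi w w S = 0 := by
  unfold chi
  simp

theorem chi_comm (w z : κ) (S : W) : J.chi w z S = J.chi z w S := by
  rw [chi_eq, chi_eq]
  ring

theorem chi_nonneg (w z : κ) (S : W) : 0 ≤ J.chi w z S := by
  unfold chi
  split_ifs <;> norm_num

theorem ind_τ_left {w z : κ} (hw : w ∈ J.M) (hz : z ∈ J.M) (S : W) :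
    J.ind w (J.τ w z S) = J.ind z S := by
  unfold ind
  rw [J.s_τ_left hw hz]

theorem ind_τ_right {w z : κ} (hw : w ∈ J.M) (hz : z ∈ J.M) (S : W) :
    J.ind z (J.τ w z S) = J.ind w S := by
  unfold ind
  rw [J.s_τ_right hw hz]

theorem ind_τ_of_ne {w z x : κ} (hw : w ∈ J.M) (hz : z ∈ J.M) (hx : x ∈ J.M) (h1 : x ≠ w)
    (h2 : x ≠ z) (S : W) : J.ind x (J.τ w z S) = J.ind x S := by
  unfold ind
  rw [J.s_τ_of_ne hw hz hx h1 h2]

theorem sum_ind (S : W) : ∑ x ∈ J.M, J.ind x S = J.k := by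
  unfold ind
  rw [← J.card S, Finset.card_filter]
  push_cast
  rfl

set_option linter.unusedSectionVars false

variable [Fintype W]

/-- Dirichlet form of the transposition `τ w z` -/
def D (φ : W → ℝ) (w z : κ) : ℝ := ∑ S, (φ S - φ (J.τ w z S)) ^ 2

/-- sum of `φ` over the configurations in which `w z` is switchable -/
def l (φ : W → ℝ) (w z : κ) : ℝ := ∑ S, J.chi w z S * φ S

/-- number of configurations in which `w z` is switchable -/
def N (w z : κ) : ℝ := ∑ S, J.chi w z S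

/-- sum of `φ` over the configurations containing `w` -/
def A (φ : W → ℝ) (w : κ) : ℝ := ∑ S, J.ind w S * φ S

theorem D_nonneg (φ : W → ℝ) (w z : κ) : 0 ≤ J.D φ w z :=
  Finset.sum_nonneg (fun _ _ => sq_nonneg _)

theorem N_nonneg (w z : κ) : 0 ≤ J.N w z :=
  Finset.sum_nonneg (fun _ _ => J.chi_nonneg _ _ _)

theorem D_self (φ : W → ℝ) {w : κ} (hw : w ∈ J.M) : J.D φ w w = 0 := by
  unfold D
  simp [J.τ_self hw]

theorem D_comm (φ : W → ℝ) {w z : κ} (hw : w ∈ J.M) (hz : z ∈ J.M) : J.D φ w z = J.D φ z w := by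
  unfold D
  simp only [J.τ_comm hw hz]

theorem l_self (φ : W → ℝ) (w : κ) : J.l φ w w = 0 := by
  unfold l
  simp [J.chi_self]

theorem N_comm (w z : κ) : J.N w z = J.N z w := by
  unfold N
  simp only [J.chi_comm w z]

/-- Cauchy-Schwarz for a weight that is antisymmetric under `τ w z` -/
theorem cs_anti {w z : κ} (hw : w ∈ J.M) (hz : z ∈ J.M) (ε φ : W → ℝ)
    (hε : ∀ S, ε (J.τ w z S) = - ε S) :
    4 * (∑ S, ε S * φ S) ^ 2 ≤ (∑ S, ε S ^ 2) * J.D φ w z := by
  have h1 : ∑ S, ε S * φ (J.τ w z S) = - ∑ S, ε S * φ S := by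
    rw [← J.sum_comp_τ hw hz (fun S => ε S * φ (J.τ w z S)), ← Finset.sum_neg_distrib]
    refine Finset.sum_congr rfl (fun S _ => ?_)
    rw [J.τ_τ hw hz, hε]
    ring
  have h2 : ∑ S, ε S * (φ S - φ (J.τ w z S)) = 2 * ∑ S, ε S * φ S := by
    simp only [mul_sub, Finset.sum_sub_distrib, h1]
    ring
  have h3 := Finset.sum_mul_sq_le_sq_mul_sq univ ε (fun S => φ S - φ (J.τ w z S))
  rw [h2] at h3
  unfold D
  linarith

theorem A_sub_sq (φ : W → ℝ) {w z : κ} (hw : w ∈ J.M) (hz : z ∈ J.M) :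
    4 * (J.A φ w - J.A φ z) ^ 2 ≤ J.N w z * J.D φ w z := by
  have h := J.cs_anti hw hz (fun S => J.ind w S - J.ind z S) φ (fun S => by
    rw [J.ind_τ_left hw hz, J.ind_τ_right hw hz]; ring)
  have e1 : ∑ S, (J.ind w S - J.ind z S) * φ S = J.A φ w - J.A φ z := by
    unfold A
    rw [← Finset.sum_sub_distrib]
    exact Finset.sum_congr rfl (fun S _ => by ring)
  have e2 : ∑ S, (J.ind w S - J.ind z S) ^ 2 = J.N w z := by
    unfold N
    refine Finset.sum_congr rfl (fun S _ => ?_)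
    rw [J.chi_eq]
    have h1 := J.ind_sq w S
    have h2 := J.ind_sq z S
    nlinarith
  rw [e1, e2] at h
  exact h

theorem chi_τ {w z z' : κ} (hw : w ∈ J.M) (hz : z ∈ J.M) (hz' : z' ∈ J.M) (h1 : w ≠ z)
    (h2 : w ≠ z') (S : W) : J.chi w z (J.τ z z' S) = J.chi w z' S := by
  rw [J.chi_eq, J.chi_eq, J.ind_τ_left hz hz', J.ind_τ_of_ne hz hz' hw h1 h2]

theorem chi_τ' {w z z' : κ} (hw : w ∈ J.M) (hz : z ∈ J.M) (hz' : z' ∈ J.M) (h1 : w ≠ z)
    (h2 : w ≠ z') (S : W) : J.chi w z' (J.τ z z' S) = J.chi w z S := by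
  rw [J.chi_eq, J.chi_eq, J.ind_τ_right hz hz', J.ind_τ_of_ne hz hz' hw h1 h2]

theorem l_sub_sq (φ : W → ℝ) {w z z' : κ} (hw : w ∈ J.M) (hz : z ∈ J.M) (hz' : z' ∈ J.M)
    (h1 : w ≠ z) (h2 : w ≠ z') :
    4 * (J.l φ w z - J.l φ w z') ^ 2 ≤ J.N z z' * J.D φ z z' := by
  have h := J.cs_anti hz hz' (fun S => J.chi w z S - J.chi w z' S) φ (fun S => by
    rw [J.chi_τ hw hz hz' h1 h2, J.chi_τ' hw hz hz' h1 h2]; ring)
  have e1 : ∑ S, (J.chi w z S - J.chi w z' S) * φ S = J.l φ w z - J.l φ w z' := by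
    unfold l
    rw [← Finset.sum_sub_distrib]
    exact Finset.sum_congr rfl (fun S _ => by ring)
  have e2 : ∑ S, (J.chi w z S - J.chi w z' S) ^ 2 = J.N z z' := by
    unfold N
    refine Finset.sum_congr rfl (fun S _ => ?_)
    unfold chi
    cases J.s S w <;> cases J.s S z <;> cases J.s S z' <;> norm_num
  rw [e1, e2] at h
  exact h

theorem N_eq_right {w z z' : κ} (hw : w ∈ J.M) (hz : z ∈ J.M) (hz' : z' ∈ J.M) (h1 : w ≠ z)
    (h2 : w ≠ z') : J.N w z = J.N w z' := by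
  unfold N
  rw [← J.sum_comp_τ hz hz' (fun S => J.chi w z S)]
  exact Finset.sum_congr rfl (fun S _ => J.chi_τ hw hz hz' h1 h2 S)

/-- the number of switchable configurations does not depend on the pair -/
theorem N_eq {w z w' z' : κ} (hw : w ∈ J.M) (hz : z ∈ J.M) (hw' : w' ∈ J.M) (hz' : z' ∈ J.M)
    (h : w ≠ z) (h' : w' ≠ z') : J.N w z = J.N w' z' := by
  by_cases h1 : w = z'
  · subst h1
    -- N w z = N w w' (or w' = z)
    rw [J.N_comm w' w]
    exact J.N_eq_right hw hz hw' h (Ne.symm h')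
  · rw [J.N_eq_right hw hz hz' h h1, J.N_comm w z', J.N_comm w' z']
    exact J.N_eq_right hz' hw hw' (Ne.symm h1) (Ne.symm h')

end Sys

end JAbs
end P335
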