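import Vale.Agent.Lib.P335.JohnsonAbs

/-!
# P335: the sharp spectral gap of the abstract two-row fibre (Johnson scheme)

`gap`: for `φ : W → ℝ` with `∑ φ = 0`:  `4 |M| ∑ φ^2 ≤ ∑_{w,z ∈ M} D φ w z`.

Proof: maximum principle.  If `L v = λ v`, `L v S = ∑_{w,z ∈ M} (v S - v (τ w z S))`, take `S, a, b` maximising
`δ = v S - v (τ a b S)`.  Comparing `L v` at `S` and `S' = τ a b S`: the moves `(a,b), (b,a)` give `2 δ` each, the
four moves through `x ∉ {a,b}` give `2 δ`, the moves disjoint from `{a,b}` give something nonnegative.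
-/

namespace P335
namespace JAbs

open Finset

set_option linter.unusedSectionVars false

variable {W κ : Type*} [DecidableEq κ] (J : Sys W κ)

namespace Sys

/-! ### connectivity -/

theorem exists_pair_aux {S S' : W} (h : S ≠ S') :
    ∃ x ∈ J.M, J.s S x = true ∧ J.s S' x = false := by
  by_contra hcon
  push Not at hcon
  apply h
  have hsub : J.M.filter (fun x => J.s S x = true) ⊆ J.M.filter (fun x => J.s S' x = true) := by
    intro x hx
    rw [mem_filter] at hx ⊢
    refine ⟨hx.1, ?_⟩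
    have := hcon x hx.1 hx.2
    simpa using this
  have heq := Finset.eq_of_subset_of_card_le hsub (by rw [J.card S, J.card S'])
  apply J.inj
  intro x hx
  have h1 : x ∈ J.M.filter (fun x => J.s S x = true) ↔ x ∈ J.M.filter (fun x => J.s S' x = true) := by
    rw [heq]
  simp only [mem_filter, hx, true_and] at h1
  cases h2 : J.s S x <;> cases h3 : J.s S' x <;> simp_all

theorem const_of_inv (v : W → ℝ) (hv : ∀ a ∈ J.M, ∀ b ∈ J.M, ∀ S, v (J.τ a b S) = v S) :
    ∀ S S', v S = v S' := by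
  intro S S'
  induction' hn : (J.M.filter (fun x => J.s S x ≠ J.s S' x)).card using Nat.strong_induction_on
    with n ih generalizing S
  by_cases hSS : S = S'
  · rw [hSS]
  obtain ⟨x, hx, h1, h2⟩ := J.exists_pair_aux hSS
  obtain ⟨y, hy, h4, h3⟩ := J.exists_pair_aux (Ne.symm hSS)
  rw [← hv x hx y hy S]
  refine ih _ ?_ _ rfl
  rw [← hn]
  apply Finset.card_lt_card
  rw [Finset.ssubset_iff_of_subset]
  · refine ⟨x, ?_, ?_⟩
    · rw [mem_filter]
      exact ⟨hx, by rw [h1, h2]; simp⟩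
    · rw [mem_filter, J.s_τ_left hx hy, h3, h2]
      simp
  · intro u hu
    rw [mem_filter] at hu ⊢
    refine ⟨hu.1, ?_⟩
    by_cases hux : u = x
    · rw [hux, h1, h2]; simp
    by_cases huy : u = y
    · rw [huy, h3, h4]; simp
    rw [J.s_τ_of_ne hx hy hu.1 hux huy] at hu
    exact hu.2

/-! ### three-point identities -/

theorem τ_three {a b x : κ} (ha : a ∈ J.M) (hb : b ∈ J.M) (hx : x ∈ J.M) (hab : a ≠ b)
    (hxa : x ≠ a) (hxb : x ≠ b) {S : W} (h : J.s S x = J.s S a) :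
    J.τ a x (J.τ a b S) = J.τ b x S := by
  apply J.inj
  intro y hy
  rw [J.s_τ_τ ha hx ha hb S hy, J.s_τ b hb x hx S y hy]
  by_cases h1 : y = a
  · subst h1
    rw [Equiv.swap_apply_left, Equiv.swap_apply_of_ne_of_ne hxa hxb,
      Equiv.swap_apply_of_ne_of_ne hab (Ne.symm hxa), h]
  by_cases h2 : y = b
  · subst h2
    rw [Equiv.swap_apply_of_ne_of_ne h1 (Ne.symm hxb), Equiv.swap_apply_right,
      Equiv.swap_apply_left, h]
  by_cases h3 : y = x
  · subst h3
    rw [Equiv.swap_apply_right, Equiv.swap_apply_left, Equiv.swap_apply_right]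
  rw [Equiv.swap_apply_of_ne_of_ne h1 h3, Equiv.swap_apply_of_ne_of_ne h1 h2,
    Equiv.swap_apply_of_ne_of_ne h2 h3]

/-- the four moves through a third point -/
theorem third_point (v : W → ℝ) {a b x : κ} (ha : a ∈ J.M) (hb : b ∈ J.M) (hx : x ∈ J.M)
    (hxa : x ≠ a) (hxb : x ≠ b) {S : W} (hab : J.s S a ≠ J.s S b) :
    ((v S - v (J.τ a x S)) - (v (J.τ a b S) - v (J.τ a x (J.τ a b S)))) +
      ((v S - v (J.τ b x S)) - (v (J.τ a b S) - v (J.τ b x (J.τ a b S)))) =
      v S - v (J.τ a b S) := by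
  have hne : a ≠ b := by
    rintro rfl
    exact hab rfl
  have hcase : J.s S x = J.s S a ∨ J.s S x = J.s S b := by
    cases h1 : J.s S x <;> cases h2 : J.s S a <;> cases h3 : J.s S b <;> simp_all
  rcases hcase with h | h
  · have e1 : J.τ a x S = S := J.τ_fix ha hx h.symm
    have e2 : J.τ b x (J.τ a b S) = J.τ a b S := by
      apply J.τ_fix hb hx
      rw [J.s_τ_right ha hb, J.s_τ_of_ne ha hb hx hxa hxb, h]
    rw [e1, e2, J.τ_three ha hb hx hne hxa hxb h]
    ring
  · have e1 : J.τ b x S = S := J.τ_fix hb hx h.symm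
    have e2 : J.τ a x (J.τ a b S) = J.τ a b S := by
      apply J.τ_fix ha hx
      rw [J.s_τ_left ha hb, J.s_τ_of_ne ha hb hx hxa hxb, h]
    have e3 : J.τ b x (J.τ a b S) = J.τ a x S := by
      rw [J.τ_comm ha hb]
      exact J.τ_three hb ha hx (Ne.symm hne) hxb hxa h
    rw [e1, e2, e3]
    ring


/-! ### the generator -/

variable [Fintype W]

/-- the generator `L φ S = ∑_{w,z ∈ M} (φ S - φ (τ w z S))` -/
def Lop : (W → ℝ) →ₗ[ℝ] (W → ℝ) where
  toFun φ := fun S => ∑ w ∈ J.M, ∑ z ∈ J.M, (φ S - φ (J.τ w z S))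
  map_add' f g := by
    funext S
    simp only [Pi.add_apply, ← Finset.sum_add_distrib]
    exact Finset.sum_congr rfl (fun w _ => Finset.sum_congr rfl (fun z _ => by ring))
  map_smul' c f := by
    funext S
    simp only [Pi.smul_apply, smul_eq_mul, RingHom.id_apply, Finset.mul_sum]
    exact Finset.sum_congr rfl (fun w _ => Finset.sum_congr rfl (fun z _ => by ring))

theorem Lop_apply (φ : W → ℝ) (S : W) :
    J.Lop φ S = ∑ w ∈ J.M, ∑ z ∈ J.M, (φ S - φ (J.τ w z S)) := rfl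

theorem half_form {w z : κ} (hw : w ∈ J.M) (hz : z ∈ J.M) (f g : W → ℝ) :
    ∑ S, (f S - f (J.τ w z S)) * g S =
      (1 / 2) * ∑ S, (f S - f (J.τ w z S)) * (g S - g (J.τ w z S)) := by
  have h1 : ∑ S, (f S - f (J.τ w z S)) * g (J.τ w z S) = - ∑ S, (f S - f (J.τ w z S)) * g S := by
    rw [← J.sum_comp_τ hw hz (fun S => (f S - f (J.τ w z S)) * g (J.τ w z S)),
      ← Finset.sum_neg_distrib]
    refine Finset.sum_congr rfl (fun S _ => ?_)
    rw [J.τ_τ hw hz]
    ring
  have h2 : ∑ S, (f S - f (J.τ w z S)) * (g S - g (J.τ w z S)) =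
      ∑ S, (f S - f (J.τ w z S)) * g S - ∑ S, (f S - f (J.τ w z S)) * g (J.τ w z S) := by
    rw [← Finset.sum_sub_distrib]
    exact Finset.sum_congr rfl (fun S _ => by ring)
  rw [h2, h1]
  ring

theorem dot_Lop (f g : W → ℝ) :
    dot (J.Lop f) g = (1 / 2) * ∑ w ∈ J.M, ∑ z ∈ J.M,
      ∑ S, (f S - f (J.τ w z S)) * (g S - g (J.τ w z S)) := by
  unfold dot
  simp only [Lop_apply, Finset.sum_mul]
  rw [Finset.sum_comm, Finset.mul_sum]
  refine Finset.sum_congr rfl (fun w hw => ?_)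
  rw [Finset.sum_comm, Finset.mul_sum]
  refine Finset.sum_congr rfl (fun z hz => ?_)
  exact J.half_form hw hz f g

theorem Lop_symm (f g : W → ℝ) : dot (J.Lop f) g = dot f (J.Lop g) := by
  rw [dot_comm f, dot_Lop, dot_Lop]
  congr 1
  exact Finset.sum_congr rfl (fun w _ => Finset.sum_congr rfl (fun z _ =>
    Finset.sum_congr rfl (fun S _ => mul_comm _ _)))

theorem dot_Lop_self (φ : W → ℝ) :
    dot (J.Lop φ) φ = (1 / 2) * ∑ w ∈ J.M, ∑ z ∈ J.M, J.D φ w z := by
  rw [dot_Lop]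
  congr 1
  refine Finset.sum_congr rfl (fun w _ => Finset.sum_congr rfl (fun z _ => ?_))
  unfold D
  exact Finset.sum_congr rfl (fun S _ => by ring)

theorem sum_Lop (φ : W → ℝ) : ∑ S, J.Lop φ S = 0 := by
  simp only [Lop_apply]
  rw [Finset.sum_comm]
  refine Finset.sum_eq_zero (fun w hw => ?_)
  rw [Finset.sum_comm]
  refine Finset.sum_eq_zero (fun z hz => ?_)
  rw [Finset.sum_sub_distrib, J.sum_comp_τ hw hz, sub_self]

/-- splitting off two points of a sum -/
theorem sum_split {a b : κ} (ha : a ∈ J.M) (hb : b ∈ J.M) (hab : a ≠ b) (F : κ → ℝ) :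
    ∑ w ∈ J.M, F w = F a + F b + ∑ w ∈ (J.M.erase a).erase b, F w := by
  rw [← Finset.add_sum_erase J.M F ha,
    ← Finset.add_sum_erase (J.M.erase a) F (Finset.mem_erase.2 ⟨Ne.symm hab, hb⟩)]
  ring

theorem card_split {a b : κ} (ha : a ∈ J.M) (hb : b ∈ J.M) (hab : a ≠ b) :
    (J.M.card : ℝ) = 2 + (((J.M.erase a).erase b).card : ℝ) := by
  have h := J.sum_split ha hb hab (fun _ => (1 : ℝ))
  simp only [Finset.sum_const, nsmul_eq_mul, mul_one] at h
  linarith

/-- **maximum principle**: a non-invariant eigenfunction has eigenvalue at least `2 |M|` -/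
theorem eig_ge (v : W → ℝ) (lam : ℝ) (hv : J.Lop v = lam • v)
    (hnc : ∃ a ∈ J.M, ∃ b ∈ J.M, ∃ S, v (J.τ a b S) ≠ v S) : 2 * (J.M.card : ℝ) ≤ lam := by
  obtain ⟨a0, ha0, b0, hb0, S0, hS0⟩ := hnc
  obtain ⟨⟨S, a, b⟩, hmem, hmax⟩ := Finset.exists_max_image
    ((univ : Finset W) ×ˢ J.M ×ˢ J.M) (fun p => v p.1 - v (J.τ p.2.1 p.2.2 p.1))
    ⟨(S0, a0, b0), by simp [ha0, hb0]⟩
  simp only [mem_product, mem_univ, true_and] at hmem
  obtain ⟨ha, hb⟩ := hmem
  have hmax' : ∀ T : W, ∀ p ∈ J.M, ∀ q ∈ J.M, v T - v (J.τ p q T) ≤ v S - v (J.τ a b S) := by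
    intro T p hp q hq
    exact hmax (T, p, q) (by simp [hp, hq])
  set δ := v S - v (J.τ a b S) with hδ
  have hδpos : 0 < δ := by
    rcases lt_or_gt_of_ne hS0 with h | h
    · have := hmax' S0 a0 ha0 b0 hb0
      linarith
    · have := hmax' (J.τ a0 b0 S0) a0 ha0 b0 hb0
      rw [J.τ_τ ha0 hb0] at this
      linarith
  have hsab : J.s S a ≠ J.s S b := by
    intro h
    rw [hδ, J.τ_fix ha hb h, sub_self] at hδpos
    exact lt_irrefl _ hδpos
  have hab : a ≠ b := by
    rintro rfl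
    exact hsab rfl
  set S' := J.τ a b S with hS'
  set G : κ → κ → ℝ := fun w z => (v S - v (J.τ w z S)) - (v S' - v (J.τ w z S')) with hG
  have hGcomm : ∀ w ∈ J.M, ∀ z ∈ J.M, G w z = G z w := by
    intro w hw z hz
    simp only [hG, J.τ_comm hw hz]
  have hsum : ∑ w ∈ J.M, ∑ z ∈ J.M, G w z = lam * δ := by
    have h1 : J.Lop v S - J.Lop v S' = lam * δ := by
      rw [hv]
      simp only [Pi.smul_apply, smul_eq_mul]
      ring
    rw [← h1, Lop_apply, Lop_apply, ← Finset.sum_sub_distrib]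
    exact Finset.sum_congr rfl (fun w _ => by rw [← Finset.sum_sub_distrib])
  set M' := (J.M.erase a).erase b with hM'
  have hM'mem : ∀ x ∈ M', x ∈ J.M ∧ x ≠ a ∧ x ≠ b := by
    intro x hx
    rw [hM', Finset.mem_erase, Finset.mem_erase] at hx
    exact ⟨hx.2.2, hx.2.1, hx.1⟩
  have hGaa : G a a = 0 := by simp only [hG, J.τ_self ha]; ring
  have hGbb : G b b = 0 := by simp only [hG, J.τ_self hb]; ring
  have hGab : G a b = 2 * δ := by
    simp only [hG]
    rw [hS', J.τ_τ ha hb]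
    ring
  have hGba : G b a = 2 * δ := by rw [← hGcomm a ha b hb, hGab]
  have hG3 : ∀ x ∈ M', G a x + G b x = δ := by
    intro x hx
    obtain ⟨hxM, hxa, hxb⟩ := hM'mem x hx
    exact J.third_point v ha hb hxM hxa hxb hsab
  have hG4 : ∀ w ∈ M', ∀ z ∈ M', 0 ≤ G w z := by
    intro w hw z hz
    obtain ⟨hwM, hwa, hwb⟩ := hM'mem w hw
    obtain ⟨hzM, hza, hzb⟩ := hM'mem z hz
    have h1 := hmax' (J.τ w z S) a ha b hb
    simp only [hG]
    rw [hS', J.τ_comm_of_disjoint ha hb hwM hzM hwa hwb hza hzb]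
    linarith
  have hRa : ∑ z ∈ J.M, G a z + ∑ z ∈ J.M, G b z = 4 * δ + (M'.card : ℝ) * δ := by
    rw [J.sum_split ha hb hab (G a), J.sum_split ha hb hab (G b), hGaa, hGab, hGba, hGbb]
    have : ∑ z ∈ M', G a z + ∑ z ∈ M', G b z = (M'.card : ℝ) * δ := by
      rw [← Finset.sum_add_distrib, Finset.sum_congr rfl hG3, Finset.sum_const, nsmul_eq_mul]
    linarith
  have hRw : (M'.card : ℝ) * δ ≤ ∑ w ∈ M', ∑ z ∈ J.M, G w z := by
    have : ∀ w ∈ M', δ ≤ ∑ z ∈ J.M, G w z := by
      intro w hw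
      obtain ⟨hwM, -, -⟩ := hM'mem w hw
      rw [J.sum_split ha hb hab (G w), hGcomm w hwM a ha, hGcomm w hwM b hb, hG3 w hw]
      have := Finset.sum_nonneg (fun z hz => hG4 w hw z hz)
      linarith
    calc (M'.card : ℝ) * δ = ∑ w ∈ M', δ := by rw [Finset.sum_const, nsmul_eq_mul]
      _ ≤ _ := Finset.sum_le_sum this
  have htot : 2 * (J.M.card : ℝ) * δ ≤ lam * δ := by
    rw [← hsum, J.sum_split ha hb hab (fun w => ∑ z ∈ J.M, G w z), J.card_split ha hb hab]
    nlinarith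
  exact le_of_mul_le_mul_right htot hδpos

/-- the rank one operator `f ↦ (∑ f) 1` -/
def Jop : (W → ℝ) →ₗ[ℝ] (W → ℝ) where
  toFun φ := fun _ => ∑ S, φ S
  map_add' f g := by
    funext S
    simp only [Pi.add_apply, Finset.sum_add_distrib]
  map_smul' c f := by
    funext S
    simp only [Pi.smul_apply, smul_eq_mul, RingHom.id_apply, Finset.mul_sum]

theorem dot_Jop (f g : W → ℝ) : dot (Jop f) g = (∑ S, f S) * ∑ S, g S := by
  unfold dot Jop
  simp only [LinearMap.coe_mk, AddHom.coe_mk]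
  rw [Finset.mul_sum]

/-- **sharp spectral gap of the two-row fibre** -/
theorem gap (φ : W → ℝ) (hφ : ∑ S, φ S = 0) :
    4 * (J.M.card : ℝ) * ∑ S, φ S ^ 2 ≤ ∑ w ∈ J.M, ∑ z ∈ J.M, J.D φ w z := by
  rcases isEmpty_or_nonempty W with hW | hW
  · simp only [Finset.univ_eq_empty, Finset.sum_empty, mul_zero]
    exact Finset.sum_nonneg (fun w _ => Finset.sum_nonneg (fun z _ => J.D_nonneg φ w z))
  have hcard : (0 : ℝ) < (Fintype.card W : ℝ) := by exact_mod_cast Fintype.card_pos
  set m : ℝ := (J.M.card : ℝ) with hm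
  set c : ℝ := 2 * m / (Fintype.card W : ℝ) with hc
  set T : (W → ℝ) →ₗ[ℝ] (W → ℝ) := - (c • Jop) - J.Lop with hT
  have hTapp : ∀ f : W → ℝ, ∀ S, T f S = - (c * ∑ S, f S) - J.Lop f S := by
    intro f S
    rfl
  have hTdot : ∀ f g : W → ℝ, dot (T f) g = - (c * ((∑ S, f S) * ∑ S, g S)) - dot (J.Lop f) g := by
    intro f g
    have : T f = - (c • Jop f) - J.Lop f := rfl
    rw [this, dot_sub_left, ← neg_smul, dot_smul_left, dot_Jop]
    ring
  have hsym : ∀ f g, dot (T f) g = dot f (T g) := by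
    intro f g
    rw [dot_comm f, hTdot, hTdot, J.Lop_symm f g, dot_comm f]
    ring
  have heig : ∀ (μ : ℝ) (v : W → ℝ), v ≠ 0 → T v = μ • v → μ ≤ - (2 * m) := by
    intro μ v hv0 hTv
    have hs : - (2 * m) * ∑ S, v S = μ * ∑ S, v S := by
      have h1 : ∑ S, T v S = μ * ∑ S, v S := by
        rw [hTv, Finset.mul_sum]
        rfl
      rw [← h1]
      simp only [hTapp, Finset.sum_sub_distrib, J.sum_Lop, Finset.sum_const, Finset.card_univ,
        nsmul_eq_mul, sub_zero]
      rw [hc]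
      field_simp
    by_cases hσ : ∑ S, v S = 0
    · have hL : J.Lop v = (-μ) • v := by
        funext S
        have := congrFun hTv S
        rw [hTapp, hσ] at this
        simp only [Pi.smul_apply, smul_eq_mul] at this ⊢
        linarith
      have hnc : ∃ a ∈ J.M, ∃ b ∈ J.M, ∃ S, v (J.τ a b S) ≠ v S := by
        by_contra hcon
        push Not at hcon
        have hconst := J.const_of_inv v hcon
        apply hv0
        funext S
        have h2 : ∑ S', v S' = (Fintype.card W : ℝ) * v S := by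
          rw [Finset.sum_congr rfl (fun S' _ => hconst S' S), Finset.sum_const, Finset.card_univ,
            nsmul_eq_mul]
        rw [hσ] at h2
        have := mul_eq_zero.1 h2.symm
        rcases this with h | h
        · exact absurd h hcard.ne'
        · exact h
      have := J.eig_ge v (-μ) hL hnc
      linarith
    · have := mul_right_cancel₀ hσ hs
      linarith
  have hmain := dot_le_of_eigen T hsym (- (2 * m)) heig φ
  rw [hTdot, hφ, J.dot_Lop_self] at hmain
  have hdd : dot φ φ = ∑ S, φ S ^ 2 := by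
    unfold dot
    exact Finset.sum_congr rfl (fun S _ => by ring)
  rw [hdd] at hmain
  linarith

end Sys

end JAbs
end P335
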