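import Vale.Agent.Lib.P335.ClassI
import Vale.Agent.Lib.P335.ClassII

/-!
# P335: three-row lemma, step 2: invariance under all transpositions of free columns
-/

namespace P335

open Finset

set_option linter.unusedSectionVars false

variable {ι κ : Type*} [Fintype ι] [Fintype κ] [DecidableEq ι] [DecidableEq κ]
variable {r : ι → ℕ} {c : κ → ℕ}

/-- the second fibre splits into four classes -/
theorem Ctx.split4 {T : Finset ι} {C : Finset κ} {x e e' : ι} {p q : κ} {X Y : Mat r c}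
    (h : Ctx T C x e e' p q X Y) (φ : Mat r c → ℝ) :
    ∑ Z' ∈ cls (AgreeOff (T.erase x) C) Y, φ Z'
      = ∑ Z' ∈ (cls (AgreeOff (T.erase x) C) Y).filter
          (fun Z' => Z'.1 e p = true ∧ Z'.1 e q = false), φ Z'
        + ∑ Z' ∈ (cls (AgreeOff (T.erase x) C) Y).filter
          (fun Z' => Z'.1 e p = true ∧ Z'.1 e q = true), φ Z'
        + ∑ Z' ∈ (cls (AgreeOff (T.erase x) C) Y).filter
          (fun Z' => Z'.1 e' p = true ∧ Z'.1 e' q = false), φ Z'
        + ∑ Z' ∈ (cls (AgreeOff (T.erase x) C) Y).filter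
          (fun Z' => Z'.1 e' p = true ∧ Z'.1 e' q = true), φ Z' := by
  rw [Finset.sum_filter, Finset.sum_filter, Finset.sum_filter, Finset.sum_filter,
    ← Finset.sum_add_distrib, ← Finset.sum_add_distrib, ← Finset.sum_add_distrib]
  refine Finset.sum_congr rfl (fun Z' hZ' => ?_)
  obtain ⟨-, -, h3, h4⟩ := h.factF' (mem_cls.1 hZ')
  revert h3 h4
  cases Z'.1 e p <;> cases Z'.1 e' p <;> cases Z'.1 e q <;> cases Z'.1 e' q <;> simp

theorem step2_core {T : Finset ι} {C : Finset κ} {x e e' : ι} {p q : κ} {X Y : Mat r c}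
    (h : Ctx T C x e e' p q X Y) {g : ι → Mat r c → ℝ} {δ : ℝ} (hg : Hyp T C g δ) :
    |avg (AgreeOff (T.erase x) C) (∑ y ∈ T.erase x, g y) X
      - avg (AgreeOff (T.erase x) C) (∑ y ∈ T.erase x, g y) Y| ≤ δ := by
  rw [h.tri.sum_erase]
  set F := cls (AgreeOff (r := r) (c := c) (T.erase x) C) X with hF
  set F' := cls (AgreeOff (r := r) (c := c) (T.erase x) C) Y with hF'
  set m := (∑ Z ∈ F, (g e + g e') Z) / (F.card : ℝ) with hm
  have hcard : (0 : ℝ) < (F'.card : ℝ) := by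
    have := (cls_nonempty (agreeOff_equiv (r := r) (c := c) (T.erase x) C) Y).card_pos
    exact_mod_cast this
  have b1 := classI_bound h hg
  have b2 := classII_bound h hg
  have b3 := classI_bound h.swap hg
  have b4 := classII_bound h.swap hg
  rw [add_comm (g e') (g e)] at b3 b4
  rw [← hF, ← hF', ← hm] at b1 b2 b3 b4
  have s1 := h.split4 (fun Z' => (g e + g e') Z' - m)
  have s2 := h.split4 (fun _ => (1 : ℝ))
  rw [← hF'] at s1 s2
  simp only [Finset.sum_const, nsmul_eq_mul, mul_one] at s2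
  have h5 : |∑ Z' ∈ F', ((g e + g e') Z' - m)| ≤ (F'.card : ℝ) * δ := by
    rw [s1, s2]
    refine le_trans (abs_add_le _ _) ?_
    refine le_trans (add_le_add (abs_add_le _ _) (le_refl _)) ?_
    refine le_trans (add_le_add (add_le_add (abs_add_le _ _) (le_refl _)) (le_refl _)) ?_
    nlinarith [b1, b2, b3, b4]
  have h6 : avg (AgreeOff (T.erase x) C) (g e + g e') Y - m
      = (∑ Z' ∈ F', ((g e + g e') Z' - m)) / (F'.card : ℝ) := by
    rw [Finset.sum_sub_distrib, Finset.sum_const, nsmul_eq_mul]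
    unfold avg
    rw [← hF']
    field_simp
  have h7 : avg (AgreeOff (T.erase x) C) (g e + g e') X = m := rfl
  rw [h7, abs_sub_comm, h6, abs_div, abs_of_pos hcard, div_le_iff₀ hcard]
  linarith

/-- **Step 2**: `g x` is invariant under transposing, in row `x`, any two free columns. -/
theorem step2 {T : Finset ι} (hT : T.card = 3) {C : Finset κ} {μ : ℝ} (hμ : 1 < μ)
    {g : ι → Mat r c → ℝ} (hg : EigSys T C μ g) {x : ι} (hx : x ∈ T) {X Y : Mat r c}
    (hXY : AgreeOff T C X Y) {p q : κ} (hp : p ∈ C) (hq : q ∈ C)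
    (hrow : ∀ w, Y.1 x w = X.1 x (Equiv.swap p q w)) :
    g x X = g x Y := by
  classical
  let P := {π : ι × Mat r c × Mat r c // π.1 ∈ T ∧ AgreeOff T C π.2.1 π.2.2 ∧
    ∃ p ∈ C, ∃ q ∈ C, ∀ w, π.2.2.1 π.1 w = π.2.1.1 π.1 (Equiv.swap p q w)}
  have key := max_principle (P := P) (fun π => g π.1.1 π.1.2.1 - g π.1.1 π.1.2.2) μ hμ ?_
    ⟨(x, X, Y), hx, hXY, p, hp, q, hq, hrow⟩
  · exact sub_eq_zero.1 key
  intro δ hδ
  have hyp : Hyp T C g δ :=
    { inv := hg.1
      bound := fun y hy Z Z' hZZ' a ha b hb hr => hδ ⟨(y, Z, Z'), hy, hZZ', a, ha, b, hb, hr⟩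
      same := fun y hy Z Z' hZZ' a ha b hb hs hr => step1 hT hμ hg hy hZZ' ha hb hs hr }
  -- the oriented case
  have main : ∀ (x : ι) (X Y : Mat r c) (p q : κ), x ∈ T → AgreeOff T C X Y → p ∈ C → q ∈ C →
      (∀ w, Y.1 x w = X.1 x (Equiv.swap p q w)) → X.1 x p = true → X.1 x q = false →
      μ * |g x X - g x Y| ≤ δ := by
    intro x X Y p q hx hXY hp hq hrow hxp hxq
    have hδ0 : 0 ≤ δ := le_trans (abs_nonneg _) (hδ ⟨(x, X, Y), hx, hXY, p, hp, q, hq, hrow⟩)
    obtain ⟨e, e', htri⟩ := exists_tri hT hx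
    have hμ0 : 0 ≤ μ := by linarith
    by_cases hs : tsum T X.1 p = tsum T X.1 q
    · rw [step1 hT hμ hg hx hXY hp hq hs hrow, sub_self, abs_zero, mul_zero]
      exact hδ0
    have hyp' : Y.1 x p = false := by rw [hrow, Equiv.swap_apply_left]; exact hxq
    have hyq' : Y.1 x q = true := by rw [hrow, Equiv.swap_apply_right]; exact hxp
    have t1 := htri.tsum X.1 p
    have t2 := htri.tsum X.1 q
    have t3 := htri.tsum Y.1 p
    have t4 := htri.tsum Y.1 q
    rw [← tsum_eq_of_agreeOff hXY] at t3 t4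
    rw [hxp] at t1
    rw [hxq] at t2
    rw [hyp'] at t3
    rw [hyq'] at t4
    have u1 : ∀ b : Bool, b.toNat ≤ 1 := fun b => by cases b <;> simp
    have c1 := u1 (X.1 e p)
    have c2 := u1 (X.1 e' p)
    have c3 := u1 (X.1 e q)
    have c4 := u1 (X.1 e' q)
    have c5 := u1 (Y.1 e p)
    have c6 := u1 (Y.1 e' p)
    have c7 := u1 (Y.1 e q)
    have c8 := u1 (Y.1 e' q)
    simp only [Bool.toNat_true, Bool.toNat_false] at t1 t2 t3 t4
    rw [← abs_of_nonneg hμ0, ← abs_mul, mul_sub, hg.2 x hx X, hg.2 x hx Y]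
    have hcases : (tsum T X.1 p = 1 ∧ tsum T X.1 q = 2) ∨ (tsum T X.1 p = 2 ∧ tsum T X.1 q = 1) := by
      omega
    rcases hcases with ⟨hsp, hsq⟩ | ⟨hsp, hsq⟩
    · exact step2_core (⟨htri, hp, hq, hXY, hxp, hxq, hrow, hsp, hsq⟩ : Ctx T C x e e' p q X Y) hyp
    · rw [abs_sub_comm]
      refine step2_core (⟨htri, hq, hp, (agreeOff_equiv T C).symm hXY, hyq', hyp', ?_, ?_, ?_⟩ :
        Ctx T C x e e' q p Y X) hyp
      · intro w
        rw [hrow, Equiv.swap_comm q p, Equiv.swap_apply_self]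
      · rw [← tsum_eq_of_agreeOff hXY]; exact hsq
      · rw [← tsum_eq_of_agreeOff hXY]; exact hsp
  rintro ⟨⟨x, X, Y⟩, hx, hXY, p, hp, q, hq, hrow⟩
  simp only
  have hδ0 : 0 ≤ δ := le_trans (abs_nonneg _) (hδ ⟨(x, X, Y), hx, hXY, p, hp, q, hq, hrow⟩)
  by_cases hpq : X.1 x p = X.1 x q
  · have : g x X = g x Y := hg.eq_of_row hx hXY (fun w => by rw [hrow, row_swap_eq_self hpq])
    rw [this, sub_self, abs_zero, mul_zero]
    exact hδ0
  rcases hb : X.1 x p with _ | _
  · have hq1 : X.1 x q = true := by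
      rw [hb] at hpq
      cases hh : X.1 x q
      · exact absurd hh.symm hpq
      · rfl
    exact main x X Y q p hx hXY hq hp (fun w => by rw [hrow, Equiv.swap_comm]) hq1 hb
  · have hq0 : X.1 x q = false := by
      rw [hb] at hpq
      cases hh : X.1 x q
      · rfl
      · exact absurd hh.symm hpq
    exact main x X Y p q hx hXY hp hq hrow hb hq0

end P335
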