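import Vale.Agent.Lib.P335.Mat
import Vale.Agent.Lib.P335.Conn
import Vale.Agent.Lib.P335.Hilbert
import Vale.Agent.Lib.P335.Step2

/-!
# P335: the three-row lemma (H3)
-/

namespace P335

open Finset

set_option linter.unusedSectionVars false

variable {ι κ : Type*} [Fintype ι] [Fintype κ] [DecidableEq ι] [DecidableEq κ]
variable {r : ι → ℕ} {c : κ → ℕ}

/-- A solution of the eigenfunction system with `μ > 1` is constant on the classes of
`AgreeOff T C`.  Proof: by `inv_of_inv_sw` it suffices to show invariance under a switch on rows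
`i j ∈ T`, columns `p q ∈ C`.  If `x ∉ {i, j}` row `x` is unchanged: use `EigSys.eq_of_row`.
Otherwise row `x` is transformed by `Equiv.swap p q` (`swRaw_eq_swap_col`): use `step2`. -/
theorem core {T : Finset ι} (hT : T.card = 3) {C : Finset κ} {μ : ℝ} (hμ : 1 < μ)
    {g : ι → Mat r c → ℝ} (hg : EigSys T C μ g) {x : ι} (hx : x ∈ T) :
    Inv (AgreeOff T C) (g x) := by
  apply inv_of_inv_sw
  intro X Y hXY
  have hA : AgreeOff T C X Y := hXY.agreeOff
  obtain ⟨i, hi, j, hj, p, hp, q, hq, hsw, hY⟩ := hXY
  by_cases hxij : x = i ∨ x = j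
  · exact step2 hT hμ hg hx hA hp hq
      (fun w => by rw [hY, swRaw_eq_swap_col hsw, if_pos hxij])
  · exact hg.eq_of_row hx hA (fun w => by rw [hY, swRaw_eq_swap_col hsw, if_neg hxij])

/-- the operator `Σ_{x ∈ T} E (T.erase x) C - E T C` -/
noncomputable def threeOp (T : Finset ι) (C : Finset κ) :
    (Mat r c → ℝ) →ₗ[ℝ] (Mat r c → ℝ) :=
  ∑ x ∈ T, avgL (AgreeOff (T.erase x) C) - avgL (AgreeOff T C)

theorem threeOp_apply (T : Finset ι) (C : Finset κ) (f : Mat r c → ℝ) :
    threeOp T C f = ∑ x ∈ T, E (T.erase x) C f - E T C f := by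
  unfold threeOp
  rw [LinearMap.sub_apply, LinearMap.sum_apply]
  rfl

theorem E_top_E_erase (T : Finset ι) (C : Finset κ) (x : ι) (f : Mat r c → ℝ) :
    E T C (E (T.erase x) C f) = E T C f :=
  avg_avg_of_le (agreeOff_equiv _ C) (agreeOff_equiv T C)
    (fun _ _ h => h.mono (Finset.erase_subset _ _) (Finset.Subset.refl C)) f

/-- **Three-row lemma (H3)**.  Apply `dot_le_of_eigen` with `c = 2` to the symmetric operator
`S = Σ_{x ∈ T} E (T.erase x) C - E T C`.  Let `S v = lam • v`, `v ≠ 0` and suppose `lam > 2`.
Applying `E T C` (tower property `avg_avg_of_le`: `E T C (E (T.erase x) C v) = E T C v`) gives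
`2 E_T v = lam E_T v`, so `E_T v = 0` and `Σ_x g x = lam • v` with `g x = E (T.erase x) C v`.
Applying `E (T.erase x) C` gives `(lam - 1) g x = E (T.erase x) C (Σ_{y ∈ T.erase x} g y)`, so
`EigSys T C (lam - 1) g`; by `core` all `g x` and hence `v` are `AgreeOff T C`-invariant, so
`v = E_T v = 0`, a contradiction. -/
theorem three_row (T : Finset ι) (hT : T.card = 3) (C : Finset κ) (f : Mat r c → ℝ) :
    ∑ x ∈ T, dot (E (T.erase x) C f) (E (T.erase x) C f)
      ≤ 2 * dot f f + dot (E T C f) (E T C f) := by
  have hdot : ∀ u w : Mat r c → ℝ, dot (threeOp T C u) w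
      = ∑ x ∈ T, dot (E (T.erase x) C u) w - dot (E T C u) w := by
    intro u w
    rw [threeOp_apply, dot_sub_left, dot_sum_left]
  have hsym : ∀ u w : Mat r c → ℝ, dot (threeOp T C u) w = dot u (threeOp T C w) := by
    intro u w
    rw [hdot, dot_comm u, hdot]
    congr 1
    · refine Finset.sum_congr rfl (fun x _ => ?_)
      rw [dot_comm _ u]
      exact avg_symm (agreeOff_equiv _ C) u w
    · rw [dot_comm _ u]
      exact avg_symm (agreeOff_equiv _ C) u w
  have heig : ∀ (lam : ℝ) (v : Mat r c → ℝ), v ≠ 0 → threeOp T C v = lam • v → lam ≤ 2 := by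
    intro lam v hv hS
    by_contra hlam
    push Not at hlam
    rw [threeOp_apply] at hS
    -- `E_T v = 0`
    have h1 : E T C (∑ x ∈ T, E (T.erase x) C v - E T C v) = (2 : ℝ) • E T C v := by
      unfold E
      rw [avg_sub, avg_sum, avg_idem (agreeOff_equiv T C)]
      have : ∀ x ∈ T, avg (AgreeOff T C) (avg (AgreeOff (T.erase x) C) v) = avg (AgreeOff T C) v :=
        fun x _ => E_top_E_erase T C x v
      rw [Finset.sum_congr rfl this, Finset.sum_const, hT]
      funext X
      simp only [Pi.sub_apply, Pi.smul_apply, smul_eq_mul, nsmul_eq_mul]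
      norm_num
      ring
    have h2 : E T C (lam • v) = lam • E T C v := avg_smul _ _ _
    have h3 : E T C v = 0 := by
      rw [hS, h2] at h1
      funext X
      have := congrFun h1 X
      simp only [Pi.smul_apply, smul_eq_mul] at this
      have h4 : (lam - 2) * E T C v X = 0 := by linarith
      rcases mul_eq_zero.1 h4 with h5 | h5
      · linarith
      · simpa using h5
    rw [h3, sub_zero] at hS
    -- the eigenfunction system
    set g : ι → Mat r c → ℝ := fun x => E (T.erase x) C v with hgdef
    have hsys : EigSys T C (lam - 1) g := by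
      refine ⟨fun x _ => avg_inv (agreeOff_equiv _ C) v, fun x hx X => ?_⟩
      have h5 : E (T.erase x) C (∑ y ∈ T, g y) = lam • g x := by
        rw [show (∑ y ∈ T, g y) = lam • v from hS]
        exact avg_smul _ _ _
      rw [← Finset.add_sum_erase T g hx] at h5
      have h6 : E (T.erase x) C (g x + ∑ y ∈ T.erase x, g y)
          = g x + E (T.erase x) C (∑ y ∈ T.erase x, g y) := by
        unfold E
        rw [avg_add]
        congr 1
        exact avg_idem (agreeOff_equiv _ C) v
      rw [h6] at h5
      have := congrFun h5 X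
      simp only [Pi.add_apply, Pi.smul_apply, smul_eq_mul] at this
      linarith
    have hinv : Inv (AgreeOff T C) v := by
      intro X Y hXY
      have h7 : ∀ Z, lam * v Z = ∑ y ∈ T, g y Z := by
        intro Z
        have := congrFun hS Z
        simp only [Pi.smul_apply, smul_eq_mul, Finset.sum_apply] at this
        exact this.symm
      have h8 : lam * v X = lam * v Y := by
        rw [h7, h7]
        exact Finset.sum_congr rfl (fun y hy => core hT (by linarith) hsys hy X Y hXY)
      exact mul_left_cancel₀ (by linarith) h8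
    apply hv
    rw [← h3]
    exact (avg_of_inv (agreeOff_equiv T C) hinv).symm
  have key := dot_le_of_eigen (threeOp T C) hsym 2 heig f
  rw [hdot] at key
  have e1 : ∀ x ∈ T, dot (E (T.erase x) C f) f = dot (E (T.erase x) C f) (E (T.erase x) C f) := by
    intro x _
    rw [dot_comm _ f]
    exact (dot_avg_avg (agreeOff_equiv _ C) f).symm
  have e2 : dot (E T C f) f = dot (E T C f) (E T C f) := by
    rw [dot_comm _ f]
    exact (dot_avg_avg (agreeOff_equiv _ C) f).symm
  rw [Finset.sum_congr rfl e1, e2] at key
  linarith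

end P335
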