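import Vale.Agent.Lib.P335.Mat
import Vale.Agent.Lib.P335.Conn
import Vale.Agent.Lib.P335.Comm
import Vale.Agent.Lib.P335.Hilbert
import Vale.Agent.Lib.P335.Caputo
import Vale.Agent.Lib.P335.ThreeRow

/-!
# P335: Poincare inequality for the row-pair block dynamics
-/

namespace P335

open Finset

set_option linter.unusedSectionVars false

variable {ι κ : Type*} [Fintype ι] [Fintype κ] [DecidableEq ι] [DecidableEq κ]
variable {r : ι → ℕ} {c : κ → ℕ}

/-- `E R C` as a linear map -/
noncomputable def EL (R : Finset ι) (C : Finset κ) : (Mat r c → ℝ) →ₗ[ℝ] (Mat r c → ℝ) :=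
  avgL (AgreeOff R C)

theorem EL_apply (R : Finset ι) (C : Finset κ) (f : Mat r c → ℝ) : EL R C f = E R C f := rfl

theorem E_symm (R : Finset ι) (C : Finset κ) (f g : Mat r c → ℝ) :
    dot (E R C f) g = dot f (E R C g) := avg_symm (agreeOff_equiv R C) f g

theorem E_idem (R : Finset ι) (C : Finset κ) (f : Mat r c → ℝ) :
    E R C (E R C f) = E R C f := avg_idem (agreeOff_equiv R C) f

theorem E_E_of_subset {R R' : Finset ι} (h : R ⊆ R') (C : Finset κ) (f : Mat r c → ℝ) :
    E R C (E R' C f) = E R' C f :=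
  avg_avg_of_ge (agreeOff_equiv R C) (agreeOff_equiv R' C)
    (fun _ _ hxy => hxy.mono h (Finset.Subset.refl C)) f

theorem triple_cross (C : Finset κ) (f : Mat r c → ℝ) (i j k : ι) (hij : i ≠ j) (hik : i ≠ k)
    (hjk : j ≠ k) :
    0 ≤ dot (f - E {i, j} C f) (f - E {i, k} C f) + dot (f - E {i, j} C f) (f - E {j, k} C f)
      + dot (f - E {i, k} C f) (f - E {j, k} C f) := by
  have hT : ({i, j, k} : Finset ι).card = 3 := Finset.card_eq_three.2 ⟨i, j, k, hij, hik, hjk, rfl⟩
  have e1 : ({i, j, k} : Finset ι).erase i = {j, k} := by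
    ext x; simp only [mem_erase, mem_insert, mem_singleton]; grind
  have e2 : ({i, j, k} : Finset ι).erase j = {i, k} := by
    ext x; simp only [mem_erase, mem_insert, mem_singleton]; grind
  have e3 : ({i, j, k} : Finset ι).erase k = {i, j} := by
    ext x; simp only [mem_erase, mem_insert, mem_singleton]; grind
  have H3 : ∀ g : Mat r c → ℝ, dot (E {i, j} C g) (E {i, j} C g) + dot (E {i, k} C g) (E {i, k} C g)
      + dot (E {j, k} C g) (E {j, k} C g) ≤ 2 * dot g g + dot (E {i, j, k} C g) (E {i, j, k} C g) := by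
    intro g
    have := three_row ({i, j, k} : Finset ι) hT C g
    rw [Finset.sum_insert (by simp [hij, hik]), Finset.sum_insert (by simp [hjk]),
      Finset.sum_singleton, e1, e2, e3] at this
    linarith
  exact triple_cross_nonneg (EL {i, j} C) (EL {i, k} C) (EL {j, k} C) (EL {i, j, k} C)
    (E_symm _ _) (E_symm _ _) (E_symm _ _) (E_symm _ _) (E_idem _ _) (E_idem _ _) (E_idem _ _)
    (E_idem _ _)
    (E_E_of_subset (by intro x; simp only [mem_insert, mem_singleton]; grind) C)
    (E_E_of_subset (by intro x; simp only [mem_insert, mem_singleton]; grind) C)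
    (E_E_of_subset (by intro x; simp only [mem_insert, mem_singleton]; grind) C)
    H3 f

/-- the generator of the row-pair block dynamics (sum over ordered pairs) -/
noncomputable def AL (C : Finset κ) : (Mat r c → ℝ) →ₗ[ℝ] (Mat r c → ℝ) :=
  ∑ i : ι, ∑ j : ι, (if i ≠ j then LinearMap.id - EL {i, j} C else 0)

theorem AL_apply (C : Finset κ) (f : Mat r c → ℝ) :
    AL C f = ∑ i : ι, ∑ j : ι, (if i ≠ j then f - E {i, j} C f else 0) := by
  unfold AL
  rw [LinearMap.sum_apply]
  refine Finset.sum_congr rfl (fun i _ => ?_)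
  rw [LinearMap.sum_apply]
  refine Finset.sum_congr rfl (fun j _ => ?_)
  split_ifs
  · rfl
  · rfl

theorem dot_AL (C : Finset κ) (f g : Mat r c → ℝ) :
    dot g (AL C f) = ∑ i : ι, ∑ j : ι, (if i ≠ j then dot g (f - E {i, j} C f) else 0) := by
  rw [AL_apply, dot_sum_right]
  refine Finset.sum_congr rfl (fun i _ => ?_)
  rw [dot_sum_right]
  refine Finset.sum_congr rfl (fun j _ => ?_)
  split_ifs
  · rfl
  · simp [dot]

theorem AL_symm (C : Finset κ) (f g : Mat r c → ℝ) : dot (AL C f) g = dot f (AL C g) := by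
  rw [dot_comm, dot_AL, dot_AL]
  refine Finset.sum_congr rfl (fun i _ => Finset.sum_congr rfl (fun j _ => ?_))
  split_ifs
  · rw [dot_sub_right, dot_sub_right, dot_comm g f, dot_comm g, E_symm]
  · rfl

theorem dot_Q (R : Finset ι) (C : Finset κ) (f : Mat r c → ℝ) :
    dot (f - E R C f) (f - E R C f) = dot f (f - E R C f) := dot_Q_Q (agreeOff_equiv R C) f

theorem AL_pos (C : Finset κ) (f : Mat r c → ℝ) : 0 ≤ dot f (AL C f) := by
  rw [dot_AL]
  refine Finset.sum_nonneg (fun i _ => Finset.sum_nonneg (fun j _ => ?_))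
  split_ifs
  · rw [← dot_Q]; exact dot_self_nonneg _
  · exact le_refl _

theorem AL_sq (C : Finset κ) (f : Mat r c → ℝ) :
    2 * dot f (AL C f) ≤ dot (AL C f) (AL C f) := by
  have := caputo_sq (fun i j : ι => f - E {i, j} C f)
    (fun i j => by simp only [Finset.pair_comm])
    (fun i j k l hij hkl hik hil hjk hjl =>
      dot_Q_Q_nonneg_of_comm (agreeOff_equiv _ _) (agreeOff_equiv _ _)
        (fun g => E_comm_of_disjoint {i, j} {k, l}
          (by
            rw [Finset.disjoint_left]
            intro x hx hx'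
            simp only [mem_insert, mem_singleton] at hx hx'
            grind) C g) f)
    (fun i j k hij hik hjk => triple_cross C f i j k hij hik hjk)
  rw [AL_apply, ← AL_apply, dot_AL]
  rw [AL_apply]
  refine le_trans (le_of_eq ?_) this
  congr 1
  refine Finset.sum_congr rfl (fun i _ => Finset.sum_congr rfl (fun j _ => ?_))
  split_ifs
  · rw [dot_Q]
  · rfl

theorem inv_of_AL_eq_zero (C : Finset κ) (k : Mat r c → ℝ) (hk : AL C k = 0) :
    Inv (AgreeOff univ C) k := by
  have h0 : dot k (AL C k) = 0 := by rw [hk]; simp [dot]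
  rw [dot_AL] at h0
  have hnn : ∀ i j : ι, 0 ≤ (if i ≠ j then dot k (k - E {i, j} C k) else 0) := by
    intro i j
    split_ifs
    · rw [← dot_Q]; exact dot_self_nonneg _
    · exact le_refl _
  have h1 : ∀ i j : ι, i ≠ j → k - E {i, j} C k = 0 := by
    intro i j hij
    have h2 := (Finset.sum_eq_zero_iff_of_nonneg
      (fun i _ => Finset.sum_nonneg (fun j _ => hnn i j))).1 h0 i (mem_univ i)
    have h3 := (Finset.sum_eq_zero_iff_of_nonneg (fun j _ => hnn i j)).1 h2 j (mem_univ j)
    rw [if_pos hij, ← dot_Q] at h3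
    exact dot_self_eq_zero h3
  apply inv_of_inv_sw
  intro X Y hXY
  obtain ⟨i, -, j, -, p, hp, q, hq, hsw, hY⟩ := hXY
  have h2 : E {i, j} C k = k := (sub_eq_zero.1 (h1 i j hsw.1)).symm
  refine inv_of_avg_eq (agreeOff_equiv {i, j} C) h2 X Y ?_
  refine (agreeOff_of_swRaw hY).mono (Finset.Subset.refl _) ?_
  intro x hx
  simp only [mem_insert, mem_singleton] at hx
  rcases hx with rfl | rfl <;> assumption

/-- **Theorem A**: Poincare inequality for the row-pair block dynamics with free columns `C`. -/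
theorem rows_poincare (C : Finset κ) (f : Mat r c → ℝ) :
    dot f (f - E univ C f)
      ≤ (1 / 2) * ∑ i : ι, ∑ j : ι, (if i ≠ j then dot f (f - E {i, j} C f) else 0) := by
  set f₀ := f - E univ C f with hf₀
  have hker : ∀ k, AL C k = 0 → dot f₀ k = 0 := by
    intro k hk
    have hinv := inv_of_AL_eq_zero C k hk
    have hE : E univ C k = k := avg_of_inv (agreeOff_equiv _ _) hinv
    rw [hf₀, dot_sub_left, E_symm, hE, sub_self]
  have hgap := gap_of_sq (AL C) (AL_symm C) (AL_pos C) 2 (by norm_num) (AL_sq C) f₀ hker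
  have hA0 : AL C (E univ C f) = 0 := by
    rw [AL_apply]
    refine Finset.sum_eq_zero (fun i _ => Finset.sum_eq_zero (fun j _ => ?_))
    split_ifs
    · rw [E_E_of_subset (Finset.subset_univ _), sub_self]
    · rfl
  have hA1 : AL C f₀ = AL C f := by
    rw [hf₀, map_sub, hA0, sub_zero]
  have h2 : dot f₀ (AL C f₀) = dot f (AL C f) := by
    rw [hA1, hf₀, dot_sub_left, ← AL_symm C (E univ C f) f, hA0]
    simp [dot]
  rw [h2, hf₀, dot_Q, dot_AL] at hgap
  linarith

end P335
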