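import Vale.Agent.Lib.P335.Rows
import Vale.Agent.Lib.P335.Blocks

/-!
# P335: the Poincare inequality for the switch graph on 0/1 matrices with arbitrary margins
-/

namespace P335

open Finset

set_option linter.unusedSectionVars false

variable {ι κ : Type*} [Fintype ι] [Fintype κ] [DecidableEq ι] [DecidableEq κ]
variable {r : ι → ℕ} {c : κ → ℕ}

/-- transposition -/
def transposeEquiv (r : ι → ℕ) (c : κ → ℕ) : Mat r c ≃ Mat c r where
  toFun X := ⟨fun p i => X.1 i p, ⟨X.2.2, X.2.1⟩⟩
  invFun Y := ⟨fun i p => Y.1 p i, ⟨Y.2.2, Y.2.1⟩⟩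
  left_inv _ := rfl
  right_inv _ := rfl

theorem agreeOff_transpose (R : Finset ι) (C : Finset κ) :
    (fun X Y : Mat r c => AgreeOff C R (transposeEquiv r c X) (transposeEquiv r c Y))
      = AgreeOff R C := by
  funext X Y
  apply propext
  constructor
  · intro h i p hip
    exact h p i (fun h' => hip ⟨h'.2, h'.1⟩)
  · intro h p i hip
    exact h i p (fun h' => hip ⟨h'.2, h'.1⟩)

theorem E_transpose (R : Finset ι) (C : Finset κ) (f' : Mat c r → ℝ) :
    E R C (f' ∘ transposeEquiv r c) = (E C R f') ∘ transposeEquiv r c := by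
  unfold E
  rw [← avg_comp_equiv (transposeEquiv r c) (AgreeOff C R) f', agreeOff_transpose]

theorem dot_Q_transpose (R : Finset ι) (C : Finset κ) (f' : Mat c r → ℝ) :
    dot (f' ∘ transposeEquiv r c) (f' ∘ transposeEquiv r c - E R C (f' ∘ transposeEquiv r c))
      = dot f' (f' - E C R f') := by
  rw [E_transpose]
  exact dot_comp_equiv (transposeEquiv r c) f' (f' - E C R f')

/-- Poincare inequality for the column-pair block dynamics with free rows `R` -/
theorem cols_poincare (R : Finset ι) (f : Mat r c → ℝ) :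
    dot f (f - E R univ f)
      ≤ (1 / 2) * ∑ p : κ, ∑ q : κ, (if p ≠ q then dot f (f - E R {p, q} f) else 0) := by
  obtain ⟨f', rfl⟩ : ∃ f' : Mat c r → ℝ, f = f' ∘ transposeEquiv r c :=
    ⟨f ∘ (transposeEquiv r c).symm, by funext X; simp⟩
  have := rows_poincare (r := c) (c := r) R f'
  rw [dot_Q_transpose]
  refine le_trans this (le_of_eq ?_)
  congr 1
  refine Finset.sum_congr rfl (fun p _ => Finset.sum_congr rfl (fun q _ => ?_))
  rw [dot_Q_transpose]

open Classical in
/-- **Poincare inequality for the switch graph** on 0/1 matrices with arbitrary margins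
(the second sum runs over ordered pairs, so every switch edge is counted twice). -/
theorem mat_poincare (f : Mat r c → ℝ) :
    dot f (f - E univ univ f)
      ≤ (1 / 4) * ∑ X : Mat r c, ∑ Y : Mat r c,
          (if IsSw univ univ X Y then (f X - f Y) ^ 2 else 0) := by
  have h1 := rows_poincare univ f
  have h2 : ∀ i j : ι, dot f (f - E {i, j} univ f)
      ≤ (1 / 2) * ∑ p : κ, ∑ q : κ, (if p ≠ q then
        (1 / 4) * ∑ X : Mat r c, ∑ Y : Mat r c,
          (if X ≠ Y ∧ AgreeOff {i, j} {p, q} X Y then (f X - f Y) ^ 2 else 0) else 0) := by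
    intro i j
    refine le_trans (cols_poincare {i, j} f) ?_
    refine mul_le_mul_of_nonneg_left ?_ (by norm_num)
    refine Finset.sum_le_sum (fun p _ => Finset.sum_le_sum (fun q _ => ?_))
    split_ifs
    · rw [← dot_Q]
      exact dot_Q_Q_le (agreeOff_equiv _ _) f
    · exact le_refl _
  have h3 := sum_blocks_le (r := r) (c := c) (fun X Y => (f X - f Y) ^ 2) (fun X Y => sq_nonneg _)
  have h4 : ∑ i : ι, ∑ j : ι, (if i ≠ j then dot f (f - E {i, j} univ f) else 0)
      ≤ (1 / 8) * ∑ i : ι, ∑ j : ι, (if i ≠ j then ∑ p : κ, ∑ q : κ, (if p ≠ q then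
        ∑ X : Mat r c, ∑ Y : Mat r c,
          (if X ≠ Y ∧ AgreeOff {i, j} {p, q} X Y then (f X - f Y) ^ 2 else 0)
        else 0) else 0) := by
    rw [Finset.mul_sum]
    refine Finset.sum_le_sum (fun i _ => ?_)
    rw [Finset.mul_sum]
    refine Finset.sum_le_sum (fun j _ => ?_)
    split_ifs
    · refine le_trans (h2 i j) (le_of_eq ?_)
      rw [Finset.mul_sum, Finset.mul_sum]
      refine Finset.sum_congr rfl (fun p _ => ?_)
      rw [Finset.mul_sum, Finset.mul_sum]
      refine Finset.sum_congr rfl (fun q _ => ?_)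
      split_ifs
      · ring
      · ring
    · simp
  linarith

end P335
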