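import Vale.Agent.Lib.P335.Defs
import Vale.Agent.Lib.P335.MatPoincare

/-!
# P335: split degree vectors: realizations correspond to 0/1 matrices with fixed margins
-/

namespace P335

open Finset Classical

variable {n : ℕ}

/-- in every realization `K` spans a clique and its complement is independent -/
def Forced (n : ℕ) (d : Fin n → ℕ) (K : Finset (Fin n)) : Prop :=
  ∀ G : Realization n d,
    (∀ x ∈ K, ∀ y ∈ K, x ≠ y → G.1.Adj x y) ∧ (∀ x, x ∉ K → ∀ y, y ∉ K → ¬ G.1.Adj x y)

/-- adjacency indicator -/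
noncomputable def adjInd (G : SimpleGraph (Fin n)) (x y : Fin n) : ℕ := if G.Adj x y then 1 else 0

theorem adjInd_comm (G : SimpleGraph (Fin n)) (x y : Fin n) : adjInd G x y = adjInd G y x := by
  unfold adjInd
  by_cases h : G.Adj x y
  · rw [if_pos h, if_pos h.symm]
  · rw [if_neg h, if_neg (fun h' => h h'.symm)]

theorem degree_eq_sum_adjInd (G : SimpleGraph (Fin n)) (v : Fin n) :
    G.degree v = ∑ y, adjInd G v y := by
  unfold adjInd
  rw [← Finset.card_filter, ← SimpleGraph.card_neighborFinset_eq_degree]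
  congr 1
  ext y
  simp

theorem count_identity (G : SimpleGraph (Fin n)) (K : Finset (Fin n)) :
    ∑ x ∈ K, G.degree x + ∑ x ∈ Kᶜ, ∑ y ∈ Kᶜ, adjInd G x y
      = ∑ x ∈ Kᶜ, G.degree x + ∑ x ∈ K, ∑ y ∈ K, adjInd G x y := by
  have h1 : ∀ x, G.degree x = ∑ y ∈ K, adjInd G x y + ∑ y ∈ Kᶜ, adjInd G x y := by
    intro x
    rw [degree_eq_sum_adjInd, Finset.sum_add_sum_compl]
  have h2 : ∑ x ∈ K, ∑ y ∈ Kᶜ, adjInd G x y = ∑ x ∈ Kᶜ, ∑ y ∈ K, adjInd G x y := by
    rw [Finset.sum_comm]
    refine Finset.sum_congr rfl (fun x _ => Finset.sum_congr rfl (fun y _ => adjInd_comm G y x))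
  rw [Finset.sum_congr rfl (fun x _ => h1 x), Finset.sum_congr (s₁ := Kᶜ) rfl (fun x _ => h1 x),
    Finset.sum_add_distrib, Finset.sum_add_distrib, h2]
  ring

/-- For any graph `G` with degrees `d`:
`Σ_{x ∈ K} d x - Σ_{x ∉ K} d x = #{(x,y) ∈ K², adjacent} - #{(x,y) ∈ (Kᶜ)², adjacent}`
(the mixed terms cancel by symmetry).  For the split realization this equals
`#{(x,y) ∈ K², x ≠ y}`, the maximum possible, attained only if `K` is a clique and `Kᶜ` is
independent. -/
theorem forced_of_isSplit {d : Fin n → ℕ} (h : IsSplit n d) : ∃ K, Forced n d K := by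
  obtain ⟨G₀, K, hc, hi⟩ := h
  refine ⟨K, fun G => ?_⟩
  -- the number of ordered pairs of distinct elements of `K`
  set M : ℕ := ∑ x ∈ K, ∑ y ∈ K, (if x ≠ y then 1 else 0) with hM
  have e0 := count_identity G₀.1 K
  have e1 := count_identity G.1 K
  have hd0 : ∀ S : Finset (Fin n), ∑ x ∈ S, G₀.1.degree x = ∑ x ∈ S, d x :=
    fun S => Finset.sum_congr rfl (fun x _ => G₀.2 x)
  have hd1 : ∀ S : Finset (Fin n), ∑ x ∈ S, G.1.degree x = ∑ x ∈ S, d x :=
    fun S => Finset.sum_congr rfl (fun x _ => G.2 x)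
  rw [hd0, hd0] at e0
  rw [hd1, hd1] at e1
  have z0 : ∑ x ∈ Kᶜ, ∑ y ∈ Kᶜ, adjInd G₀.1 x y = 0 := by
    refine Finset.sum_eq_zero (fun x hx => Finset.sum_eq_zero (fun y hy => ?_))
    unfold adjInd
    rw [if_neg (hi x (Finset.mem_compl.1 hx) y (Finset.mem_compl.1 hy))]
  have m0 : ∑ x ∈ K, ∑ y ∈ K, adjInd G₀.1 x y = M := by
    refine Finset.sum_congr rfl (fun x hx => Finset.sum_congr rfl (fun y hy => ?_))
    unfold adjInd
    by_cases hxy : x = y
    · subst hxy
      simp
    · rw [if_pos (hc x hx y hy hxy), if_pos hxy]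
  have hle : ∀ x y, adjInd G.1 x y ≤ (if x ≠ y then 1 else 0) := by
    intro x y
    unfold adjInd
    by_cases hxy : x = y
    · subst hxy
      simp
    · rw [if_pos hxy]
      split_ifs <;> omega
  have m1 : ∑ x ∈ K, ∑ y ∈ K, adjInd G.1 x y ≤ M :=
    Finset.sum_le_sum (fun x _ => Finset.sum_le_sum (fun y _ => hle x y))
  rw [z0, m0] at e0
  have z1 : ∑ x ∈ Kᶜ, ∑ y ∈ Kᶜ, adjInd G.1 x y = 0 := by omega
  have m1' : ∑ x ∈ K, ∑ y ∈ K, adjInd G.1 x y = M := by omega
  constructor
  · intro x hx y hy hxy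
    by_contra hadj
    have hlt : ∑ x ∈ K, ∑ y ∈ K, adjInd G.1 x y < M := by
      refine Finset.sum_lt_sum (fun x _ => Finset.sum_le_sum (fun y _ => hle x y)) ⟨x, hx, ?_⟩
      refine Finset.sum_lt_sum (fun y _ => hle x y) ⟨y, hy, ?_⟩
      unfold adjInd
      rw [if_neg hadj, if_pos hxy]
      exact Nat.zero_lt_one
    omega
  · intro x hx y hy hadj
    have h1 := (Finset.sum_eq_zero_iff.1 z1) x (Finset.mem_compl.2 hx)
    have h2 := (Finset.sum_eq_zero_iff.1 h1) y (Finset.mem_compl.2 hy)
    unfold adjInd at h2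
    rw [if_pos hadj] at h2
    exact one_ne_zero h2

/-- row sums of the matrix of a realization: rows are indexed by the independent side -/
def rowSum (d : Fin n → ℕ) (K : Finset (Fin n)) : Fin n → ℕ := fun i => if i ∈ K then 0 else d i

/-- column sums: columns are indexed by the clique side -/
def colSum (d : Fin n → ℕ) (K : Finset (Fin n)) : Fin n → ℕ :=
  fun p => if p ∈ K then d p - (K.card - 1) else 0

/-- the matrix of a graph -/
noncomputable def toRaw (K : Finset (Fin n)) (G : SimpleGraph (Fin n)) : Fin n → Fin n → Bool :=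
  fun i p => decide (i ∉ K ∧ p ∈ K ∧ G.Adj i p)

theorem toRaw_eq_true {K : Finset (Fin n)} {G : SimpleGraph (Fin n)} {i p : Fin n} :
    toRaw K G i p = true ↔ i ∉ K ∧ p ∈ K ∧ G.Adj i p := by
  unfold toRaw
  exact decide_eq_true_iff

/-- the graph of a matrix -/
def ofRawGraph (K : Finset (Fin n)) (X : Fin n → Fin n → Bool) : SimpleGraph (Fin n) where
  Adj x y := x ≠ y ∧ ((x ∈ K ∧ y ∈ K) ∨ X x y = true ∨ X y x = true)
  symm := ⟨by
    intro x y h
    refine ⟨h.1.symm, ?_⟩
    rcases h.2 with h | h | h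
    · exact Or.inl ⟨h.2, h.1⟩
    · exact Or.inr (Or.inr h)
    · exact Or.inr (Or.inl h)⟩
  loopless := ⟨fun x h => h.1 rfl⟩

theorem toNat_eq_ite (b : Bool) : b.toNat = if b = true then 1 else 0 := by
  cases b <;> rfl

theorem sum_ne_eq (K : Finset (Fin n)) {p : Fin n} (hp : p ∈ K) :
    ∑ i ∈ K, (if i ≠ p then 1 else 0) = K.card - 1 := by
  rw [← Finset.card_filter, Finset.filter_ne', Finset.card_erase_of_mem hp]

section
variable {d : Fin n → ℕ} {K : Finset (Fin n)}

theorem row_toRaw (hK : Forced n d K) (G : Realization n d) (i : Fin n) :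
    ∑ p, (toRaw K G.1 i p).toNat = rowSum d K i := by
  unfold rowSum
  by_cases hi : i ∈ K
  · rw [if_pos hi]
    refine Finset.sum_eq_zero (fun p _ => ?_)
    rw [toNat_eq_ite, if_neg]
    rw [toRaw_eq_true]
    exact fun h => h.1 hi
  · rw [if_neg hi, ← G.2 i, degree_eq_sum_adjInd]
    refine Finset.sum_congr rfl (fun p _ => ?_)
    rw [toNat_eq_ite]
    unfold adjInd
    by_cases h : G.1.Adj i p
    · have hp : p ∈ K := by
        by_contra hp
        exact (hK G).2 i hi p hp h
      rw [if_pos h, if_pos (toRaw_eq_true.2 ⟨hi, hp, h⟩)]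
    · rw [if_neg h, if_neg]
      rw [toRaw_eq_true]
      exact fun h' => h h'.2.2

theorem col_toRaw_add (hK : Forced n d K) (G : Realization n d) {p : Fin n} (hp : p ∈ K) :
    ∑ i, (toRaw K G.1 i p).toNat + (K.card - 1) = d p := by
  rw [← G.2 p, degree_eq_sum_adjInd, ← Finset.sum_add_sum_compl K (fun i => adjInd G.1 p i),
    ← Finset.sum_add_sum_compl K (fun i => (toRaw K G.1 i p).toNat)]
  have h1 : ∑ i ∈ K, (toRaw K G.1 i p).toNat = 0 := by
    refine Finset.sum_eq_zero (fun i hi => ?_)
    rw [toNat_eq_ite, if_neg]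
    rw [toRaw_eq_true]
    exact fun h => h.1 hi
  have h2 : ∑ i ∈ K, adjInd G.1 p i = K.card - 1 := by
    rw [← sum_ne_eq K hp]
    refine Finset.sum_congr rfl (fun i hi => ?_)
    unfold adjInd
    by_cases hip : i = p
    · subst hip
      simp
    · rw [if_pos ((hK G).1 p hp i hi (Ne.symm hip)), if_pos hip]
  have h3 : ∑ i ∈ Kᶜ, (toRaw K G.1 i p).toNat = ∑ i ∈ Kᶜ, adjInd G.1 p i := by
    refine Finset.sum_congr rfl (fun i hi => ?_)
    rw [toNat_eq_ite]
    unfold adjInd
    by_cases h : G.1.Adj p i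
    · rw [if_pos h, if_pos (toRaw_eq_true.2 ⟨Finset.mem_compl.1 hi, hp, h.symm⟩)]
    · rw [if_neg h, if_neg]
      rw [toRaw_eq_true]
      exact fun h' => h h'.2.2.symm
  rw [h1, h2, h3]
  ring

theorem col_toRaw (hK : Forced n d K) (G : Realization n d) (p : Fin n) :
    ∑ i, (toRaw K G.1 i p).toNat = colSum d K p := by
  unfold colSum
  by_cases hp : p ∈ K
  · rw [if_pos hp]
    have := col_toRaw_add hK G hp
    omega
  · rw [if_neg hp]
    refine Finset.sum_eq_zero (fun i _ => ?_)
    rw [toNat_eq_ite, if_neg]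
    rw [toRaw_eq_true]
    exact fun h => hp h.2.1

theorem isMat_toRaw (hK : Forced n d K) (G : Realization n d) :
    IsMat (rowSum d K) (colSum d K) (toRaw K G.1) :=
  ⟨row_toRaw hK G, col_toRaw hK G⟩

theorem mat_row_false (X : Mat (rowSum d K) (colSum d K)) {i : Fin n} (hi : i ∈ K) (p : Fin n) :
    X.1 i p = false := by
  have h := X.2.1 i
  unfold rowSum at h
  rw [if_pos hi] at h
  have h2 := (Finset.sum_eq_zero_iff.1 h) p (mem_univ p)
  cases hX : X.1 i p
  · rfl
  · rw [hX] at h2
    exact absurd h2 (by decide)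

theorem mat_col_false (X : Mat (rowSum d K) (colSum d K)) {p : Fin n} (hp : p ∉ K) (i : Fin n) :
    X.1 i p = false := by
  have h := X.2.2 p
  unfold colSum at h
  rw [if_neg hp] at h
  have h2 := (Finset.sum_eq_zero_iff.1 h) i (mem_univ i)
  cases hX : X.1 i p
  · rfl
  · rw [hX] at h2
    exact absurd h2 (by decide)

theorem mat_true (X : Mat (rowSum d K) (colSum d K)) {i p : Fin n} (h : X.1 i p = true) :
    i ∉ K ∧ p ∈ K := by
  constructor
  · intro hi
    rw [mat_row_false X hi p] at h
    exact Bool.false_ne_true h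
  · by_contra hp
    rw [mat_col_false X hp i] at h
    exact Bool.false_ne_true h

theorem degree_ofRawGraph (hK : Forced n d K) (G₀ : Realization n d)
    (X : Mat (rowSum d K) (colSum d K)) (x : Fin n) : (ofRawGraph K X.1).degree x = d x := by
  rw [degree_eq_sum_adjInd]
  by_cases hx : x ∈ K
  · have hge := col_toRaw_add hK G₀ hx
    have hc := X.2.2 x
    unfold colSum at hc
    rw [if_pos hx] at hc
    have h1 : ∀ y, adjInd (ofRawGraph K X.1) x y
        = (if y ∈ K then (if y ≠ x then 1 else 0) else 0) + (X.1 y x).toNat := by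
      intro y
      unfold adjInd
      rw [toNat_eq_ite]
      by_cases hy : y ∈ K
      · rw [if_pos hy, mat_row_false X hy x]
        by_cases hyx : y = x
        · subst hyx
          have : ¬ (ofRawGraph K X.1).Adj y y := fun h => h.1 rfl
          simp
        · have : (ofRawGraph K X.1).Adj x y := ⟨Ne.symm hyx, Or.inl ⟨hx, hy⟩⟩
          simp [this, hyx]
      · rw [if_neg hy, zero_add]
        by_cases hX : X.1 y x = true
        · have hne : x ≠ y := fun h => hy (h ▸ hx)
          have : (ofRawGraph K X.1).Adj x y := ⟨hne, Or.inr (Or.inr hX)⟩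
          rw [if_pos this, if_pos hX]
        · have : ¬ (ofRawGraph K X.1).Adj x y := by
            rintro ⟨_, h | h | h⟩
            · exact hy h.2
            · rw [mat_row_false X hx y] at h
              exact Bool.false_ne_true h
            · exact hX h
          rw [if_neg this, if_neg hX]
    rw [Finset.sum_congr rfl (fun y _ => h1 y), Finset.sum_add_distrib, hc,
      Finset.sum_ite_mem, Finset.univ_inter, sum_ne_eq K hx]
    omega
  · have hr := X.2.1 x
    unfold rowSum at hr
    rw [if_neg hx] at hr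
    rw [← hr]
    refine Finset.sum_congr rfl (fun y _ => ?_)
    unfold adjInd
    rw [toNat_eq_ite]
    by_cases hX : X.1 x y = true
    · have hy := (mat_true X hX).2
      have hne : x ≠ y := fun h => hx (h ▸ hy)
      have : (ofRawGraph K X.1).Adj x y := ⟨hne, Or.inr (Or.inl hX)⟩
      rw [if_pos this, if_pos hX]
    · have : ¬ (ofRawGraph K X.1).Adj x y := by
        rintro ⟨_, h | h | h⟩
        · exact hx h.1
        · exact hX h
        · exact hx (mat_true X h).2
      rw [if_neg this, if_neg hX]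


theorem ofRawGraph_toRaw (hK : Forced n d K) (G : Realization n d) :
    ofRawGraph K (toRaw K G.1) = G.1 := by
  ext x y
  constructor
  · rintro ⟨hne, h | h | h⟩
    · exact (hK G).1 x h.1 y h.2 hne
    · exact (toRaw_eq_true.1 h).2.2
    · exact (toRaw_eq_true.1 h).2.2.symm
  · intro h
    refine ⟨h.ne, ?_⟩
    by_cases hx : x ∈ K
    · by_cases hy : y ∈ K
      · exact Or.inl ⟨hx, hy⟩
      · exact Or.inr (Or.inr (toRaw_eq_true.2 ⟨hy, hx, h.symm⟩))
    · have hy : y ∈ K := by
        by_contra hy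
        exact (hK G).2 x hx y hy h
      exact Or.inr (Or.inl (toRaw_eq_true.2 ⟨hx, hy, h⟩))

theorem toRaw_ofRawGraph (X : Mat (rowSum d K) (colSum d K)) :
    toRaw K (ofRawGraph K X.1) = X.1 := by
  funext i p
  cases hX : X.1 i p
  · rw [Bool.eq_false_iff]
    intro h
    obtain ⟨hi, hp, -, h | h | h⟩ := toRaw_eq_true.1 h
    · exact hi h.1
    · rw [hX] at h
      exact Bool.false_ne_true h
    · exact (mat_true X h).1 hp
  · rw [toRaw_eq_true]
    obtain ⟨hi, hp⟩ := mat_true X hX
    exact ⟨hi, hp, fun h => hi (h ▸ hp), Or.inr (Or.inl hX)⟩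

theorem isSwitch_of_swRaw (hK : Forced n d K) (G G' : Realization n d) {i j p q : Fin n}
    (hS : Switchable i j p q (toRaw K G.1))
    (hY : toRaw K G'.1 = swRaw i j p q (toRaw K G.1)) : IsSwitch G.1 G'.1 := by
  obtain ⟨hij, hpq, h1, h2, h3, h4⟩ := hS
  obtain ⟨hi, hp, hip⟩ := toRaw_eq_true.1 h1
  obtain ⟨hj, hq, hjq⟩ := toRaw_eq_true.1 h4
  have hiq : ¬ G.1.Adj i q := by
    intro h
    rw [toRaw_eq_true.2 ⟨hi, hq, h⟩] at h2
    exact Bool.false_ne_true h2.symm
  have hjp : ¬ G.1.Adj j p := by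
    intro h
    rw [toRaw_eq_true.2 ⟨hj, hp, h⟩] at h3
    exact Bool.false_ne_true h3.symm
  have nK : ∀ {x y : Fin n}, x ∉ K → y ∈ K → x ≠ y := fun hx hy h => hx (h ▸ hy)
  have mixed : ∀ x y, x ∉ K → y ∈ K → (G'.1.Adj x y ↔
      (G.1.Adj x y ∧ ¬ s(x, y) = s(i, p) ∧ ¬ s(x, y) = s(q, j)) ∨ s(x, y) = s(i, q)
        ∨ s(x, y) = s(p, j)) := by
    intro x y hx hy
    have e1 : s(x, y) = s(i, p) ↔ x = i ∧ y = p := by
      rw [Sym2.eq_iff]
      constructor
      · rintro (h | h)
        · exact h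
        · exact absurd h.1 (nK hx hp)
      · exact Or.inl
    have e2 : s(x, y) = s(q, j) ↔ x = j ∧ y = q := by
      rw [Sym2.eq_iff]
      constructor
      · rintro (h | h)
        · exact absurd h.1 (nK hx hq)
        · exact h
      · exact Or.inr
    have e3 : s(x, y) = s(i, q) ↔ x = i ∧ y = q := by
      rw [Sym2.eq_iff]
      constructor
      · rintro (h | h)
        · exact h
        · exact absurd h.1 (nK hx hq)
      · exact Or.inl
    have e4 : s(x, y) = s(p, j) ↔ x = j ∧ y = p := by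
      rw [Sym2.eq_iff]
      constructor
      · rintro (h | h)
        · exact absurd h.1 (nK hx hp)
        · exact h
      · exact Or.inr
    have k' : G'.1.Adj x y ↔ swRaw i j p q (toRaw K G.1) x y = true := by
      rw [← hY, toRaw_eq_true]
      exact ⟨fun h => ⟨hx, hy, h⟩, fun h => h.2.2⟩
    have k : G.1.Adj x y ↔ toRaw K G.1 x y = true := by
      rw [toRaw_eq_true]
      exact ⟨fun h => ⟨hx, hy, h⟩, fun h => h.2.2⟩
    rw [e1, e2, e3, e4, k', k]
    unfold swRaw
    by_cases hxi : x = i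
    · subst hxi
      by_cases hyp : y = p
      · subst hyp
        simp [h1, hpq, hij]
      · by_cases hyq : y = q
        · subst hyq
          simp [h2]
        · simp [hyp, hyq, hij]
    · by_cases hxj : x = j
      · subst hxj
        by_cases hyp : y = p
        · subst hyp
          simp [h3]
        · by_cases hyq : y = q
          · subst hyq
            simp [h4, hxi, hyp]
          · simp [hyp, hyq, hxi]
      · simp [hxi, hxj]
  refine ⟨i, p, q, j, nK hi hp, nK hi hq, hij, hpq, (nK hj hp).symm, (nK hj hq).symm, hip,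
    hjq.symm, hiq, fun h => hjp h.symm, ?_⟩
  ext z
  refine Sym2.ind (fun x y => ?_) z
  simp only [SimpleGraph.mem_edgeSet, Set.mem_union, Set.mem_sdiff, Set.mem_insert_iff,
    Set.mem_singleton_iff, not_or]
  by_cases hx : x ∈ K
  · by_cases hy : y ∈ K
    · have a1 : ∀ u v : Fin n, (u ∉ K ∨ v ∉ K) → ¬ s(x, y) = s(u, v) := by
        intro u v huv h
        rw [Sym2.eq_iff] at h
        rcases h with ⟨rfl, rfl⟩ | ⟨rfl, rfl⟩
        · rcases huv with h | h
          · exact h hx
          · exact h hy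
        · rcases huv with h | h
          · exact h hy
          · exact h hx
      constructor
      · intro h
        exact Or.inl ⟨(hK G).1 x hx y hy h.ne, a1 i p (Or.inl hi), a1 q j (Or.inr hj)⟩
      · rintro (h | h | h)
        · exact (hK G').1 x hx y hy h.1.ne
        · exact absurd h (a1 i q (Or.inl hi))
        · exact absurd h (a1 p j (Or.inr hj))
    · have := mixed y x hy hx
      rw [SimpleGraph.adj_comm G'.1, SimpleGraph.adj_comm G.1, Sym2.eq_swap (a := x)]
      exact this
  · by_cases hy : y ∈ K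
    · exact mixed x y hx hy
    · have a1 : ∀ u v : Fin n, (u ∈ K ∨ v ∈ K) → ¬ s(x, y) = s(u, v) := by
        intro u v huv h
        rw [Sym2.eq_iff] at h
        rcases h with ⟨rfl, rfl⟩ | ⟨rfl, rfl⟩
        · rcases huv with h | h
          · exact hx h
          · exact hy h
        · rcases huv with h | h
          · exact hy h
          · exact hx h
      constructor
      · intro h
        exact absurd h ((hK G').2 x hx y hy)
      · rintro (h | h | h)
        · exact absurd h.1 ((hK G).2 x hx y hy)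
        · exact absurd h (a1 i q (Or.inr hq))
        · exact absurd h (a1 p j (Or.inl hp))

end

/-- The map `G ↦ X_G`, `X_G i p = true` iff `i ∉ K`, `p ∈ K` and `G.Adj i p`, is a bijection from
the realizations onto `Mat (rowSum d K) (colSum d K)`; the inverse sends `X` to the graph with
`Adj x y ↔ x ≠ y ∧ (x ∈ K ∧ y ∈ K ∨ X x y ∨ X y x)`.  A matrix switch on rows `i j`, columns `p q`
is the graph switch with `(a, b, c, e) = (i, p, q, j)`. -/
theorem exists_equiv_mat {d : Fin n → ℕ} {K : Finset (Fin n)} (hK : Forced n d K)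
    (G₀ : Realization n d) :
    ∃ e : Realization n d ≃ Mat (rowSum d K) (colSum d K),
      ∀ G G', IsSw univ univ (e G) (e G') → IsSwitch G.1 G'.1 := by
  refine ⟨{ toFun := fun G => ⟨toRaw K G.1, isMat_toRaw hK G⟩
            invFun := fun X => ⟨ofRawGraph K X.1, degree_ofRawGraph hK G₀ X⟩
            left_inv := fun G => Subtype.ext (ofRawGraph_toRaw hK G)
            right_inv := fun X => Subtype.ext (toRaw_ofRawGraph X) }, ?_⟩
  intro G G' h
  obtain ⟨i, -, j, -, p, -, q, -, hS, hY⟩ := h
  exact isSwitch_of_swRaw hK G G' hS hY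

theorem E_univ_univ {ι κ : Type*} [Fintype ι] [Fintype κ] [DecidableEq ι] [DecidableEq κ]
    {r : ι → ℕ} {c : κ → ℕ} (f : Mat r c → ℝ) (hf : ∑ X, f X = 0) : E univ univ f = 0 := by
  have h : (AgreeOff (r := r) (c := c) univ univ) = fun _ _ => True := by
    funext X Y
    apply propext
    constructor
    · intro _; trivial
    · intro _ i p hip
      exact absurd ⟨mem_univ i, mem_univ p⟩ hip
  funext X
  unfold E
  rw [h, avg_top, hf]
  simp

/-- **Poincare inequality for the switch graph on the realizations of a split degree vector** -/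
theorem graph_poincare {d : Fin n → ℕ} (hs : IsSplit n d) (f : Realization n d → ℝ)
    (hf : ∑ G, f G = 0) :
    ∑ G, f G ^ 2 ≤ (1 / 4) * ∑ G : Realization n d, ∑ G' : Realization n d,
      (if IsSwitch G.1 G'.1 then (f G - f G') ^ 2 else 0) := by
  obtain ⟨K, hK⟩ := forced_of_isSplit hs
  obtain ⟨e, he⟩ := exists_equiv_mat hK hs.choose
  have hf' : ∑ X, (f ∘ e.symm) X = 0 := by
    rw [← hf]
    exact Equiv.sum_comp e.symm f
  have h1 := mat_poincare (f ∘ e.symm)
  rw [E_univ_univ _ hf', sub_zero] at h1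
  have h2 : dot (f ∘ e.symm) (f ∘ e.symm) = ∑ G, f G ^ 2 := by
    unfold dot
    rw [← Equiv.sum_comp e.symm (fun G => f G ^ 2)]
    refine Finset.sum_congr rfl (fun X _ => ?_)
    simp [sq]
  rw [h2] at h1
  refine le_trans h1 ?_
  refine mul_le_mul_of_nonneg_left ?_ (by norm_num)
  rw [← Equiv.sum_comp e]
  refine Finset.sum_le_sum (fun G _ => ?_)
  rw [← Equiv.sum_comp e]
  refine Finset.sum_le_sum (fun G' _ => ?_)
  by_cases h : IsSw univ univ (e G) (e G')
  · rw [if_pos h, if_pos (he G G' h)]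
    simp
  · rw [if_neg h]
    split_ifs
    · exact sq_nonneg _
    · exact le_refl _

end P335
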