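import Mathlib

/-!
# P335: the Johnson-scheme inequality (II)

`M` a finite set, `P` the family of its `k`-subsets, `φ` a real function on `P` of sum zero.
For `w z ∈ M` let `jl w z` be the sum of `φ` over the members of `P` containing exactly one of
`w, z`, and `jD w z = ∑_S (φ S - φ (τ_{wz} S))^2`.  Then
`|M| ∑_{w,z} (jl w z)^2 ≤ (|M|-2) C(|M|-2,k-1)/2 ∑_{w,z} jD w z`.
-/

namespace P335
namespace Johnson

open Finset

variable {V : Type*} [DecidableEq V]

/-- image of `S` under the transposition `(w z)` -/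
def jsw (w z : V) (S : Finset V) : Finset V := S.image (Equiv.swap w z)

/-- real indicator of `w ∈ S` -/
def ind (S : Finset V) (w : V) : ℝ := if w ∈ S then 1 else 0

theorem mem_jsw {w z x : V} {S : Finset V} : x ∈ jsw w z S ↔ Equiv.swap w z x ∈ S := by
  unfold jsw
  constructor
  · intro h
    obtain ⟨y, hy, rfl⟩ := Finset.mem_image.1 h
    simpa using hy
  · intro h
    exact Finset.mem_image.2 ⟨_, h, by simp⟩

theorem jsw_jsw (w z : V) (S : Finset V) : jsw w z (jsw w z S) = S := by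
  ext x
  simp [mem_jsw]

theorem jsw_self (w : V) (S : Finset V) : jsw w w S = S := by
  ext x
  simp [mem_jsw]

theorem ind_jsw (w z x : V) (S : Finset V) : ind (jsw w z S) x = ind S (Equiv.swap w z x) := by
  unfold ind
  simp only [mem_jsw]

theorem ind_sq (S : Finset V) (w : V) : ind S w * ind S w = ind S w := by
  unfold ind
  split_ifs <;> simp

theorem ind_cases (S : Finset V) (w : V) : ind S w = 0 ∨ ind S w = 1 := by
  unfold ind
  split_ifs <;> simp

theorem jsw_mem {M : Finset V} {k : ℕ} {w z : V} (hw : w ∈ M) (hz : z ∈ M) {S : Finset V}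
    (hS : S ∈ M.powersetCard k) : jsw w z S ∈ M.powersetCard k := by
  rw [Finset.mem_powersetCard] at hS ⊢
  refine ⟨?_, ?_⟩
  · intro x hx
    rw [mem_jsw] at hx
    have h := hS.1 hx
    by_cases h1 : x = w
    · subst h1; exact hw
    by_cases h2 : x = z
    · subst h2; exact hz
    rwa [Equiv.swap_apply_of_ne_of_ne h1 h2] at h
  · unfold jsw
    rw [Finset.card_image_of_injective _ (Equiv.injective _)]
    exact hS.2

theorem sum_jsw {M : Finset V} {k : ℕ} {w z : V} (hw : w ∈ M) (hz : z ∈ M)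
    (g : Finset V → ℝ) :
    ∑ S ∈ M.powersetCard k, g (jsw w z S) = ∑ S ∈ M.powersetCard k, g S := by
  refine Finset.sum_nbij' (jsw w z) (jsw w z) ?_ ?_ ?_ ?_ ?_
  · intro S hS; exact jsw_mem hw hz hS
  · intro S hS; exact jsw_mem hw hz hS
  · intro S _; exact jsw_jsw w z S
  · intro S _; exact jsw_jsw w z S
  · intro S _; rfl

/-- sum of `φ` over the `k`-subsets of `M` containing exactly one of `w`, `z` -/
def jl (M : Finset V) (k : ℕ) (φ : Finset V → ℝ) (w z : V) : ℝ :=
  ∑ S ∈ (M.powersetCard k).filter (fun S => ¬ (w ∈ S ↔ z ∈ S)), φ S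

/-- the Dirichlet form of the transposition `(w z)` -/
def jD (M : Finset V) (k : ℕ) (φ : Finset V → ℝ) (w z : V) : ℝ :=
  ∑ S ∈ M.powersetCard k, (φ S - φ (jsw w z S)) ^ 2

/-- sum of `φ` over the `k`-subsets of `M` containing `w` -/
def jA (M : Finset V) (k : ℕ) (φ : Finset V → ℝ) (w : V) : ℝ :=
  ∑ S ∈ M.powersetCard k, φ S * ind S w

theorem jD_nonneg (M : Finset V) (k : ℕ) (φ : Finset V → ℝ) (w z : V) : 0 ≤ jD M k φ w z :=
  Finset.sum_nonneg fun _ _ => sq_nonneg _

theorem jD_self (M : Finset V) (k : ℕ) (φ : Finset V → ℝ) (w : V) : jD M k φ w w = 0 := by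
  unfold jD
  simp [jsw_self]

theorem xor_ind (S : Finset V) (w z : V) :
    (if ¬ (w ∈ S ↔ z ∈ S) then (1 : ℝ) else 0) = (ind S w - ind S z) ^ 2 := by
  unfold ind
  by_cases h1 : w ∈ S <;> by_cases h2 : z ∈ S <;> simp [h1, h2]

theorem jl_eq (M : Finset V) (k : ℕ) (φ : Finset V → ℝ) (w z : V) :
    jl M k φ w z = ∑ S ∈ M.powersetCard k, φ S * (ind S w - ind S z) ^ 2 := by
  unfold jl
  rw [Finset.sum_filter]
  refine Finset.sum_congr rfl fun S _ => ?_
  rw [← xor_ind]
  split_ifs <;> simp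

theorem jl_self (M : Finset V) (k : ℕ) (φ : Finset V → ℝ) (w : V) : jl M k φ w w = 0 := by
  rw [jl_eq]
  simp

/-- number of `k`-subsets containing exactly one of `w`, `z` -/
def jN (M : Finset V) (k : ℕ) (w z : V) : ℕ :=
  ((M.powersetCard k).filter (fun S => ¬ (w ∈ S ↔ z ∈ S))).card

theorem jN_eq (M : Finset V) (k : ℕ) (w z : V) :
    (jN M k w z : ℝ) = ∑ S ∈ M.powersetCard k, (ind S w - ind S z) ^ 2 := by
  unfold jN
  rw [Finset.card_filter]
  push_cast
  exact Finset.sum_congr rfl fun S _ => xor_ind S w z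

/-- the basic Cauchy-Schwarz step -/
theorem cs_step {M : Finset V} {k : ℕ} (φ c : Finset V → ℝ) {z z' : V} (hz : z ∈ M)
    (hz' : z' ∈ M) :
    4 * (∑ S ∈ M.powersetCard k, φ S * c S - ∑ S ∈ M.powersetCard k, φ S * c (jsw z z' S)) ^ 2
      ≤ jD M k φ z z' * ∑ S ∈ M.powersetCard k, (c S - c (jsw z z' S)) ^ 2 := by
  have h1 : ∑ S ∈ M.powersetCard k, φ (jsw z z' S) * c S
      = ∑ S ∈ M.powersetCard k, φ S * c (jsw z z' S) := by
    rw [← sum_jsw hz hz' (fun S => φ (jsw z z' S) * c S)]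
    simp only [jsw_jsw]
  have h2 : ∑ S ∈ M.powersetCard k, φ (jsw z z' S) * c (jsw z z' S)
      = ∑ S ∈ M.powersetCard k, φ S * c S :=
    sum_jsw hz hz' (fun S => φ S * c S)
  have h3 : ∑ S ∈ M.powersetCard k, (φ S - φ (jsw z z' S)) * (c S - c (jsw z z' S))
      = 2 * (∑ S ∈ M.powersetCard k, φ S * c S
          - ∑ S ∈ M.powersetCard k, φ S * c (jsw z z' S)) := by
    have : ∀ S, (φ S - φ (jsw z z' S)) * (c S - c (jsw z z' S))
        = φ S * c S - φ S * c (jsw z z' S) - φ (jsw z z' S) * c S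
          + φ (jsw z z' S) * c (jsw z z' S) := fun S => by ring
    simp only [this, Finset.sum_add_distrib, Finset.sum_sub_distrib, h1, h2]
    ring
  have h4 := Finset.sum_mul_sq_le_sq_mul_sq (M.powersetCard k)
    (fun S => φ S - φ (jsw z z' S)) (fun S => c S - c (jsw z z' S))
  rw [h3] at h4
  unfold jD
  nlinarith [h4]

/-- counting: `k+1`-subsets of `M` containing `z` but not `z'` -/
theorem card_mem_not_mem {M : Finset V} (k : ℕ) {z z' : V} (hz : z ∈ M) (hz' : z' ∈ M)
    (hne : z ≠ z') :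
    ((M.powersetCard (k + 1)).filter (fun S => z ∈ S ∧ z' ∉ S)).card
      = (M.card - 2).choose k := by
  have hc : ((M.erase z).erase z').card = M.card - 2 := by
    rw [Finset.card_erase_of_mem (Finset.mem_erase.2 ⟨hne.symm, hz'⟩),
      Finset.card_erase_of_mem hz]
    omega
  rw [← hc, ← Finset.card_powersetCard]
  refine Finset.card_nbij' (fun S => S.erase z) (fun T => insert z T) ?_ ?_ ?_ ?_
  · intro S hS
    simp only [Finset.coe_filter, Set.mem_ofPred_eq, Finset.mem_powersetCard] at hS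
    simp only [Finset.mem_coe, Finset.mem_powersetCard]
    obtain ⟨⟨h1, h2⟩, h3, h4⟩ := hS
    refine ⟨?_, ?_⟩
    · intro x hx
      rw [Finset.mem_erase] at hx
      refine Finset.mem_erase.2 ⟨?_, Finset.mem_erase.2 ⟨hx.1, h1 hx.2⟩⟩
      rintro rfl
      exact h4 hx.2
    · rw [Finset.card_erase_of_mem h3, h2]
      rfl
  · intro T hT
    simp only [Finset.mem_coe, Finset.mem_powersetCard] at hT
    simp only [Finset.coe_filter, Set.mem_ofPred_eq, Finset.mem_powersetCard]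
    obtain ⟨h1, h2⟩ := hT
    have hzT : z ∉ T := fun h => by
      have := h1 h
      simp at this
    refine ⟨⟨?_, ?_⟩, Finset.mem_insert_self _ _, ?_⟩
    · intro x hx
      rcases Finset.mem_insert.1 hx with rfl | hx
      · exact hz
      · exact Finset.mem_of_mem_erase (Finset.mem_of_mem_erase (h1 hx))
    · rw [Finset.card_insert_of_notMem hzT, h2]
    · intro h
      rcases Finset.mem_insert.1 h with h | h
      · exact hne h.symm
      · have := h1 h
        simp at this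
  · intro S hS
    simp only [Finset.coe_filter, Set.mem_ofPred_eq] at hS
    exact Finset.insert_erase hS.2.1
  · intro T hT
    simp only [Finset.mem_coe, Finset.mem_powersetCard] at hT
    have hzT : z ∉ T := fun h => by
      have := hT.1 h
      simp at this
    exact Finset.erase_insert hzT

theorem jN_succ {M : Finset V} (k : ℕ) {z z' : V} (hz : z ∈ M) (hz' : z' ∈ M) (hne : z ≠ z') :
    jN M (k + 1) z z' = 2 * (M.card - 2).choose k := by
  unfold jN
  have h : (M.powersetCard (k + 1)).filter (fun S => ¬ (z ∈ S ↔ z' ∈ S))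
      = (M.powersetCard (k + 1)).filter (fun S => z ∈ S ∧ z' ∉ S)
        ∪ (M.powersetCard (k + 1)).filter (fun S => z' ∈ S ∧ z ∉ S) := by
    ext S
    simp only [Finset.mem_filter, Finset.mem_union]
    tauto
  rw [h, Finset.card_union_of_disjoint, card_mem_not_mem k hz hz' hne,
    card_mem_not_mem k hz' hz hne.symm]
  · ring
  · rw [Finset.disjoint_left]
    intro S h1 h2
    simp only [Finset.mem_filter] at h1 h2
    exact h1.2.2 h2.2.1

/-- variance identity -/
theorem var_id {ι : Type*} (I : Finset ι) (x : ι → ℝ) :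
    ∑ i ∈ I, ∑ j ∈ I, (x i - x j) ^ 2
      = 2 * (I.card : ℝ) * ∑ i ∈ I, x i ^ 2 - 2 * (∑ i ∈ I, x i) ^ 2 := by
  have h : ∀ i j, (x i - x j) ^ 2 = x i ^ 2 - 2 * (x i * x j) + x j ^ 2 := fun i j => by ring
  simp only [h, Finset.sum_add_distrib, Finset.sum_sub_distrib, Finset.sum_const, nsmul_eq_mul,
    ← Finset.mul_sum, ← Finset.sum_mul]
  ring

theorem sum_ind {M : Finset V} {k : ℕ} {S : Finset V} (hS : S ∈ M.powersetCard k) :
    ∑ w ∈ M, ind S w = k := by
  rw [Finset.mem_powersetCard] at hS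
  unfold ind
  rw [Finset.sum_ite_mem, Finset.inter_eq_right.2 hS.1]
  simp [hS.2]

theorem sum_jA {M : Finset V} {k : ℕ} {φ : Finset V → ℝ}
    (h0 : ∑ S ∈ M.powersetCard k, φ S = 0) : ∑ w ∈ M, jA M k φ w = 0 := by
  unfold jA
  rw [Finset.sum_comm]
  have : ∀ S ∈ M.powersetCard k, ∑ w ∈ M, φ S * ind S w = φ S * k := fun S hS => by
    rw [← Finset.mul_sum, sum_ind hS]
  rw [Finset.sum_congr rfl this, ← Finset.sum_mul, h0, zero_mul]

theorem sum_jl {M : Finset V} {k : ℕ} {φ : Finset V → ℝ}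
    (h0 : ∑ S ∈ M.powersetCard k, φ S = 0) (w : V) :
    ∑ z ∈ M, jl M k φ w z = ((M.card : ℝ) - 2 * k) * jA M k φ w := by
  simp only [jl_eq]
  rw [Finset.sum_comm]
  have : ∀ S ∈ M.powersetCard k, ∑ z ∈ M, φ S * (ind S w - ind S z) ^ 2
      = ((M.card : ℝ) - 2 * k) * (φ S * ind S w) + k * φ S := fun S hS => by
    have h1 : ∀ z, φ S * (ind S w - ind S z) ^ 2
        = φ S * ind S w + (φ S - 2 * (φ S * ind S w)) * ind S z := fun z => by
      have a := ind_sq S w
      have b := ind_sq S z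
      calc φ S * (ind S w - ind S z) ^ 2
          = φ S * (ind S w * ind S w - 2 * ind S w * ind S z + ind S z * ind S z) := by ring
        _ = _ := by rw [a, b]; ring
    simp only [h1, Finset.sum_add_distrib, Finset.sum_const, nsmul_eq_mul, ← Finset.mul_sum,
      sum_ind hS]
    ring
  rw [Finset.sum_congr rfl this, Finset.sum_add_distrib, ← Finset.mul_sum, ← Finset.mul_sum, h0]
  unfold jA
  ring

theorem jsw_comm (w z : V) (S : Finset V) : jsw w z S = jsw z w S := by
  unfold jsw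
  rw [Equiv.swap_comm]

theorem jD_comm (M : Finset V) (k : ℕ) (φ : Finset V → ℝ) (w z : V) :
    jD M k φ w z = jD M k φ z w := by
  unfold jD
  simp only [jsw_comm w z]

/-- step (a) -/
theorem jA_sub_sq_le {M : Finset V} {k : ℕ} (φ : Finset V → ℝ) {w z : V} (hw : w ∈ M)
    (hz : z ∈ M) :
    4 * (jA M k φ w - jA M k φ z) ^ 2 ≤ jD M k φ w z * jN M k w z := by
  have h := cs_step (k := k) φ (fun S => ind S w) hw hz
  simp only [ind_jsw, Equiv.swap_apply_left] at h
  rw [jN_eq]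
  exact h

/-- step (c) -/
theorem jl_sub_sq_le {M : Finset V} {k : ℕ} (φ : Finset V → ℝ) {w z z' : V} (hz : z ∈ M)
    (hz' : z' ∈ M) (hwz : w ≠ z) (hwz' : w ≠ z') :
    4 * (jl M k φ w z - jl M k φ w z') ^ 2 ≤ jD M k φ z z' * jN M k z z' := by
  have h := cs_step (k := k) φ (fun S => (ind S w - ind S z) ^ 2) hz hz'
  simp only [ind_jsw, Equiv.swap_apply_left, Equiv.swap_apply_of_ne_of_ne hwz hwz'] at h
  rw [jN_eq, jl_eq, jl_eq]
  have h2 : ∀ S : Finset V, ((ind S w - ind S z) ^ 2 - (ind S w - ind S z') ^ 2) ^ 2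
      = (ind S z - ind S z') ^ 2 := by
    intro S
    rcases ind_cases S w with a | a <;> rcases ind_cases S z with b | b <;>
      rcases ind_cases S z' with c | c <;> rw [a, b, c] <;> norm_num
  simp only [h2] at h
  exact h

/-- removing one point from a symmetric double sum vanishing on the diagonal -/
theorem sum_erase_erase {M : Finset V} (D : V → V → ℝ) (hs : ∀ a b, D a b = D b a)
    (hd : ∀ a, D a a = 0) :
    ∑ w ∈ M, ∑ z ∈ M.erase w, ∑ z' ∈ M.erase w, D z z'
      = ((M.card : ℝ) - 2) * ∑ z ∈ M, ∑ z' ∈ M, D z z' := by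
  have key : ∀ w ∈ M, ∑ z ∈ M.erase w, ∑ z' ∈ M.erase w, D z z'
      = ∑ z ∈ M, ∑ z' ∈ M, D z z' - 2 * ∑ z' ∈ M, D w z' := by
    intro w hw
    have h1 : ∀ z, ∑ z' ∈ M.erase w, D z z' = ∑ z' ∈ M, D z z' - D z w := fun z => by
      rw [← Finset.add_sum_erase M (fun z' => D z z') hw]
      ring
    simp only [h1, Finset.sum_sub_distrib]
    have h2 : ∑ z ∈ M.erase w, ∑ z' ∈ M, D z z'
        = ∑ z ∈ M, ∑ z' ∈ M, D z z' - ∑ z' ∈ M, D w z' := by
      rw [← Finset.add_sum_erase M (fun z => ∑ z' ∈ M, D z z') hw]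
      ring
    have h3 : ∑ z ∈ M.erase w, D z w = ∑ z' ∈ M, D w z' := by
      rw [Finset.sum_erase (f := fun z => D z w) M (hd w)]
      exact Finset.sum_congr rfl fun z _ => hs z w
    rw [h2, h3]
    ring
  rw [Finset.sum_congr rfl key, Finset.sum_sub_distrib, Finset.sum_const, nsmul_eq_mul,
    ← Finset.mul_sum]
  ring

/-- both sides vanish when `φ` vanishes -/
theorem bound_of_zero {M : Finset V} {k : ℕ} {φ : Finset V → ℝ}
    (h : ∀ S ∈ M.powersetCard k, φ S = 0) (c : ℝ) :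
    (M.card : ℝ) * ∑ w ∈ M, ∑ z ∈ M, (jl M k φ w z) ^ 2 ≤ c * ∑ w ∈ M, ∑ z ∈ M, jD M k φ w z := by
  have h1 : ∀ w z, jl M k φ w z = 0 := fun w z => by
    unfold jl
    exact Finset.sum_eq_zero fun S hS => h S (Finset.mem_filter.1 hS).1
  have h2 : ∀ w ∈ M, ∀ z ∈ M, jD M k φ w z = 0 := fun w hw z hz => by
    unfold jD
    refine Finset.sum_eq_zero fun S hS => ?_
    rw [h S hS, h _ (jsw_mem hw hz hS)]
    norm_num
  have h3 : ∑ w ∈ M, ∑ z ∈ M, jD M k φ w z = 0 :=
    Finset.sum_eq_zero fun w hw => Finset.sum_eq_zero fun z hz => h2 w hw z hz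
  simp [h1, h3]

/-- the main case `1 ≤ k+1 ≤ |M|-1` -/
theorem bound_main {M : Finset V} {k : ℕ} {φ : Finset V → ℝ}
    (h0 : ∑ S ∈ M.powersetCard (k + 1), φ S = 0) (hk : k + 1 + 1 ≤ M.card) :
    (M.card : ℝ) * ∑ w ∈ M, ∑ z ∈ M, (jl M (k + 1) φ w z) ^ 2
      ≤ ((M.card : ℝ) - 2) * ((M.card - 2).choose k : ℝ) / 2
        * ∑ w ∈ M, ∑ z ∈ M, jD M (k + 1) φ w z := by
  set n1 : ℝ := ((M.card - 2).choose k : ℝ) with hn1
  set m : ℝ := (M.card : ℝ) with hm
  set Dt : ℝ := ∑ w ∈ M, ∑ z ∈ M, jD M (k + 1) φ w z with hDt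
  set L : ℝ := ∑ w ∈ M, ∑ z ∈ M, (jl M (k + 1) φ w z) ^ 2 with hL
  set SA : ℝ := ∑ w ∈ M, (jA M (k + 1) φ w) ^ 2 with hSA
  have hn1' : 0 ≤ n1 := Nat.cast_nonneg _
  have hDt0 : 0 ≤ Dt := Finset.sum_nonneg fun w _ => Finset.sum_nonneg fun z _ => jD_nonneg _ _ _ _ _
  have hSA0 : 0 ≤ SA := Finset.sum_nonneg fun w _ => sq_nonneg _
  have hm2 : (k : ℝ) + 2 ≤ m := by
    rw [hm]
    exact_mod_cast hk
  have hk0 : (0 : ℝ) ≤ k := Nat.cast_nonneg _
  -- pointwise bounds
  have hA : ∀ w ∈ M, ∀ z ∈ M, (jA M (k + 1) φ w - jA M (k + 1) φ z) ^ 2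
      ≤ n1 / 2 * jD M (k + 1) φ w z := by
    intro w hw z hz
    by_cases hne : w = z
    · subst hne
      simp [jD_self]
    · have h := jA_sub_sq_le (k := k + 1) φ hw hz
      rw [jN_succ k hw hz hne] at h
      push_cast at h
      rw [← hn1] at h
      linarith
  have hl : ∀ w, ∀ z ∈ M.erase w, ∀ z' ∈ M.erase w,
      (jl M (k + 1) φ w z - jl M (k + 1) φ w z') ^ 2 ≤ n1 / 2 * jD M (k + 1) φ z z' := by
    intro w z hz z' hz'
    rw [Finset.mem_erase] at hz hz'
    by_cases hne : z = z'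
    · subst hne
      simp [jD_self]
    · have h := jl_sub_sq_le (k := k + 1) φ hz.2 hz'.2 hz.1.symm hz'.1.symm
      rw [jN_succ k hz.2 hz'.2 hne] at h
      push_cast at h
      rw [← hn1] at h
      linarith
  -- H1
  have H1 : 2 * m * SA ≤ n1 / 2 * Dt := by
    have h := var_id M (fun w => jA M (k + 1) φ w)
    rw [sum_jA h0] at h
    have h' : ∑ w ∈ M, ∑ z ∈ M, (jA M (k + 1) φ w - jA M (k + 1) φ z) ^ 2 ≤ n1 / 2 * Dt := by
      rw [hDt, Finset.mul_sum]
      refine Finset.sum_le_sum fun w hw => ?_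
      rw [Finset.mul_sum]
      exact Finset.sum_le_sum fun z hz => hA w hw z hz
    rw [h] at h'
    linarith
  -- H2
  have H2 : 2 * (m - 1) * L ≤ 2 * (m - 2 * (k + 1)) ^ 2 * SA + n1 / 2 * ((m - 2) * Dt) := by
    have hw : ∀ w ∈ M, 2 * (m - 1) * ∑ z ∈ M, (jl M (k + 1) φ w z) ^ 2
        ≤ 2 * (m - 2 * (k + 1)) ^ 2 * (jA M (k + 1) φ w) ^ 2
          + n1 / 2 * ∑ z ∈ M.erase w, ∑ z' ∈ M.erase w, jD M (k + 1) φ z z' := by
      intro w hw
      have h := var_id (M.erase w) (fun z => jl M (k + 1) φ w z)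
      have e1 : ∑ z ∈ M.erase w, jl M (k + 1) φ w z
          = (m - 2 * (k + 1)) * jA M (k + 1) φ w := by
        rw [Finset.sum_erase M (jl_self M (k + 1) φ w), sum_jl h0 w]
        push_cast
        rfl
      have e2 : ∑ z ∈ M.erase w, (jl M (k + 1) φ w z) ^ 2
          = ∑ z ∈ M, (jl M (k + 1) φ w z) ^ 2 := by
        apply Finset.sum_erase
        rw [jl_self]
        norm_num
      have e3 : ((M.erase w).card : ℝ) = m - 1 := by
        rw [Finset.card_erase_of_mem hw, Nat.cast_sub (by omega)]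
        simp [hm]
      rw [e1, e2, e3] at h
      have h' : ∑ z ∈ M.erase w, ∑ z' ∈ M.erase w,
          (jl M (k + 1) φ w z - jl M (k + 1) φ w z') ^ 2
          ≤ n1 / 2 * ∑ z ∈ M.erase w, ∑ z' ∈ M.erase w, jD M (k + 1) φ z z' := by
        rw [Finset.mul_sum]
        refine Finset.sum_le_sum fun z hz => ?_
        rw [Finset.mul_sum]
        exact Finset.sum_le_sum fun z' hz' => hl w z hz z' hz'
      rw [h] at h'
      nlinarith [h']
    have hs := Finset.sum_le_sum hw
    rw [← Finset.mul_sum, Finset.sum_add_distrib, ← Finset.mul_sum, ← Finset.mul_sum,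
      sum_erase_erase (fun a b => jD M (k + 1) φ a b) (jD_comm M (k + 1) φ)
        (jD_self M (k + 1) φ)] at hs
    exact hs
  -- arithmetic
  have hq : (m - 2 * (k + 1)) ^ 2 ≤ (m - 2) ^ 2 := by
    apply sq_le_sq'
    · linarith
    · linarith
  have h5 : (m - 2 * (k + 1)) ^ 2 * (2 * m * SA) ≤ (m - 2) ^ 2 * (n1 / 2 * Dt) := by
    have hmSA : 0 ≤ 2 * m * SA := by
      have : 0 ≤ m := by linarith
      positivity
    calc (m - 2 * (k + 1)) ^ 2 * (2 * m * SA) ≤ (m - 2) ^ 2 * (2 * m * SA) :=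
          mul_le_mul_of_nonneg_right hq hmSA
      _ ≤ (m - 2) ^ 2 * (n1 / 2 * Dt) := mul_le_mul_of_nonneg_left H1 (sq_nonneg _)
  have hm1 : 0 < 2 * (m - 1) := by linarith
  have h6 : 2 * (m - 1) * (m * L) ≤ 2 * (m - 1) * ((m - 2) * n1 / 2 * Dt) := by
    have hm0 : 0 ≤ m := by linarith
    have := mul_le_mul_of_nonneg_left H2 hm0
    nlinarith [this, h5]
  exact le_of_mul_le_mul_left h6 hm1

/-- **The Johnson-scheme inequality (II).** -/
theorem johnson_bound (M : Finset V) (k : ℕ) (φ : Finset V → ℝ)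
    (h0 : ∑ S ∈ M.powersetCard k, φ S = 0) :
    (M.card : ℝ) * ∑ w ∈ M, ∑ z ∈ M, (jl M k φ w z) ^ 2
      ≤ ((M.card : ℝ) - 2) * ((M.card - 2).choose (k - 1) : ℝ) / 2
        * ∑ w ∈ M, ∑ z ∈ M, jD M k φ w z := by
  rcases Nat.eq_zero_or_pos k with rfl | hk
  · apply bound_of_zero
    intro S hS
    rw [Finset.powersetCard_zero] at h0 hS
    rw [Finset.mem_singleton.1 hS]
    simpa using h0
  obtain ⟨j, rfl⟩ : ∃ j, k = j + 1 := ⟨k - 1, by omega⟩
  by_cases hj : j + 1 + 1 ≤ M.card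
  · simpa using bound_main h0 hj
  · apply bound_of_zero
    intro S hS
    rcases Nat.lt_or_ge M.card (j + 1) with h | h
    · rw [Finset.powersetCard_eq_empty.2 h] at hS
      simp at hS
    · have hc : j + 1 = M.card := by omega
      rw [hc, Finset.powersetCard_self] at h0 hS
      rw [Finset.mem_singleton.1 hS]
      simpa using h0

/-- **Inequality (II) in the `K`-form**: the denominators are the numbers `jN` of `k`-subsets
containing exactly one of `w`, `z` (with `x / 0 = 0`). -/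
theorem johnson_K (M : Finset V) (k : ℕ) (φ : Finset V → ℝ)
    (h0 : ∑ S ∈ M.powersetCard k, φ S = 0) :
    ∑ w ∈ M, ∑ z ∈ M, (jl M k φ w z) ^ 2 / (jN M k w z : ℝ)
      ≤ ((M.card : ℝ) - 2) / M.card * ∑ w ∈ M, ∑ z ∈ M, jD M k φ w z / 4 := by
  have hb := johnson_bound M k φ h0
  by_cases hk : 1 ≤ k ∧ k + 1 ≤ M.card
  · obtain ⟨hk1, hk2⟩ := hk
    obtain ⟨j, rfl⟩ : ∃ j, k = j + 1 := ⟨k - 1, by omega⟩
    simp only [Nat.add_sub_cancel] at hb
    have hpos : 0 < ((M.card - 2).choose j : ℝ) := by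
      have : 0 < (M.card - 2).choose j := Nat.choose_pos (by omega)
      exact_mod_cast this
    have hm : (0 : ℝ) < M.card := by
      have : 0 < M.card := by omega
      exact_mod_cast this
    set n1 : ℝ := ((M.card - 2).choose j : ℝ) with hn1
    have h1 : ∀ w ∈ M, ∀ z ∈ M, (jl M (j + 1) φ w z) ^ 2 / (jN M (j + 1) w z : ℝ)
        = (jl M (j + 1) φ w z) ^ 2 / (2 * n1) := by
      intro w hw z hz
      by_cases hne : w = z
      · subst hne
        simp [jl_self]
      · rw [jN_succ j hw hz hne]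
        push_cast
        rfl
    have h2 : ∑ w ∈ M, ∑ z ∈ M, (jl M (j + 1) φ w z) ^ 2 / (jN M (j + 1) w z : ℝ)
        = (∑ w ∈ M, ∑ z ∈ M, (jl M (j + 1) φ w z) ^ 2) / (2 * n1) := by
      rw [Finset.sum_div]
      refine Finset.sum_congr rfl fun w hw => ?_
      rw [Finset.sum_div]
      exact Finset.sum_congr rfl fun z hz => h1 w hw z hz
    have h3 : ∑ w ∈ M, ∑ z ∈ M, jD M (j + 1) φ w z / 4
        = (∑ w ∈ M, ∑ z ∈ M, jD M (j + 1) φ w z) / 4 := by
      rw [Finset.sum_div]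
      exact Finset.sum_congr rfl fun w _ => (Finset.sum_div _ _ _).symm
    rw [h2, h3, div_le_iff₀ (by positivity)]
    have h4 : ((M.card : ℝ) - 2) / M.card * ((∑ w ∈ M, ∑ z ∈ M, jD M (j + 1) φ w z) / 4)
        * (2 * n1) = (((M.card : ℝ) - 2) * n1 / 2
          * ∑ w ∈ M, ∑ z ∈ M, jD M (j + 1) φ w z) / M.card := by
      field_simp
      ring
    rw [h4, le_div_iff₀ hm]
    linarith
  · -- degenerate cases: `φ` vanishes on the family
    have hz : ∀ S ∈ M.powersetCard k, φ S = 0 := by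
      intro S hS
      rcases Nat.eq_zero_or_pos k with rfl | hk1
      · rw [Finset.powersetCard_zero] at h0 hS
        rw [Finset.mem_singleton.1 hS]
        simpa using h0
      rcases Nat.lt_or_ge M.card k with h | h
      · rw [Finset.powersetCard_eq_empty.2 h] at hS
        simp at hS
      · have hc : k = M.card := by
          by_contra hne
          exact hk ⟨hk1, by omega⟩
        rw [hc, Finset.powersetCard_self] at h0 hS
        rw [Finset.mem_singleton.1 hS]
        simpa using h0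
    have h1 : ∀ w z, jl M k φ w z = 0 := fun w z => by
      unfold jl
      exact Finset.sum_eq_zero fun S hS => hz S (Finset.mem_filter.1 hS).1
    have h2 : ∀ w ∈ M, ∀ z ∈ M, jD M k φ w z / 4 = 0 := fun w hw z hz' => by
      unfold jD
      rw [Finset.sum_eq_zero, zero_div]
      intro S hS
      rw [hz S hS, hz _ (jsw_mem hw hz' hS)]
      norm_num
    have h3 : ∑ w ∈ M, ∑ z ∈ M, jD M k φ w z / 4 = 0 :=
      Finset.sum_eq_zero fun w hw => Finset.sum_eq_zero fun z hz' => h2 w hw z hz'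
    simp [h1, h3]

end Johnson
end P335
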