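import Mathlib

/-!
# P335: the Johnson-scheme inequality (II) over an abstract fibre

`P` is a finite family (a fibre), `M` a finite set of free columns, `s S w` says whether the
column `w` is occupied in `S`, and `τ w z` is the transposition of the columns `w`, `z` acting
on the fibre.  For `φ` of sum zero over `P`,
`∑_{w,z ∈ M} (wl w z)^2 / wN w z ≤ ((|M|-2)/|M|) ∑_{w,z ∈ M} wD w z / 4`.
-/

namespace P335
namespace JohnsonW

open Finset

variable {W V : Type*} [DecidableEq V]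

/-- the hypotheses on a fibre -/
structure IsJohnson (P : Finset W) (M : Finset V) (s : W → V → Bool) (τ : V → V → W → W)
    (kk : ℕ) : Prop where
  mem : ∀ w ∈ M, ∀ z ∈ M, ∀ S ∈ P, τ w z S ∈ P
  swap : ∀ w ∈ M, ∀ z ∈ M, ∀ S ∈ P, ∀ x, s (τ w z S) x = s S (Equiv.swap w z x)
  inj : ∀ S ∈ P, ∀ T ∈ P, (∀ x, s S x = s T x) → S = T
  card : ∀ S ∈ P, (M.filter (fun w => s S w = true)).card = kk

/-- real indicator of `s S w` -/
def ind (s : W → V → Bool) (S : W) (w : V) : ℝ := if s S w = true then 1 else 0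

/-- sum of `φ` over the members of the fibre with exactly one of `w`, `z` occupied -/
def wl (P : Finset W) (s : W → V → Bool) (φ : W → ℝ) (w z : V) : ℝ :=
  ∑ S ∈ P.filter (fun S => s S w ≠ s S z), φ S

/-- the Dirichlet form of the transposition `(w z)` -/
def wD (P : Finset W) (τ : V → V → W → W) (φ : W → ℝ) (w z : V) : ℝ :=
  ∑ S ∈ P, (φ S - φ (τ w z S)) ^ 2

/-- number of members of the fibre with exactly one of `w`, `z` occupied -/
def wN (P : Finset W) (s : W → V → Bool) (w z : V) : ℕ :=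
  (P.filter (fun S => s S w ≠ s S z)).card

/-- sum of `φ` over the members of the fibre with `w` occupied -/
def wA (P : Finset W) (s : W → V → Bool) (φ : W → ℝ) (w : V) : ℝ :=
  ∑ S ∈ P, φ S * ind s S w

section basic

variable {P : Finset W} {M : Finset V} {s : W → V → Bool} {τ : V → V → W → W} {kk : ℕ}

theorem IsJohnson.invol (h : IsJohnson P M s τ kk) {w z : V} (hw : w ∈ M) (hz : z ∈ M) {S : W}
    (hS : S ∈ P) : τ w z (τ w z S) = S := by
  refine h.inj _ (h.mem w hw z hz _ (h.mem w hw z hz S hS)) _ hS fun x => ?_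
  rw [h.swap w hw z hz _ (h.mem w hw z hz S hS), h.swap w hw z hz _ hS, Equiv.swap_apply_self]

theorem IsJohnson.self (h : IsJohnson P M s τ kk) {w : V} (hw : w ∈ M) {S : W}
    (hS : S ∈ P) : τ w w S = S := by
  refine h.inj _ (h.mem w hw w hw S hS) _ hS fun x => ?_
  rw [h.swap w hw w hw _ hS, Equiv.swap_self]
  rfl

theorem IsJohnson.comm (h : IsJohnson P M s τ kk) {w z : V} (hw : w ∈ M) (hz : z ∈ M) {S : W}
    (hS : S ∈ P) : τ w z S = τ z w S := by
  refine h.inj _ (h.mem w hw z hz S hS) _ (h.mem z hz w hw S hS) fun x => ?_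
  rw [h.swap w hw z hz _ hS, h.swap z hz w hw _ hS, Equiv.swap_comm]

theorem IsJohnson.ind_tau (h : IsJohnson P M s τ kk) {w z : V} (hw : w ∈ M) (hz : z ∈ M) {S : W}
    (hS : S ∈ P) (x : V) : ind s (τ w z S) x = ind s S (Equiv.swap w z x) := by
  unfold ind
  rw [h.swap w hw z hz S hS]

omit [DecidableEq V] in
theorem ind_sq (s : W → V → Bool) (S : W) (w : V) : ind s S w * ind s S w = ind s S w := by
  unfold ind
  split_ifs <;> simp

omit [DecidableEq V] in
theorem ind_cases (s : W → V → Bool) (S : W) (w : V) : ind s S w = 0 ∨ ind s S w = 1 := by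
  unfold ind
  split_ifs <;> simp

theorem IsJohnson.sum_tau (h : IsJohnson P M s τ kk) {w z : V} (hw : w ∈ M) (hz : z ∈ M)
    (g : W → ℝ) : ∑ S ∈ P, g (τ w z S) = ∑ S ∈ P, g S := by
  refine Finset.sum_nbij' (τ w z) (τ w z) ?_ ?_ ?_ ?_ ?_
  · intro S hS; exact h.mem w hw z hz S hS
  · intro S hS; exact h.mem w hw z hz S hS
  · intro S hS; exact h.invol hw hz hS
  · intro S hS; exact h.invol hw hz hS
  · intro S _; rfl

omit [DecidableEq V] in
theorem wD_nonneg (P : Finset W) (τ : V → V → W → W) (φ : W → ℝ) (w z : V) :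
    0 ≤ wD P τ φ w z :=
  Finset.sum_nonneg fun _ _ => sq_nonneg _

theorem IsJohnson.wD_self (h : IsJohnson P M s τ kk) (φ : W → ℝ) {w : V} (hw : w ∈ M) :
    wD P τ φ w w = 0 := by
  unfold wD
  refine Finset.sum_eq_zero fun S hS => ?_
  rw [h.self hw hS]
  norm_num

theorem IsJohnson.wD_comm (h : IsJohnson P M s τ kk) (φ : W → ℝ) {w z : V} (hw : w ∈ M)
    (hz : z ∈ M) : wD P τ φ w z = wD P τ φ z w := by
  unfold wD
  refine Finset.sum_congr rfl fun S hS => ?_
  rw [h.comm hw hz hS]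

omit [DecidableEq V] in
theorem xor_ind (s : W → V → Bool) (S : W) (w z : V) :
    (if s S w ≠ s S z then (1 : ℝ) else 0) = (ind s S w - ind s S z) ^ 2 := by
  unfold ind
  cases h1 : s S w <;> cases h2 : s S z <;> simp

omit [DecidableEq V] in
theorem wl_eq (P : Finset W) (s : W → V → Bool) (φ : W → ℝ) (w z : V) :
    wl P s φ w z = ∑ S ∈ P, φ S * (ind s S w - ind s S z) ^ 2 := by
  unfold wl
  rw [Finset.sum_filter]
  refine Finset.sum_congr rfl fun S _ => ?_
  rw [← xor_ind]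
  split_ifs <;> simp

omit [DecidableEq V] in
theorem wl_self (P : Finset W) (s : W → V → Bool) (φ : W → ℝ) (w : V) : wl P s φ w w = 0 := by
  rw [wl_eq]
  simp

omit [DecidableEq V] in
theorem wN_eq (P : Finset W) (s : W → V → Bool) (w z : V) :
    (wN P s w z : ℝ) = ∑ S ∈ P, (ind s S w - ind s S z) ^ 2 := by
  unfold wN
  rw [Finset.card_filter]
  push_cast
  exact Finset.sum_congr rfl fun S _ => xor_ind s S w z

omit [DecidableEq V] in
theorem wN_comm (P : Finset W) (s : W → V → Bool) (w z : V) : wN P s w z = wN P s z w := by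
  unfold wN
  congr 1
  ext S
  simp only [Finset.mem_filter]
  constructor
  · rintro ⟨a, b⟩; exact ⟨a, b.symm⟩
  · rintro ⟨a, b⟩; exact ⟨a, b.symm⟩

/-- `wN z z' = wN z y'` -/
theorem IsJohnson.wN_right (h : IsJohnson P M s τ kk) {z z' y' : V} (hz' : z' ∈ M)
    (hy' : y' ∈ M) (h1 : z ≠ z') (h2 : z ≠ y') : wN P s z z' = wN P s z y' := by
  have e : (wN P s z z' : ℝ) = wN P s z y' := by
    rw [wN_eq, wN_eq, ← h.sum_tau hz' hy' (fun S => (ind s S z - ind s S z') ^ 2)]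
    refine Finset.sum_congr rfl fun S hS => ?_
    rw [h.ind_tau hz' hy' hS, h.ind_tau hz' hy' hS, Equiv.swap_apply_left,
      Equiv.swap_apply_of_ne_of_ne h1 h2]
  exact_mod_cast e

/-- `wN` is the same for all pairs of distinct columns -/
theorem IsJohnson.wN_const (h : IsJohnson P M s τ kk) {z z' y y' : V} (hz : z ∈ M)
    (hz' : z' ∈ M) (hy : y ∈ M) (hy' : y' ∈ M) (h1 : z ≠ z') (h2 : y ≠ y') :
    wN P s z z' = wN P s y y' := by
  by_cases h3 : y' = z
  · subst h3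
    rw [wN_comm P s y y', h.wN_right hz' hy h1 h2.symm]
  · rw [h.wN_right hz' hy' h1 (Ne.symm h3), wN_comm P s z y', h.wN_right hz hy h3 h2.symm,
      wN_comm]

/-- the basic Cauchy-Schwarz step -/
theorem IsJohnson.cs_step (h : IsJohnson P M s τ kk) (φ c : W → ℝ) {z z' : V} (hz : z ∈ M)
    (hz' : z' ∈ M) :
    4 * (∑ S ∈ P, φ S * c S - ∑ S ∈ P, φ S * c (τ z z' S)) ^ 2
      ≤ wD P τ φ z z' * ∑ S ∈ P, (c S - c (τ z z' S)) ^ 2 := by
  have h1 : ∑ S ∈ P, φ (τ z z' S) * c S = ∑ S ∈ P, φ S * c (τ z z' S) := by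
    rw [← h.sum_tau hz hz' (fun S => φ (τ z z' S) * c S)]
    refine Finset.sum_congr rfl fun S hS => ?_
    rw [h.invol hz hz' hS]
  have h2 : ∑ S ∈ P, φ (τ z z' S) * c (τ z z' S) = ∑ S ∈ P, φ S * c S :=
    h.sum_tau hz hz' (fun S => φ S * c S)
  have h3 : ∑ S ∈ P, (φ S - φ (τ z z' S)) * (c S - c (τ z z' S))
      = 2 * (∑ S ∈ P, φ S * c S - ∑ S ∈ P, φ S * c (τ z z' S)) := by
    have : ∀ S, (φ S - φ (τ z z' S)) * (c S - c (τ z z' S))
        = φ S * c S - φ S * c (τ z z' S) - φ (τ z z' S) * c S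
          + φ (τ z z' S) * c (τ z z' S) := fun S => by ring
    simp only [this, Finset.sum_add_distrib, Finset.sum_sub_distrib, h1, h2]
    ring
  have h4 := Finset.sum_mul_sq_le_sq_mul_sq P
    (fun S => φ S - φ (τ z z' S)) (fun S => c S - c (τ z z' S))
  rw [h3] at h4
  unfold wD
  nlinarith [h4]

/-- variance identity -/
theorem var_id {ι : Type*} (I : Finset ι) (x : ι → ℝ) :
    ∑ i ∈ I, ∑ j ∈ I, (x i - x j) ^ 2
      = 2 * (I.card : ℝ) * ∑ i ∈ I, x i ^ 2 - 2 * (∑ i ∈ I, x i) ^ 2 := by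
  have h : ∀ i j, (x i - x j) ^ 2 = x i ^ 2 - 2 * (x i * x j) + x j ^ 2 := fun i j => by ring
  simp only [h, Finset.sum_add_distrib, Finset.sum_sub_distrib, Finset.sum_const, nsmul_eq_mul,
    ← Finset.mul_sum, ← Finset.sum_mul]
  ring

theorem IsJohnson.sum_ind (h : IsJohnson P M s τ kk) {S : W} (hS : S ∈ P) :
    ∑ w ∈ M, ind s S w = kk := by
  unfold ind
  rw [← h.card S hS, Finset.card_filter]
  push_cast
  rfl

theorem IsJohnson.sum_wA (h : IsJohnson P M s τ kk) {φ : W → ℝ} (h0 : ∑ S ∈ P, φ S = 0) :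
    ∑ w ∈ M, wA P s φ w = 0 := by
  unfold wA
  rw [Finset.sum_comm]
  have : ∀ S ∈ P, ∑ w ∈ M, φ S * ind s S w = φ S * kk := fun S hS => by
    rw [← Finset.mul_sum, h.sum_ind hS]
  rw [Finset.sum_congr rfl this, ← Finset.sum_mul, h0, zero_mul]

theorem IsJohnson.sum_wl (h : IsJohnson P M s τ kk) {φ : W → ℝ} (h0 : ∑ S ∈ P, φ S = 0)
    (w : V) : ∑ z ∈ M, wl P s φ w z = ((M.card : ℝ) - 2 * kk) * wA P s φ w := by
  simp only [wl_eq]
  rw [Finset.sum_comm]
  have : ∀ S ∈ P, ∑ z ∈ M, φ S * (ind s S w - ind s S z) ^ 2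
      = ((M.card : ℝ) - 2 * kk) * (φ S * ind s S w) + kk * φ S := fun S hS => by
    have h1 : ∀ z, φ S * (ind s S w - ind s S z) ^ 2
        = φ S * ind s S w + (φ S - 2 * (φ S * ind s S w)) * ind s S z := fun z => by
      have a := ind_sq s S w
      have b := ind_sq s S z
      calc φ S * (ind s S w - ind s S z) ^ 2
          = φ S * (ind s S w * ind s S w - 2 * ind s S w * ind s S z
              + ind s S z * ind s S z) := by ring
        _ = _ := by rw [a, b]; ring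
    simp only [h1, Finset.sum_add_distrib, Finset.sum_const, nsmul_eq_mul, ← Finset.mul_sum,
      h.sum_ind hS]
    ring
  rw [Finset.sum_congr rfl this, Finset.sum_add_distrib, ← Finset.mul_sum, ← Finset.mul_sum, h0]
  unfold wA
  ring

/-- step (a) -/
theorem IsJohnson.wA_sub_sq_le (h : IsJohnson P M s τ kk) (φ : W → ℝ) {w z : V} (hw : w ∈ M)
    (hz : z ∈ M) : 4 * (wA P s φ w - wA P s φ z) ^ 2 ≤ wD P τ φ w z * wN P s w z := by
  have h1 := h.cs_step φ (fun S => ind s S w) hw hz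
  have e1 : ∑ S ∈ P, φ S * ind s (τ w z S) w = ∑ S ∈ P, φ S * ind s S z :=
    Finset.sum_congr rfl fun S hS => by rw [h.ind_tau hw hz hS, Equiv.swap_apply_left]
  have e2 : ∑ S ∈ P, (ind s S w - ind s (τ w z S) w) ^ 2
      = ∑ S ∈ P, (ind s S w - ind s S z) ^ 2 :=
    Finset.sum_congr rfl fun S hS => by rw [h.ind_tau hw hz hS, Equiv.swap_apply_left]
  simp only [e1, e2] at h1
  rw [wN_eq]
  exact h1

/-- step (c) -/
theorem IsJohnson.wl_sub_sq_le (h : IsJohnson P M s τ kk) (φ : W → ℝ) {w z z' : V}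
    (hz : z ∈ M) (hz' : z' ∈ M) (hwz : w ≠ z) (hwz' : w ≠ z') :
    4 * (wl P s φ w z - wl P s φ w z') ^ 2 ≤ wD P τ φ z z' * wN P s z z' := by
  have h1 := h.cs_step φ (fun S => (ind s S w - ind s S z) ^ 2) hz hz'
  have h2 : ∀ S : W, ((ind s S w - ind s S z) ^ 2 - (ind s S w - ind s S z') ^ 2) ^ 2
      = (ind s S z - ind s S z') ^ 2 := by
    intro S
    rcases ind_cases s S w with a | a <;> rcases ind_cases s S z with b | b <;>
      rcases ind_cases s S z' with c | c <;> rw [a, b, c] <;> norm_num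
  have e1 : ∑ S ∈ P, φ S * (ind s (τ z z' S) w - ind s (τ z z' S) z) ^ 2
      = ∑ S ∈ P, φ S * (ind s S w - ind s S z') ^ 2 :=
    Finset.sum_congr rfl fun S hS => by
      rw [h.ind_tau hz hz' hS, h.ind_tau hz hz' hS, Equiv.swap_apply_left,
        Equiv.swap_apply_of_ne_of_ne hwz hwz']
  have e2 : ∑ S ∈ P, ((ind s S w - ind s S z) ^ 2
        - (ind s (τ z z' S) w - ind s (τ z z' S) z) ^ 2) ^ 2
      = ∑ S ∈ P, (ind s S z - ind s S z') ^ 2 :=
    Finset.sum_congr rfl fun S hS => by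
      rw [h.ind_tau hz hz' hS, h.ind_tau hz hz' hS, Equiv.swap_apply_left,
        Equiv.swap_apply_of_ne_of_ne hwz hwz', h2]
  simp only [e1, e2] at h1
  rw [wN_eq, wl_eq, wl_eq]
  exact h1

/-- removing one point from a symmetric double sum vanishing on the diagonal -/
theorem sum_erase_erase {M : Finset V} (D : V → V → ℝ) (hs : ∀ a ∈ M, ∀ b ∈ M, D a b = D b a)
    (hd : ∀ a ∈ M, D a a = 0) :
    ∑ w ∈ M, ∑ z ∈ M.erase w, ∑ z' ∈ M.erase w, D z z'
      = ((M.card : ℝ) - 2) * ∑ z ∈ M, ∑ z' ∈ M, D z z' := by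
  have key : ∀ w ∈ M, ∑ z ∈ M.erase w, ∑ z' ∈ M.erase w, D z z'
      = ∑ z ∈ M, ∑ z' ∈ M, D z z' - 2 * ∑ z' ∈ M, D w z' := by
    intro w hw
    have h1 : ∀ z, ∑ z' ∈ M.erase w, D z z' = ∑ z' ∈ M, D z z' - D z w := fun z => by
      rw [← Finset.add_sum_erase M (fun z' => D z z') hw]
      ring
    simp only [h1, Finset.sum_sub_distrib]
    have h2 : ∑ z ∈ M.erase w, ∑ z' ∈ M, D z z'
        = ∑ z ∈ M, ∑ z' ∈ M, D z z' - ∑ z' ∈ M, D w z' := by
      rw [← Finset.add_sum_erase M (fun z => ∑ z' ∈ M, D z z') hw]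
      ring
    have h3 : ∑ z ∈ M.erase w, D z w = ∑ z' ∈ M, D w z' := by
      rw [Finset.sum_erase (f := fun z => D z w) M (hd w hw)]
      exact Finset.sum_congr rfl fun z hz => hs z hz w hw
    rw [h2, h3]
    ring
  rw [Finset.sum_congr rfl key, Finset.sum_sub_distrib, Finset.sum_const, nsmul_eq_mul,
    ← Finset.mul_sum]
  ring

/-- the main case: `N0` is the common value of `wN` and `1 ≤ kk ≤ |M|-1` -/
theorem IsJohnson.bound_main (h : IsJohnson P M s τ kk) {φ : W → ℝ} (h0 : ∑ S ∈ P, φ S = 0)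
    (N0 : ℕ) (hN : ∀ w ∈ M, ∀ z ∈ M, w ≠ z → wN P s w z = N0) (hk1 : 1 ≤ kk)
    (hk2 : kk + 1 ≤ M.card) :
    (M.card : ℝ) * ∑ w ∈ M, ∑ z ∈ M, (wl P s φ w z) ^ 2
      ≤ ((M.card : ℝ) - 2) * (N0 : ℝ) / 4 * ∑ w ∈ M, ∑ z ∈ M, wD P τ φ w z := by
  set n1 : ℝ := (N0 : ℝ) / 2 with hn1
  set m : ℝ := (M.card : ℝ) with hm
  set Dt : ℝ := ∑ w ∈ M, ∑ z ∈ M, wD P τ φ w z with hDt
  set L : ℝ := ∑ w ∈ M, ∑ z ∈ M, (wl P s φ w z) ^ 2 with hL
  set SA : ℝ := ∑ w ∈ M, (wA P s φ w) ^ 2 with hSA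
  have hDt0 : 0 ≤ Dt := Finset.sum_nonneg fun w _ => Finset.sum_nonneg fun z _ => wD_nonneg _ _ _ _ _
  have hSA0 : 0 ≤ SA := Finset.sum_nonneg fun w _ => sq_nonneg _
  have hm2 : (kk : ℝ) + 1 ≤ m := by
    rw [hm]
    exact_mod_cast hk2
  have hk0 : (1 : ℝ) ≤ kk := by exact_mod_cast hk1
  -- pointwise bounds
  have hA : ∀ w ∈ M, ∀ z ∈ M, (wA P s φ w - wA P s φ z) ^ 2 ≤ n1 / 2 * wD P τ φ w z := by
    intro w hw z hz
    by_cases hne : w = z
    · subst hne
      simp [h.wD_self φ hw]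
    · have h1 := h.wA_sub_sq_le φ hw hz
      rw [hN w hw z hz hne] at h1
      rw [hn1]
      linarith
  have hl : ∀ w, ∀ z ∈ M.erase w, ∀ z' ∈ M.erase w,
      (wl P s φ w z - wl P s φ w z') ^ 2 ≤ n1 / 2 * wD P τ φ z z' := by
    intro w z hz z' hz'
    rw [Finset.mem_erase] at hz hz'
    by_cases hne : z = z'
    · subst hne
      simp [h.wD_self φ hz.2]
    · have h1 := h.wl_sub_sq_le φ hz.2 hz'.2 hz.1.symm hz'.1.symm
      rw [hN z hz.2 z' hz'.2 hne] at h1
      rw [hn1]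
      linarith
  -- H1
  have H1 : 2 * m * SA ≤ n1 / 2 * Dt := by
    have h1 := var_id M (fun w => wA P s φ w)
    rw [h.sum_wA h0] at h1
    have h' : ∑ w ∈ M, ∑ z ∈ M, (wA P s φ w - wA P s φ z) ^ 2 ≤ n1 / 2 * Dt := by
      rw [hDt, Finset.mul_sum]
      refine Finset.sum_le_sum fun w hw => ?_
      rw [Finset.mul_sum]
      exact Finset.sum_le_sum fun z hz => hA w hw z hz
    rw [h1] at h'
    linarith
  -- H2
  have H2 : 2 * (m - 1) * L ≤ 2 * (m - 2 * kk) ^ 2 * SA + n1 / 2 * ((m - 2) * Dt) := by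
    have hw : ∀ w ∈ M, 2 * (m - 1) * ∑ z ∈ M, (wl P s φ w z) ^ 2
        ≤ 2 * (m - 2 * kk) ^ 2 * (wA P s φ w) ^ 2
          + n1 / 2 * ∑ z ∈ M.erase w, ∑ z' ∈ M.erase w, wD P τ φ z z' := by
      intro w hw
      have h1 := var_id (M.erase w) (fun z => wl P s φ w z)
      have e1 : ∑ z ∈ M.erase w, wl P s φ w z = (m - 2 * kk) * wA P s φ w := by
        rw [Finset.sum_erase M (wl_self P s φ w), h.sum_wl h0 w]
      have e2 : ∑ z ∈ M.erase w, (wl P s φ w z) ^ 2 = ∑ z ∈ M, (wl P s φ w z) ^ 2 := by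
        apply Finset.sum_erase
        rw [wl_self]
        norm_num
      have e3 : ((M.erase w).card : ℝ) = m - 1 := by
        rw [Finset.card_erase_of_mem hw, Nat.cast_sub (by omega)]
        simp [hm]
      rw [e1, e2, e3] at h1
      have h' : ∑ z ∈ M.erase w, ∑ z' ∈ M.erase w, (wl P s φ w z - wl P s φ w z') ^ 2
          ≤ n1 / 2 * ∑ z ∈ M.erase w, ∑ z' ∈ M.erase w, wD P τ φ z z' := by
        rw [Finset.mul_sum]
        refine Finset.sum_le_sum fun z hz => ?_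
        rw [Finset.mul_sum]
        exact Finset.sum_le_sum fun z' hz' => hl w z hz z' hz'
      rw [h1] at h'
      nlinarith [h']
    have hs := Finset.sum_le_sum hw
    rw [← Finset.mul_sum, Finset.sum_add_distrib, ← Finset.mul_sum, ← Finset.mul_sum,
      sum_erase_erase (fun a b => wD P τ φ a b) (fun a ha b hb => h.wD_comm φ ha hb)
        (fun a ha => h.wD_self φ ha)] at hs
    exact hs
  -- arithmetic
  have hq : (m - 2 * kk) ^ 2 ≤ (m - 2) ^ 2 := by
    apply sq_le_sq'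
    · linarith
    · linarith
  have h5 : (m - 2 * kk) ^ 2 * (2 * m * SA) ≤ (m - 2) ^ 2 * (n1 / 2 * Dt) := by
    have hmSA : 0 ≤ 2 * m * SA := by
      have : 0 ≤ m := by linarith
      positivity
    calc (m - 2 * kk) ^ 2 * (2 * m * SA) ≤ (m - 2) ^ 2 * (2 * m * SA) :=
          mul_le_mul_of_nonneg_right hq hmSA
      _ ≤ (m - 2) ^ 2 * (n1 / 2 * Dt) := mul_le_mul_of_nonneg_left H1 (sq_nonneg _)
  have hm1 : 0 < 2 * (m - 1) := by linarith
  have h6 : 2 * (m - 1) * (m * L) ≤ 2 * (m - 1) * ((m - 2) * (N0 : ℝ) / 4 * Dt) := by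
    have hm0 : 0 ≤ m := by linarith
    have h7 := mul_le_mul_of_nonneg_left H2 hm0
    have h8 : (N0 : ℝ) = 2 * n1 := by rw [hn1]; ring
    rw [h8]
    nlinarith [h7, h5]
  exact le_of_mul_le_mul_left h6 hm1

/-- **Inequality (II) over an abstract fibre, `K`-form** (with `x / 0 = 0`). -/
theorem IsJohnson.bound_K (h : IsJohnson P M s τ kk) {φ : W → ℝ} (h0 : ∑ S ∈ P, φ S = 0) :
    ∑ w ∈ M, ∑ z ∈ M, (wl P s φ w z) ^ 2 / (wN P s w z : ℝ)
      ≤ ((M.card : ℝ) - 2) / M.card * ∑ w ∈ M, ∑ z ∈ M, wD P τ φ w z / 4 := by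
  have hD0 : 0 ≤ ∑ w ∈ M, ∑ z ∈ M, wD P τ φ w z / 4 :=
    Finset.sum_nonneg fun w _ => Finset.sum_nonneg fun z _ =>
      div_nonneg (wD_nonneg _ _ _ _ _) (by norm_num)
  -- a term vanishes as soon as `wN = 0`
  by_cases hex : ∃ a ∈ M, ∃ b ∈ M, a ≠ b ∧ wN P s a b ≠ 0
  · obtain ⟨a, ha, b, hb, hab, hNab⟩ := hex
    set N0 := wN P s a b with hN0
    have hN : ∀ w ∈ M, ∀ z ∈ M, w ≠ z → wN P s w z = N0 := fun w hw z hz hne =>
      h.wN_const hw hz ha hb hne hab
    -- a witness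
    have hne : (P.filter (fun S => s S a ≠ s S b)).Nonempty := by
      rw [← Finset.card_pos]
      exact Nat.pos_of_ne_zero hNab
    obtain ⟨S, hS⟩ := hne
    rw [Finset.mem_filter] at hS
    obtain ⟨hSP, hSab⟩ := hS
    have hc := h.card S hSP
    -- one of `a`, `b` is occupied, the other is not
    obtain ⟨p, hp, q, hq, hsp, hsq⟩ : ∃ p ∈ M, ∃ q ∈ M, s S p = true ∧ s S q = false := by
      cases h1 : s S a <;> cases h2 : s S b
      · rw [h1, h2] at hSab; exact absurd rfl hSab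
      · exact ⟨b, hb, a, ha, h2, h1⟩
      · exact ⟨a, ha, b, hb, h1, h2⟩
      · rw [h1, h2] at hSab; exact absurd rfl hSab
    have hk1 : 1 ≤ kk := by
      rw [← hc]
      exact Finset.card_pos.2 ⟨p, Finset.mem_filter.2 ⟨hp, hsp⟩⟩
    have hk2 : kk + 1 ≤ M.card := by
      rw [← hc]
      apply Finset.card_lt_card
      refine ⟨Finset.filter_subset _ _, fun hsub => ?_⟩
      have := (Finset.mem_filter.1 (hsub hq)).2
      rw [hsq] at this
      exact absurd this (by simp)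
    have hb' := h.bound_main h0 N0 hN hk1 hk2
    have hpos : (0 : ℝ) < N0 := by
      have : 0 < N0 := Nat.pos_of_ne_zero hNab
      exact_mod_cast this
    have hm : (0 : ℝ) < M.card := by
      have : 0 < M.card := by omega
      exact_mod_cast this
    have h1 : ∀ w ∈ M, ∀ z ∈ M, (wl P s φ w z) ^ 2 / (wN P s w z : ℝ)
        = (wl P s φ w z) ^ 2 / (N0 : ℝ) := by
      intro w hw z hz
      by_cases hne : w = z
      · subst hne
        simp [wl_self]
      · rw [hN w hw z hz hne]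
    have h2 : ∑ w ∈ M, ∑ z ∈ M, (wl P s φ w z) ^ 2 / (wN P s w z : ℝ)
        = (∑ w ∈ M, ∑ z ∈ M, (wl P s φ w z) ^ 2) / (N0 : ℝ) := by
      rw [Finset.sum_div]
      refine Finset.sum_congr rfl fun w hw => ?_
      rw [Finset.sum_div]
      exact Finset.sum_congr rfl fun z hz => h1 w hw z hz
    have h3 : ∑ w ∈ M, ∑ z ∈ M, wD P τ φ w z / 4 = (∑ w ∈ M, ∑ z ∈ M, wD P τ φ w z) / 4 := by
      rw [Finset.sum_div]
      exact Finset.sum_congr rfl fun w _ => (Finset.sum_div _ _ _).symm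
    rw [h2, h3, div_le_iff₀ hpos]
    have h4 : ((M.card : ℝ) - 2) / M.card * ((∑ w ∈ M, ∑ z ∈ M, wD P τ φ w z) / 4) * (N0 : ℝ)
        = (((M.card : ℝ) - 2) * (N0 : ℝ) / 4 * ∑ w ∈ M, ∑ z ∈ M, wD P τ φ w z) / M.card := by
      field_simp
    rw [h4, le_div_iff₀ hm]
    linarith
  · push Not at hex
    have h1 : ∀ w ∈ M, ∀ z ∈ M, (wl P s φ w z) ^ 2 / (wN P s w z : ℝ) = 0 := by
      intro w hw z hz
      by_cases hne : w = z
      · subst hne
        simp [wl_self]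
      · rw [hex w hw z hz hne]
        simp
    have h2 : ∑ w ∈ M, ∑ z ∈ M, (wl P s φ w z) ^ 2 / (wN P s w z : ℝ) = 0 :=
      Finset.sum_eq_zero fun w hw => Finset.sum_eq_zero fun z hz => h1 w hw z hz
    rw [h2]
    -- the right side: either `|M| ≥ 2`, or all the `wD` are diagonal terms
    rcases Nat.lt_or_ge M.card 2 with hlt | hge
    · have h3 : ∑ w ∈ M, ∑ z ∈ M, wD P τ φ w z / 4 = 0 := by
        refine Finset.sum_eq_zero fun w hw => Finset.sum_eq_zero fun z hz => ?_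
        have : w = z := Finset.card_le_one.1 (by omega) w hw z hz
        subst this
        rw [h.wD_self φ hw, zero_div]
      rw [h3, mul_zero]
    · have hm : (2 : ℝ) ≤ M.card := by exact_mod_cast hge
      apply mul_nonneg _ hD0
      apply div_nonneg <;> linarith

end basic

end JohnsonW
end P335
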