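import Vale.Agent.Lib.P335.Defs
import Vale.Agent.Lib.P335.Chain
import Vale.Agent.Lib.P335.Transfer
import Vale.Agent.Lib.P335.Markov

/-!
# P335: rapid mixing of the switch chain for split degree vectors
-/

namespace P335

open Finset Classical

theorem split_tv {n : ℕ} (hn : 4 ≤ n) {d : Fin n → ℕ} (hs : IsSplit n d) (G : Realization n d) :
    tvDist n d (6 * n.choose 4 * (n * n + 2)) G ≤ 1 / 4 := by
  have : Nonempty (Realization n d) := ⟨G⟩
  have hC : 0 < n.choose 4 := Nat.choose_pos hn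
  have hCr : (0 : ℝ) < (n.choose 4 : ℝ) := by exact_mod_cast hC
  unfold tvDist
  refine tv_bound (switchChain n d) (switchChain_symm d) (switchChain_nonneg d)
    (switchChain_row_sum d) (switchChain_lazy d) (6 * n.choose 4) (by positivity) ?_ (n * n)
    (card_realization_le d) G
  intro f hf
  rw [switchChain_dirichlet]
  have h1 := graph_poincare hs f hf
  set S := ∑ G : Realization n d, ∑ G' : Realization n d,
      (if IsSwitch G.1 G'.1 then (f G - f G') ^ 2 else 0) with hS
  have h2 : (1 / ((6 * n.choose 4 : ℕ) : ℝ)) * ∑ x, f x ^ 2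
      ≤ (1 / ((6 * n.choose 4 : ℕ) : ℝ)) * ((1 / 4) * S) :=
    mul_le_mul_of_nonneg_left h1 (by positivity)
  refine le_trans h2 (le_of_eq ?_)
  push_cast
  field_simp
  ring

theorem poly_bound (n : ℕ) : 6 * n.choose 4 * (n * n + 2) ≤ n ^ 6 := by
  rcases Nat.eq_zero_or_pos n with rfl | hpos
  · simp
  have h1 : n.descFactorial 4 = Nat.factorial 4 * n.choose 4 :=
    Nat.descFactorial_eq_factorial_mul_choose n 4
  have h2 : n.descFactorial 4 ≤ n ^ 4 := Nat.descFactorial_le_pow n 4
  have h3 : 24 * n.choose 4 ≤ n ^ 4 := by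
    have h24 : Nat.factorial 4 = 24 := rfl
    rw [h24] at h1
    omega
  have h4 : n * n + 2 ≤ 4 * (n * n) := by nlinarith
  have h5 : 24 * n.choose 4 * (n * n + 2) ≤ n ^ 4 * (4 * (n * n)) := Nat.mul_le_mul h3 h4
  have h6 : n ^ 4 * (4 * (n * n)) = 4 * n ^ 6 := by ring
  nlinarith

theorem split_tmix {n : ℕ} (hn : 4 ≤ n) {d : Fin n → ℕ} (hs : IsSplit n d) :
    tmix n d ≤ n ^ 6 :=
  le_trans (Nat.sInf_le (fun G => split_tv hn hs G)) (poly_bound n)

end P335
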