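import Vale.Agent.Lib.P335.Mat

/-!
# P335: moves that permute the entries inside rows; triples of rows
-/

namespace P335

open Finset

set_option linter.unusedSectionVars false

variable {ι κ : Type*} [Fintype ι] [Fintype κ] [DecidableEq ι] [DecidableEq κ]
variable {r : ι → ℕ} {c : κ → ℕ}

/-- apply to each row `y` the column permutation `σ y` -/
def permRaw (σ : ι → Equiv.Perm κ) (X : ι → κ → Bool) : ι → κ → Bool := fun y w => X y (σ y w)

/-- the move on `Mat r c` induced by `permRaw` (identity if the column sums are destroyed) -/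
noncomputable def move (σ : ι → Equiv.Perm κ) (X : Mat r c) : Mat r c := ofRaw (permRaw σ X.1) X

/-- column sums restricted to the rows of `T` -/
def tsum (T : Finset ι) (X : ι → κ → Bool) (w : κ) : ℕ := ∑ y ∈ T, (X y w).toNat

theorem tsum_eq_of_agreeOff {T : Finset ι} {C : Finset κ} {X Y : Mat r c}
    (h : AgreeOff T C X Y) (w : κ) : tsum T X.1 w = tsum T Y.1 w :=
  sum_col_eq_of_agreeOff h w

theorem isMat_permRaw {σ : ι → Equiv.Perm κ} {T : Finset ι} (hσ : ∀ y, y ∉ T → σ y = 1)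
    {X : ι → κ → Bool} (hX : IsMat r c X) (h : ∀ w, tsum T (permRaw σ X) w = tsum T X w) :
    IsMat r c (permRaw σ X) := by
  constructor
  · intro y
    rw [← hX.1 y]
    exact Equiv.sum_comp (σ y) (fun w => (X y w).toNat)
  · intro w
    rw [← hX.2 w, ← Finset.sum_add_sum_compl T, ← Finset.sum_add_sum_compl T (fun y => (X y w).toNat)]
    have h1 : ∑ y ∈ Tᶜ, (permRaw σ X y w).toNat = ∑ y ∈ Tᶜ, (X y w).toNat := by
      refine Finset.sum_congr rfl (fun y hy => ?_)
      unfold permRaw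
      rw [hσ y (Finset.mem_compl.1 hy)]
      rfl
    have h2 := h w
    unfold tsum at h2
    rw [h1, h2]

theorem move_val {σ : ι → Equiv.Perm κ} {T : Finset ι} (hσ : ∀ y, y ∉ T → σ y = 1)
    {X : Mat r c} (h : ∀ w, tsum T (permRaw σ X.1) w = tsum T X.1 w) :
    (move σ X).1 = permRaw σ X.1 :=
  ofRaw_val (isMat_permRaw hσ X.2 h) X

theorem move_move {σ : ι → Equiv.Perm κ} (hinv : ∀ y w, σ y (σ y w) = w)
    {X : Mat r c} (hv : (move σ X).1 = permRaw σ X.1) : move σ (move σ X) = X := by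
  have h1 : permRaw σ (move σ X).1 = X.1 := by
    rw [hv]
    funext y w
    unfold permRaw
    rw [hinv]
  apply Subtype.ext
  unfold move at h1 ⊢
  rw [h1]
  exact ofRaw_val X.2 _

theorem agreeOff_move {σ : ι → Equiv.Perm κ} {T : Finset ι} {C : Finset κ}
    (hσ : ∀ y, y ∉ T → σ y = 1) (hC : ∀ y w, w ∉ C → σ y w = w)
    {X : Mat r c} (hv : (move σ X).1 = permRaw σ X.1) : AgreeOff T C X (move σ X) := by
  intro y w hyw
  rw [hv]
  unfold permRaw
  by_cases hy : y ∈ T
  · have hw : w ∉ C := fun hw => hyw ⟨hy, hw⟩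
    rw [hC y w hw]
  · rw [hσ y hy]
    rfl

/-- `T` consists of the three distinct rows `x e e'` -/
def Tri (T : Finset ι) (x e e' : ι) : Prop := x ≠ e ∧ x ≠ e' ∧ e ≠ e' ∧ T = {x, e, e'}

theorem Tri.swap23 {T : Finset ι} {x e e' : ι} (h : Tri T x e e') : Tri T x e' e := by
  obtain ⟨h1, h2, h3, h4⟩ := h
  refine ⟨h2, h1, h3.symm, ?_⟩
  rw [h4]
  ext y
  simp only [mem_insert, mem_singleton]
  tauto

theorem Tri.swap12 {T : Finset ι} {x e e' : ι} (h : Tri T x e e') : Tri T e x e' := by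
  obtain ⟨h1, h2, h3, h4⟩ := h
  refine ⟨h1.symm, h3, h2, ?_⟩
  rw [h4]
  ext y
  simp only [mem_insert, mem_singleton]
  tauto

theorem Tri.rot {T : Finset ι} {x e e' : ι} (h : Tri T x e e') : Tri T e' x e :=
  h.swap23.swap12

theorem Tri.mem1 {T : Finset ι} {x e e' : ι} (h : Tri T x e e') : x ∈ T := by
  rw [h.2.2.2]; simp

theorem Tri.mem2 {T : Finset ι} {x e e' : ι} (h : Tri T x e e') : e ∈ T := by
  rw [h.2.2.2]; simp

theorem Tri.mem3 {T : Finset ι} {x e e' : ι} (h : Tri T x e e') : e' ∈ T := by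
  rw [h.2.2.2]; simp

theorem Tri.mem_iff {T : Finset ι} {x e e' : ι} (h : Tri T x e e') (y : ι) :
    y ∈ T ↔ y = x ∨ y = e ∨ y = e' := by
  rw [h.2.2.2]; simp

theorem Tri.erase {T : Finset ι} {x e e' : ι} (h : Tri T x e e') : T.erase x = {e, e'} := by
  obtain ⟨h1, h2, h3, h4⟩ := h
  rw [h4]
  ext y
  simp only [mem_erase, mem_insert, mem_singleton]
  constructor
  · rintro ⟨hy, hy' | hy' | hy'⟩
    · exact absurd hy' hy
    · exact Or.inl hy'
    · exact Or.inr hy'
  · rintro (rfl | rfl)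
    · exact ⟨h1.symm, Or.inr (Or.inl rfl)⟩
    · exact ⟨h2.symm, Or.inr (Or.inr rfl)⟩

theorem Tri.mem_erase_iff {T : Finset ι} {x e e' : ι} (h : Tri T x e e') (y : ι) :
    y ∈ T.erase x ↔ y = e ∨ y = e' := by
  rw [h.erase]; simp

theorem Tri.sum {T : Finset ι} {x e e' : ι} (h : Tri T x e e') {M : Type*} [AddCommMonoid M]
    (φ : ι → M) : ∑ y ∈ T, φ y = φ x + φ e + φ e' := by
  obtain ⟨h1, h2, h3, h4⟩ := h
  rw [h4, Finset.sum_insert (by simp [h1, h2]), Finset.sum_insert (by simp [h3]),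
    Finset.sum_singleton, add_assoc]

theorem Tri.sum_erase {T : Finset ι} {x e e' : ι} (h : Tri T x e e') {M : Type*} [AddCommMonoid M]
    (φ : ι → M) : ∑ y ∈ T.erase x, φ y = φ e + φ e' := by
  rw [h.erase, Finset.sum_insert (by simp [h.2.2.1]), Finset.sum_singleton]

theorem Tri.tsum {T : Finset ι} {x e e' : ι} (h : Tri T x e e') (X : ι → κ → Bool) (w : κ) :
    tsum T X w = (X x w).toNat + (X e w).toNat + (X e' w).toNat :=
  h.sum (fun y => (X y w).toNat)

theorem exists_tri {T : Finset ι} (hT : T.card = 3) {x : ι} (hx : x ∈ T) :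
    ∃ e e', Tri T x e e' := by
  obtain ⟨a, b, d, hab, had, hbd, rfl⟩ := Finset.card_eq_three.1 hT
  have h0 : Tri ({a, b, d} : Finset ι) a b d := ⟨hab, had, hbd, rfl⟩
  simp only [mem_insert, mem_singleton] at hx
  rcases hx with rfl | rfl | rfl
  · exact ⟨_, _, h0⟩
  · exact ⟨_, _, h0.swap12⟩
  · exact ⟨_, _, h0.rot⟩

/-- matrices agreeing off `T × C` and on row `x` agree off `(T.erase x) × C` -/
theorem agreeOff_erase_of_row {T : Finset ι} {C : Finset κ} {x : ι} {X Y : Mat r c}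
    (h : AgreeOff T C X Y) (hrow : ∀ w, X.1 x w = Y.1 x w) : AgreeOff (T.erase x) C X Y := by
  intro y w hyw
  by_cases hy : y = x
  · rw [hy]; exact hrow w
  · exact h y w (fun h' => hyw ⟨Finset.mem_erase.2 ⟨hy, h'.1⟩, h'.2⟩)

theorem AgreeOff.of_erase {T : Finset ι} {C : Finset κ} {x : ι} {X Y : Mat r c}
    (h : AgreeOff (T.erase x) C X Y) : AgreeOff T C X Y :=
  h.mono (Finset.erase_subset _ _) (Finset.Subset.refl _)

theorem AgreeOff.row_eq {T : Finset ι} {C : Finset κ} {x : ι} {X Y : Mat r c}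
    (h : AgreeOff (T.erase x) C X Y) (w : κ) : X.1 x w = Y.1 x w :=
  h x w (fun h' => (Finset.notMem_erase x T) h'.1)

end P335
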