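import Vale.Agent.Lib.P335.Basic

/-!
# P335 (general graphs): the abstract operator part of inequality (I)

`P, P'` are the heat baths of two disjoint vertex-pair blocks `b, b'`, `P0, P0'` the heat baths of
the parts of the two blocks outside `b ∪ b'`, `q` the switch form on the 4-cycle `b x b'`.
Everything commutes except `P` and `P'`.  With `φ = P0 (P0' f)`:

  `<Q f, Q' f>  ≥  <f, q f> - <φ, q φ> + <Q φ, Q' φ>`.
-/

namespace P335

open Finset

variable {Ω : Type*} [Fintype Ω]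

theorem dot_zero_left (g : Ω → ℝ) : dot (0 : Ω → ℝ) g = 0 := by simp [dot]

theorem dot_zero_right (g : Ω → ℝ) : dot g (0 : Ω → ℝ) = 0 := by simp [dot]

/-- orthogonal splitting of a bilinear expression along a symmetric idempotent commuting with
both operators -/
theorem dot_split (W S T : (Ω → ℝ) →ₗ[ℝ] (Ω → ℝ))
    (sW : ∀ f g, dot (W f) g = dot f (W g)) (iW : ∀ f, W (W f) = W f)
    (cS : ∀ f, S (W f) = W (S f)) (cT : ∀ f, T (W f) = W (T f)) (f : Ω → ℝ) :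
    dot (S f) (T f) = dot (S (W f)) (T (W f)) + dot (S (f - W f)) (T (f - W f)) := by
  have e1 : dot (S (W f)) (T (f - W f)) = 0 := by
    rw [map_sub, cS, cT, sW, map_sub, iW, sub_self, dot_zero_right]
  have e2 : dot (S (f - W f)) (T (W f)) = 0 := by
    rw [map_sub, cS, cT, dot_comm, sW, map_sub, iW, sub_self, dot_zero_right]
  have hS : S f = S (W f) + S (f - W f) := by rw [← map_add]; congr 1; abel
  have hT : T f = T (W f) + T (f - W f) := by rw [← map_add]; congr 1; abel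
  calc dot (S f) (T f)
      = dot (S (W f) + S (f - W f)) (T (W f) + T (f - W f)) := by rw [← hS, ← hT]
    _ = dot (S (W f)) (T (W f)) + dot (S (f - W f)) (T (f - W f)) := by
        rw [dot_add_left, dot_add_right, dot_add_right, e1, e2]; ring

/-- a symmetric idempotent is a contraction: `<g, q g> ≤ <g, g>` -/
theorem dot_proj_le (q : (Ω → ℝ) →ₗ[ℝ] (Ω → ℝ))
    (sq : ∀ f g, dot (q f) g = dot f (q g)) (iq : ∀ f, q (q f) = q f) (g : Ω → ℝ) :
    dot g (q g) ≤ dot g g := by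
  have h := dot_self_nonneg (g - q g)
  have e : dot (q g) (q g) = dot g (q g) := by rw [sq, iq]
  rw [dot_sub_left, dot_sub_right, dot_sub_right, e, dot_comm (q g) g] at h
  linarith

/-- if `P q = 0` then `<g, q g> ≤ <g, g - P g>` -/
theorem dot_proj_le_Q (P q : (Ω → ℝ) →ₗ[ℝ] (Ω → ℝ))
    (sP : ∀ f g, dot (P f) g = dot f (P g)) (iP : ∀ f, P (P f) = P f)
    (sq : ∀ f g, dot (q f) g = dot f (q g)) (iq : ∀ f, q (q f) = q f)
    (z : ∀ f, P (q f) = 0) (g : Ω → ℝ) :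
    dot g (q g) ≤ dot g (g - P g) := by
  have hqP : ∀ u, q (P u) = 0 := by
    intro u
    apply dot_self_eq_zero
    rw [sq, iq, sP, z, dot_zero_right]
  have h := dot_proj_le q sq iq (g - P g)
  have e1 : q (g - P g) = q g := by rw [map_sub, hqP, sub_zero]
  have e2 : dot (g - P g) (q g) = dot g (q g) := by
    rw [dot_sub_left, sP, z, dot_zero_right, sub_zero]
  have e3 : dot (g - P g) (g - P g) = dot g (g - P g) := by
    rw [dot_sub_left g (P g), sP, map_sub, iP, sub_self, dot_zero_right, sub_zero]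
  rw [e1, e2, e3] at h
  exact h

/-- **Abstract part of (I).** -/
theorem opI (P P' P0 P0' q : (Ω → ℝ) →ₗ[ℝ] (Ω → ℝ))
    (sP : ∀ f g, dot (P f) g = dot f (P g)) (sP' : ∀ f g, dot (P' f) g = dot f (P' g))
    (sP0 : ∀ f g, dot (P0 f) g = dot f (P0 g)) (sP0' : ∀ f g, dot (P0' f) g = dot f (P0' g))
    (sq : ∀ f g, dot (q f) g = dot f (q g))
    (iP : ∀ f, P (P f) = P f) (iP' : ∀ f, P' (P' f) = P' f)
    (iP0 : ∀ f, P0 (P0 f) = P0 f) (iP0' : ∀ f, P0' (P0' f) = P0' f)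
    (iq : ∀ f, q (q f) = q f)
    (a1 : ∀ f, P (P0 f) = P f) (a2 : ∀ f, P0 (P f) = P f)
    (a1' : ∀ f, P' (P0' f) = P' f) (a2' : ∀ f, P0' (P' f) = P' f)
    (c2 : ∀ f, P' (P0 f) = P0 (P' f)) (c3 : ∀ f, P (P0' f) = P0' (P f))
    (c4 : ∀ f, q (P0 f) = P0 (q f)) (c4' : ∀ f, q (P0' f) = P0' (q f))
    (z : ∀ f, P (q f) = 0) (z' : ∀ f, P' (q f) = 0) (f : Ω → ℝ) :
    dot f (q f) - dot (P0 (P0' f)) (q (P0 (P0' f)))
        + dot (P0 (P0' f) - P (P0 (P0' f))) (P0 (P0' f) - P' (P0 (P0' f)))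
      ≤ dot (f - P f) (f - P' f) := by
  -- operators `Q = 1 - P`, `Q' = 1 - P'`, `1`
  set Q : (Ω → ℝ) →ₗ[ℝ] (Ω → ℝ) := LinearMap.id - P with hQ
  set Q' : (Ω → ℝ) →ₗ[ℝ] (Ω → ℝ) := LinearMap.id - P' with hQ'
  have Qa : ∀ g, Q g = g - P g := fun g => by simp [hQ]
  have Qa' : ∀ g, Q' g = g - P' g := fun g => by simp [hQ']
  have cQ0 : ∀ g, Q (P0 g) = P0 (Q g) := fun g => by rw [Qa, Qa, map_sub, a1, a2]
  have cQ0' : ∀ g, Q (P0' g) = P0' (Q g) := fun g => by rw [Qa, Qa, map_sub, c3]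
  have cQ'0 : ∀ g, Q' (P0 g) = P0 (Q' g) := fun g => by rw [Qa', Qa', map_sub, c2]
  have cQ'0' : ∀ g, Q' (P0' g) = P0' (Q' g) := fun g => by rw [Qa', Qa', map_sub, a1', a2']
  have cid : ∀ (W : (Ω → ℝ) →ₗ[ℝ] (Ω → ℝ)) (g : Ω → ℝ),
      (LinearMap.id : (Ω → ℝ) →ₗ[ℝ] (Ω → ℝ)) (W g)
        = W ((LinearMap.id : (Ω → ℝ) →ₗ[ℝ] (Ω → ℝ)) g) := fun W g => rfl
  -- the four components
  set f' := P0' f with hf'
  set f'' := f - P0' f with hf''
  -- splitting of `<Q f, Q' f>`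
  have s1 := dot_split P0' Q Q' sP0' iP0' cQ0' cQ'0' f
  have s2 := dot_split P0 Q Q' sP0 iP0 cQ0 cQ'0 f'
  have s3 := dot_split P0 Q Q' sP0 iP0 cQ0 cQ'0 f''
  -- splitting of `<f, q f>`
  have t1 := dot_split P0' LinearMap.id q sP0' iP0' (cid P0') c4' f
  have t2 := dot_split P0 LinearMap.id q sP0 iP0 (cid P0) c4 f'
  have t3 := dot_split P0 LinearMap.id q sP0 iP0 (cid P0) c4 f''
  simp only [LinearMap.id_apply] at t1 t2 t3
  rw [← hf', ← hf''] at s1 t1
  -- component `Q0 P0'`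
  have k2 : dot (f' - P0 f') (q (f' - P0 f')) ≤ dot (Q (f' - P0 f')) (Q' (f' - P0 f')) := by
    have e : Q (f' - P0 f') = f' - P0 f' := by
      rw [Qa, map_sub P, a1, sub_self, sub_zero]
    rw [e, Qa']
    exact dot_proj_le_Q P' q sP' iP' sq iq z' _
  -- component `P0 Q0'`
  have k3 : dot (P0 f'') (q (P0 f'')) ≤ dot (Q (P0 f'')) (Q' (P0 f'')) := by
    have e0 : P' f'' = 0 := by rw [hf'', map_sub, a1', sub_self]
    have e : Q' (P0 f'') = P0 f'' := by
      rw [Qa', c2, e0, map_zero, sub_zero]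
    rw [e, Qa, dot_comm (P0 f'' - P (P0 f''))]
    exact dot_proj_le_Q P q sP iP sq iq z _
  -- component `Q0 Q0'`
  have k4 : dot (f'' - P0 f'') (q (f'' - P0 f''))
      ≤ dot (Q (f'' - P0 f'')) (Q' (f'' - P0 f'')) := by
    have e0 : P' f'' = 0 := by rw [hf'', map_sub, a1', sub_self]
    have e : Q (f'' - P0 f'') = f'' - P0 f'' := by
      rw [Qa, map_sub P, a1, sub_self, sub_zero]
    have e' : Q' (f'' - P0 f'') = f'' - P0 f'' := by
      rw [Qa', map_sub P', c2, e0, map_zero, sub_zero, sub_zero]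
    rw [e, e']
    exact dot_proj_le q sq iq _
  rw [← Qa f, ← Qa' f, ← Qa (P0 f'), ← Qa' (P0 f')]
  linarith

end P335
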