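import Vale.Agent.Lib.P335.Move

/-!
# P335: three-row lemma, step 1: invariance under transpositions of columns with equal sums
-/

namespace P335

open Finset

set_option linter.unusedSectionVars false

variable {ι κ : Type*} [Fintype ι] [Fintype κ] [DecidableEq ι] [DecidableEq κ]
variable {r : ι → ℕ} {c : κ → ℕ}

/-- the eigenfunction system of the three-row lemma: `g x` only depends on row `x` (inside a class
of `AgreeOff T C`) and `μ g_x = E[ sum of the other two | row x ]` -/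
def EigSys (T : Finset ι) (C : Finset κ) (μ : ℝ) (g : ι → Mat r c → ℝ) : Prop :=
  (∀ x ∈ T, Inv (AgreeOff (T.erase x) C) (g x)) ∧
  (∀ x ∈ T, ∀ X, μ * g x X = E (T.erase x) C (∑ y ∈ T.erase x, g y) X)

theorem EigSys.eq_of_row {T : Finset ι} {C : Finset κ} {μ : ℝ} {g : ι → Mat r c → ℝ}
    (hg : EigSys T C μ g) {x : ι} (hx : x ∈ T) {X Y : Mat r c} (h : AgreeOff T C X Y)
    (hrow : ∀ w, X.1 x w = Y.1 x w) : g x X = g x Y :=
  hg.1 x hx X Y (agreeOff_erase_of_row h hrow)

/-- swap the columns `p q` in all rows of `T` -/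
def colSwapPerm (T : Finset ι) (p q : κ) : ι → Equiv.Perm κ :=
  fun y => if y ∈ T then Equiv.swap p q else 1

theorem colSwapPerm_off (T : Finset ι) (p q : κ) : ∀ y, y ∉ T → colSwapPerm T p q y = 1 := by
  intro y hy
  unfold colSwapPerm
  rw [if_neg hy]

theorem colSwapPerm_inv (T : Finset ι) (p q : κ) :
    ∀ y w, colSwapPerm T p q y (colSwapPerm T p q y w) = w := by
  intro y w
  unfold colSwapPerm
  split_ifs
  · simp
  · rfl

theorem colSwapPerm_fix {T : Finset ι} {C : Finset κ} {p q : κ} (hp : p ∈ C) (hq : q ∈ C) :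
    ∀ y w, w ∉ C → colSwapPerm T p q y w = w := by
  intro y w hw
  unfold colSwapPerm
  split_ifs
  · exact Equiv.swap_apply_of_ne_of_ne (fun h => hw (h ▸ hp)) (fun h => hw (h ▸ hq))
  · rfl

theorem tsum_colSwap {T : Finset ι} {p q : κ} {X : ι → κ → Bool} (h : tsum T X p = tsum T X q)
    (w : κ) : tsum T (permRaw (colSwapPerm T p q) X) w = tsum T X w := by
  have h1 : tsum T (permRaw (colSwapPerm T p q) X) w = tsum T X (Equiv.swap p q w) := by
    unfold tsum
    refine Finset.sum_congr rfl (fun y hy => ?_)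
    unfold permRaw colSwapPerm
    rw [if_pos hy]
  rw [h1]
  by_cases hp : w = p
  · rw [hp, Equiv.swap_apply_left, h]
  · by_cases hq : w = q
    · rw [hq, Equiv.swap_apply_right, h]
    · rw [Equiv.swap_apply_of_ne_of_ne hp hq]

theorem colSwap_val {T : Finset ι} {p q : κ} {X : Mat r c} (h : tsum T X.1 p = tsum T X.1 q) :
    (move (colSwapPerm T p q) X).1 = permRaw (colSwapPerm T p q) X.1 :=
  move_val (colSwapPerm_off T p q) (tsum_colSwap h)

theorem colSwap_row {T : Finset ι} {p q : κ} {X : Mat r c} (h : tsum T X.1 p = tsum T X.1 q)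
    {y : ι} (hy : y ∈ T) (w : κ) :
    (move (colSwapPerm T p q) X).1 y w = X.1 y (Equiv.swap p q w) := by
  rw [colSwap_val h]
  unfold permRaw colSwapPerm
  rw [if_pos hy]

theorem colSwap_row_off {T : Finset ι} {p q : κ} {X : Mat r c} (h : tsum T X.1 p = tsum T X.1 q)
    {y : ι} (hy : y ∉ T) (w : κ) :
    (move (colSwapPerm T p q) X).1 y w = X.1 y w := by
  rw [colSwap_val h]
  unfold permRaw colSwapPerm
  rw [if_neg hy]
  rfl

/-- the class map used in step 1 -/
theorem colSwap_class {T : Finset ι} {C : Finset κ} {p q : κ} (hp : p ∈ C) (hq : q ∈ C) {x : ι}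
    {X Y : Mat r c} (hXY : AgreeOff T C X Y) (hs : tsum T X.1 p = tsum T X.1 q)
    (hrow : ∀ w, Y.1 x w = X.1 x (Equiv.swap p q w)) {Z : Mat r c}
    (hZ : AgreeOff (T.erase x) C X Z) :
    AgreeOff (T.erase x) C Y (move (colSwapPerm T p q) Z) := by
  have hsZ : tsum T Z.1 p = tsum T Z.1 q := by
    rw [← tsum_eq_of_agreeOff hZ.of_erase, ← tsum_eq_of_agreeOff hZ.of_erase, hs]
  intro y w hyw
  by_cases hy : y ∈ T
  · rw [colSwap_row hsZ hy]
    by_cases hyx : y = x
    · subst hyx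
      rw [hrow, hZ.row_eq]
    · have hw : w ∉ C := fun hw => hyw ⟨Finset.mem_erase.2 ⟨hyx, hy⟩, hw⟩
      have hwp : w ≠ p := fun h => hw (h ▸ hp)
      have hwq : w ≠ q := fun h => hw (h ▸ hq)
      rw [Equiv.swap_apply_of_ne_of_ne hwp hwq]
      rw [← hXY y w (fun h' => hw h'.2)]
      exact hZ y w (fun h' => hw h'.2)
  · rw [colSwap_row_off hsZ hy, ← hXY y w (fun h' => hy h'.1)]
    exact hZ y w (fun h' => hy (Finset.mem_of_mem_erase h'.1))

/-- parity: if the column sums over three rows at `p` and `q` agree and row `x` differs at `p q`,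
then one of the other two rows does not differ -/
theorem parity_aux (a1 a2 b1 b2 c1 c2 : Bool)
    (h : a1.toNat + b1.toNat + c1.toNat = a2.toNat + b2.toNat + c2.toNat) (ha : a1 ≠ a2) :
    b1 = b2 ∨ c1 = c2 := by
  revert h ha
  cases a1 <;> cases a2 <;> cases b1 <;> cases b2 <;> cases c1 <;> cases c2 <;> simp

theorem row_swap_eq_self {X : ι → κ → Bool} {y : ι} {p q : κ} (h : X y p = X y q) (w : κ) :
    X y (Equiv.swap p q w) = X y w := by
  by_cases hp : w = p
  · rw [hp, Equiv.swap_apply_left, h]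
  · by_cases hq : w = q
    · rw [hq, Equiv.swap_apply_right, h]
    · rw [Equiv.swap_apply_of_ne_of_ne hp hq]

/-- **Step 1**: `g x` is invariant under transposing, in row `x`, two free columns with the same
`T`-sum. -/
theorem step1 {T : Finset ι} (hT : T.card = 3) {C : Finset κ} {μ : ℝ} (hμ : 1 < μ)
    {g : ι → Mat r c → ℝ} (hg : EigSys T C μ g) {x : ι} (hx : x ∈ T) {X Y : Mat r c}
    (hXY : AgreeOff T C X Y) {p q : κ} (hp : p ∈ C) (hq : q ∈ C)
    (hs : tsum T X.1 p = tsum T X.1 q) (hrow : ∀ w, Y.1 x w = X.1 x (Equiv.swap p q w)) :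
    g x X = g x Y := by
  classical
  -- the finite type of admissible configurations
  let P := {π : ι × Mat r c × Mat r c // π.1 ∈ T ∧ AgreeOff T C π.2.1 π.2.2 ∧
    ∃ p ∈ C, ∃ q ∈ C, tsum T π.2.1.1 p = tsum T π.2.1.1 q ∧
      ∀ w, π.2.2.1 π.1 w = π.2.1.1 π.1 (Equiv.swap p q w)}
  have key := max_principle (P := P) (fun π => g π.1.1 π.1.2.1 - g π.1.1 π.1.2.2) μ hμ ?_
    ⟨(x, X, Y), hx, hXY, p, hp, q, hq, hs, hrow⟩
  · exact sub_eq_zero.1 key
  intro δ hδ
  rintro ⟨⟨x, X, Y⟩, hx, hXY, p, hp, q, hq, hs, hrow⟩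
  simp only
  have hδ0 : 0 ≤ δ := le_trans (abs_nonneg _) (hδ ⟨(x, X, Y), hx, hXY, p, hp, q, hq, hs, hrow⟩)
  by_cases hpq : X.1 x p = X.1 x q
  · have : g x X = g x Y := hg.eq_of_row hx hXY (fun w => by rw [hrow, row_swap_eq_self hpq])
    rw [this, sub_self, abs_zero, mul_zero]
    exact hδ0
  obtain ⟨e, e', htri⟩ := exists_tri hT hx
  have hμ0 : 0 ≤ μ := by linarith
  rw [← abs_of_nonneg hμ0, ← abs_mul, mul_sub, hg.2 x hx X, hg.2 x hx Y]
  have hrow' : ∀ w, X.1 x w = Y.1 x (Equiv.swap p q w) := by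
    intro w
    rw [hrow, Equiv.swap_apply_self]
  have hsY : tsum T Y.1 p = tsum T Y.1 q := by
    rw [← tsum_eq_of_agreeOff hXY, ← tsum_eq_of_agreeOff hXY, hs]
  have hYX : AgreeOff T C Y X := (agreeOff_equiv T C).symm hXY
  refine abs_avg_sub_avg_le (agreeOff_equiv _ _) _ X Y (move (colSwapPerm T p q))
    (move (colSwapPerm T p q)) (fun Z hZ => colSwap_class hp hq hXY hs hrow hZ)
    (fun Z hZ => colSwap_class hp hq hYX hsY hrow' hZ) ?_ ?_ δ ?_
  · intro Z hZ
    refine move_move (colSwapPerm_inv T p q) (colSwap_val ?_)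
    rw [← tsum_eq_of_agreeOff hZ.of_erase, ← tsum_eq_of_agreeOff hZ.of_erase, hs]
  · intro Z hZ
    refine move_move (colSwapPerm_inv T p q) (colSwap_val ?_)
    rw [← tsum_eq_of_agreeOff hZ.of_erase, ← tsum_eq_of_agreeOff hZ.of_erase, hsY]
  · intro Z hZ
    have hsZ : tsum T Z.1 p = tsum T Z.1 q := by
      rw [← tsum_eq_of_agreeOff hZ.of_erase, ← tsum_eq_of_agreeOff hZ.of_erase, hs]
    set Z' := move (colSwapPerm T p q) Z with hZ'
    have hZZ' : AgreeOff T C Z Z' :=
      agreeOff_move (colSwapPerm_off T p q) (colSwapPerm_fix hp hq) (colSwap_val hsZ)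
    have hb : |g e Z - g e Z'| ≤ δ :=
      hδ ⟨(e, Z, Z'), htri.mem2, hZZ', p, hp, q, hq, hsZ, fun w => colSwap_row hsZ htri.mem2 w⟩
    have hc : |g e' Z - g e' Z'| ≤ δ :=
      hδ ⟨(e', Z, Z'), htri.mem3, hZZ', p, hp, q, hq, hsZ, fun w => colSwap_row hsZ htri.mem3 w⟩
    have hsum : (∑ y ∈ T.erase x, g y) Z - (∑ y ∈ T.erase x, g y) Z'
        = (g e Z - g e Z') + (g e' Z - g e' Z') := by
      rw [htri.sum_erase]
      simp only [Pi.add_apply]
      ring
    rw [hsum]
    have hZx : Z.1 x p ≠ Z.1 x q := by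
      rw [← hZ.row_eq, ← hZ.row_eq]; exact hpq
    have hpar := hsZ
    rw [htri.tsum, htri.tsum] at hpar
    rcases parity_aux _ _ _ _ _ _ hpar hZx with h1 | h1
    · have : g e Z = g e Z' := hg.eq_of_row htri.mem2 hZZ'
        (fun w => by rw [hZ', colSwap_row hsZ htri.mem2, row_swap_eq_self h1])
      rw [this, sub_self, zero_add]
      exact hc
    · have : g e' Z = g e' Z' := hg.eq_of_row htri.mem3 hZZ'
        (fun w => by rw [hZ', colSwap_row hsZ htri.mem3, row_swap_eq_self h1])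
      rw [this, sub_self, add_zero]
      exact hb

end P335
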