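import Vale.Agent.Lib.P335.Step1

/-!
# P335: three-row lemma, step 2, auxiliary counting lemmas
-/

namespace P335

open Finset

set_option linter.unusedSectionVars false

/-- the basic indexed double counting identity -/
theorem double_count_indexed {Ω U : Type*} (A B : Finset Ω) (NA NB : Ω → Finset U)
    (m m' : U → Ω → Ω)
    (h1 : ∀ a ∈ A, ∀ u ∈ NA a, m u a ∈ B ∧ u ∈ NB (m u a) ∧ m' u (m u a) = a)
    (h2 : ∀ b ∈ B, ∀ u ∈ NB b, m' u b ∈ A ∧ u ∈ NA (m' u b) ∧ m u (m' u b) = b)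
    (φ : Ω → Ω → ℝ) :
    ∑ a ∈ A, ∑ u ∈ NA a, φ a (m u a) = ∑ b ∈ B, ∑ u ∈ NB b, φ (m' u b) b := by
  rw [Finset.sum_sigma', Finset.sum_sigma']
  refine Finset.sum_bij' (fun x _ => ⟨m x.2 x.1, x.2⟩) (fun y _ => ⟨m' y.2 y.1, y.2⟩)
    ?_ ?_ ?_ ?_ ?_
  · rintro ⟨a, u⟩ hx
    rw [Finset.mem_sigma] at hx ⊢
    exact ⟨(h1 a hx.1 u hx.2).1, (h1 a hx.1 u hx.2).2.1⟩
  · rintro ⟨b, u⟩ hx
    rw [Finset.mem_sigma] at hx ⊢
    exact ⟨(h2 b hx.1 u hx.2).1, (h2 b hx.1 u hx.2).2.1⟩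
  · rintro ⟨a, u⟩ hx
    rw [Finset.mem_sigma] at hx
    simp only
    rw [(h1 a hx.1 u hx.2).2.2]
  · rintro ⟨b, u⟩ hx
    rw [Finset.mem_sigma] at hx
    simp only
    rw [(h2 b hx.1 u hx.2).2.2]
  · rintro ⟨a, u⟩ hx
    rw [Finset.mem_sigma] at hx
    simp only
    rw [(h1 a hx.1 u hx.2).2.2]

/-- indexed biregular double counting.  `m u` maps `a ∈ A`, `u ∈ NA a` to `B`, with inverse `m' u`
(`u ∈ NB b`); all `NA a` have `α` elements, all `NB b` have `β > 0` elements, and `H` changes by at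
most `δ` along `m`.  Then the sum over `B` of `H b - mean_A H` is at most `|B| δ` in modulus.
Proof: `Σ_{a ∈ A} Σ_{u ∈ NA a} φ a (m u a) = Σ_{b ∈ B} Σ_{u ∈ NB b} φ (m' u b) b`
(`Finset.sum_sigma'`, `Finset.sum_bij'`), applied to `φ = 1`, giving `|A| α = |B| β`, and to
`φ a b = H b - H a`, giving `β Σ_B H - α Σ_A H`. -/
theorem biregular_indexed {Ω U : Type*} (A B : Finset Ω) (NA NB : Ω → Finset U)
    (m m' : U → Ω → Ω) (α β : ℕ)
    (hα : ∀ a ∈ A, (NA a).card = α) (hβ : ∀ b ∈ B, (NB b).card = β) (hβ0 : 0 < β)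
    (hA : A.Nonempty)
    (h1 : ∀ a ∈ A, ∀ u ∈ NA a, m u a ∈ B ∧ u ∈ NB (m u a) ∧ m' u (m u a) = a)
    (h2 : ∀ b ∈ B, ∀ u ∈ NB b, m' u b ∈ A ∧ u ∈ NA (m' u b) ∧ m u (m' u b) = b)
    (H : Ω → ℝ) (δ : ℝ) (hH : ∀ a ∈ A, ∀ u ∈ NA a, |H (m u a) - H a| ≤ δ) :
    |∑ b ∈ B, (H b - (∑ a ∈ A, H a) / (A.card : ℝ))| ≤ (B.card : ℝ) * δ := by
  have hone := double_count_indexed A B NA NB m m' h1 h2 (fun _ _ => (1 : ℝ))
  have hHa := double_count_indexed A B NA NB m m' h1 h2 (fun a _ => H a)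
  have hHb := double_count_indexed A B NA NB m m' h1 h2 (fun _ b => H b)
  -- cardinalities
  have c1 : (A.card : ℝ) * α = (B.card : ℝ) * β := by
    have l : ∑ a ∈ A, ∑ _u ∈ NA a, (1 : ℝ) = (A.card : ℝ) * α := by
      rw [Finset.sum_congr rfl (fun a ha => by
        rw [Finset.sum_const, hα a ha, nsmul_eq_mul, mul_one] : ∀ a ∈ A,
          ∑ _u ∈ NA a, (1 : ℝ) = (α : ℝ))]
      rw [Finset.sum_const, nsmul_eq_mul]
    have r : ∑ b ∈ B, ∑ _u ∈ NB b, (1 : ℝ) = (B.card : ℝ) * β := by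
      rw [Finset.sum_congr rfl (fun b hb => by
        rw [Finset.sum_const, hβ b hb, nsmul_eq_mul, mul_one] : ∀ b ∈ B,
          ∑ _u ∈ NB b, (1 : ℝ) = (β : ℝ))]
      rw [Finset.sum_const, nsmul_eq_mul]
    rw [← l, ← r]
    exact hone
  have c2 : ∑ a ∈ A, ∑ _u ∈ NA a, H a = (α : ℝ) * ∑ a ∈ A, H a := by
    rw [Finset.mul_sum]
    refine Finset.sum_congr rfl fun a ha => ?_
    rw [Finset.sum_const, hα a ha, nsmul_eq_mul]
  have c3 : ∑ b ∈ B, ∑ _u ∈ NB b, H b = (β : ℝ) * ∑ b ∈ B, H b := by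
    rw [Finset.mul_sum]
    refine Finset.sum_congr rfl fun b hb => ?_
    rw [Finset.sum_const, hβ b hb, nsmul_eq_mul]
  have c4 : |∑ a ∈ A, ∑ u ∈ NA a, (H (m u a) - H a)| ≤ (A.card : ℝ) * α * δ := by
    calc |∑ a ∈ A, ∑ u ∈ NA a, (H (m u a) - H a)|
        ≤ ∑ a ∈ A, |∑ u ∈ NA a, (H (m u a) - H a)| := Finset.abs_sum_le_sum_abs _ _
      _ ≤ ∑ a ∈ A, ∑ u ∈ NA a, |H (m u a) - H a| :=
          Finset.sum_le_sum fun a _ => Finset.abs_sum_le_sum_abs _ _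
      _ ≤ ∑ a ∈ A, ∑ _u ∈ NA a, δ :=
          Finset.sum_le_sum fun a ha => Finset.sum_le_sum fun u hu => hH a ha u hu
      _ = (A.card : ℝ) * α * δ := by
          rw [Finset.sum_congr rfl (fun a ha => by
            rw [Finset.sum_const, hα a ha, nsmul_eq_mul] : ∀ a ∈ A,
              ∑ _u ∈ NA a, δ = (α : ℝ) * δ)]
          rw [Finset.sum_const, nsmul_eq_mul, mul_assoc]
  have c5 : ∑ a ∈ A, ∑ u ∈ NA a, (H (m u a) - H a)
      = (β : ℝ) * ∑ b ∈ B, H b - (α : ℝ) * ∑ a ∈ A, H a := by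
    simp only [Finset.sum_sub_distrib]
    rw [hHb, c3, c2]
  have hAc : (0 : ℝ) < A.card := by exact_mod_cast Finset.card_pos.2 hA
  have hβr : (0 : ℝ) < β := by exact_mod_cast hβ0
  have c6 : ∑ b ∈ B, (H b - (∑ a ∈ A, H a) / (A.card : ℝ))
      = ((β : ℝ) * ∑ b ∈ B, H b - (α : ℝ) * ∑ a ∈ A, H a) / β := by
    rw [Finset.sum_sub_distrib, Finset.sum_const, nsmul_eq_mul]
    have hα' : (α : ℝ) = (B.card : ℝ) * β / A.card := by
      rw [eq_div_iff hAc.ne']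
      linarith
    rw [hα']
    field_simp
  rw [c6, abs_div, abs_of_pos hβr, div_le_iff₀ hβr, ← c5]
  calc |∑ a ∈ A, ∑ u ∈ NA a, (H (m u a) - H a)| ≤ (A.card : ℝ) * α * δ := c4
    _ = (B.card : ℝ) * δ * β := by rw [c1]; ring

variable {ι κ : Type*} [Fintype ι] [Fintype κ] [DecidableEq ι] [DecidableEq κ]
variable {r : ι → ℕ} {c : κ → ℕ}

/-- the free columns where row `e` has a one and row `e'` a zero -/
def NN (C : Finset κ) (e e' : ι) (Z : Mat r c) : Finset κ :=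
  C.filter (fun u => Z.1 e u = true ∧ Z.1 e' u = false)

/-- `|NN C e e' Z|` is constant on the classes of `AgreeOff {e, e'} C`.
Proof: `Σ_{u ∈ C} (Z e u).toNat` is constant (`sum_row_eq_of_agreeOff`), for every `u` the sum
`(Z e u).toNat + (Z e' u).toNat` is constant (`sum_col_eq_of_agreeOff` with the pair `{e, e'}`),
and `[Z e u ∧ ¬ Z e' u] = (Z e u).toNat - [ (Z e u).toNat + (Z e' u).toNat = 2 ]`. -/
theorem card_NN_eq {C : Finset κ} {e e' : ι} (hee : e ≠ e') {Z Z' : Mat r c}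
    (h : AgreeOff {e, e'} C Z Z') : (NN C e e' Z).card = (NN C e e' Z').card := by
  have key : ∀ Y : Mat r c, (NN C e e' Y).card
      + ∑ u ∈ C, (if (Y.1 e u).toNat + (Y.1 e' u).toNat = 2 then 1 else 0)
      = ∑ u ∈ C, (Y.1 e u).toNat := by
    intro Y
    rw [NN, Finset.card_filter, ← Finset.sum_add_distrib]
    refine Finset.sum_congr rfl fun u _ => ?_
    cases Y.1 e u <;> cases Y.1 e' u <;> simp
  have hrow := sum_row_eq_of_agreeOff h e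
  have hcol : ∀ u, (Z.1 e u).toNat + (Z.1 e' u).toNat
      = (Z'.1 e u).toNat + (Z'.1 e' u).toNat := by
    intro u
    have := sum_col_eq_of_agreeOff h u
    rwa [Finset.sum_pair hee, Finset.sum_pair hee] at this
  have k1 := key Z
  have k2 := key Z'
  simp only [hcol] at k1
  omega

end P335
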