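import Vale.Agent.Lib.P335.Step2a

/-!
# P335: three-row lemma, step 2: the four classes of the second fibre
-/

namespace P335

open Finset

set_option linter.unusedSectionVars false

variable {ι κ : Type*} [Fintype ι] [Fintype κ] [DecidableEq ι] [DecidableEq κ]
variable {r : ι → ℕ} {c : κ → ℕ}

/-- the configuration of step 2: in row `x` the one at column `p` (of `T`-sum 1) is moved to
column `q` (of `T`-sum 2) -/
structure Ctx (T : Finset ι) (C : Finset κ) (x e e' : ι) (p q : κ) (X Y : Mat r c) : Prop where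
  tri : Tri T x e e'
  hp : p ∈ C
  hq : q ∈ C
  hXY : AgreeOff T C X Y
  hxp : X.1 x p = true
  hxq : X.1 x q = false
  hrow : ∀ w, Y.1 x w = X.1 x (Equiv.swap p q w)
  hsp : tsum T X.1 p = 1
  hsq : tsum T X.1 q = 2

theorem Ctx.swap {T : Finset ι} {C : Finset κ} {x e e' : ι} {p q : κ} {X Y : Mat r c}
    (h : Ctx T C x e e' p q X Y) : Ctx T C x e' e p q X Y :=
  { h with tri := h.tri.swap23 }

theorem Ctx.hpq {T : Finset ι} {C : Finset κ} {x e e' : ι} {p q : κ} {X Y : Mat r c}
    (h : Ctx T C x e e' p q X Y) : p ≠ q := by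
  intro hpq
  have h1 := h.hxp
  rw [hpq, h.hxq] at h1
  exact Bool.noConfusion h1

/-- entries at the columns `p q` of a matrix in the first fibre -/
theorem Ctx.factF {T : Finset ι} {C : Finset κ} {x e e' : ι} {p q : κ} {X Y : Mat r c}
    (h : Ctx T C x e e' p q X Y) {Z : Mat r c} (hZ : AgreeOff (T.erase x) C X Z) :
    Z.1 x p = true ∧ Z.1 x q = false ∧ Z.1 e p = false ∧ Z.1 e' p = false ∧
      Z.1 e q = true ∧ Z.1 e' q = true := by
  have h1 : Z.1 x p = true := by rw [← hZ.row_eq]; exact h.hxp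
  have h2 : Z.1 x q = false := by rw [← hZ.row_eq]; exact h.hxq
  have h3 := h.hsp
  have h4 := h.hsq
  rw [tsum_eq_of_agreeOff hZ.of_erase, h.tri.tsum] at h3 h4
  rw [h1] at h3
  rw [h2] at h4
  revert h3 h4
  cases Z.1 e p <;> cases Z.1 e' p <;> cases Z.1 e q <;> cases Z.1 e' q <;> simp [h1, h2]

/-- entries at the columns `p q` of a matrix in the second fibre -/
theorem Ctx.factF' {T : Finset ι} {C : Finset κ} {x e e' : ι} {p q : κ} {X Y : Mat r c}
    (h : Ctx T C x e e' p q X Y) {Z : Mat r c} (hZ : AgreeOff (T.erase x) C Y Z) :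
    Z.1 x p = false ∧ Z.1 x q = true ∧ (Z.1 e p).toNat + (Z.1 e' p).toNat = 1 ∧
      (Z.1 e q).toNat + (Z.1 e' q).toNat = 1 := by
  have h1 : Z.1 x p = false := by
    rw [← hZ.row_eq, h.hrow, Equiv.swap_apply_left]; exact h.hxq
  have h2 : Z.1 x q = true := by
    rw [← hZ.row_eq, h.hrow, Equiv.swap_apply_right]; exact h.hxp
  have h3 := h.hsp
  have h4 := h.hsq
  rw [tsum_eq_of_agreeOff h.hXY, tsum_eq_of_agreeOff hZ.of_erase, h.tri.tsum] at h3 h4
  rw [h1] at h3
  rw [h2] at h4
  refine ⟨h1, h2, ?_, ?_⟩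
  · simpa using h3
  · simp at h4
    omega

/-- the hypotheses on `g` available in step 2: the a priori bound `δ` on all transposition
differences and exact invariance under equal-sum transpositions (step 1) -/
structure Hyp (T : Finset ι) (C : Finset κ) (g : ι → Mat r c → ℝ) (δ : ℝ) : Prop where
  inv : ∀ y ∈ T, Inv (AgreeOff (T.erase y) C) (g y)
  bound : ∀ y ∈ T, ∀ Z Z' : Mat r c, AgreeOff T C Z Z' → ∀ a ∈ C, ∀ b ∈ C,
    (∀ w, Z'.1 y w = Z.1 y (Equiv.swap a b w)) → |g y Z - g y Z'| ≤ δ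
  same : ∀ y ∈ T, ∀ Z Z' : Mat r c, AgreeOff T C Z Z' → ∀ a ∈ C, ∀ b ∈ C,
    tsum T Z.1 a = tsum T Z.1 b → (∀ w, Z'.1 y w = Z.1 y (Equiv.swap a b w)) → g y Z = g y Z'

/-- the permutation family of the moves of step 2: row `x` moves its one from `p` to `q`, row `e`
from `u` to `p`, row `e'` from `q` to `u` (for `u = q` row `e'` is not changed) -/
def cyc (x e e' : ι) (p q u : κ) : ι → Equiv.Perm κ :=
  fun y => if y = x then Equiv.swap p q else if y = e then Equiv.swap u p
    else if y = e' then Equiv.swap q u else 1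

end P335
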